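/-
Module M3 of the `OTStab` library (S0109): an absolutely continuous finite measure on Euclidean space can be pushed
to any measure of the same mass by a measurable map.  Probability integral transform plus Mathlib's
`Measure.exists_measurable_map_eq`.
-/
import Mathlib

set_option autoImplicit false

namespace Crest.Agent.Lib.OTStab

open MeasureTheory Set ProbabilityTheory Filter Topology
open scoped ENNReal unitInterval

/-- The cdf of an atomless probability measure is continuous. -/
theorem continuous_cdf_of_noAtoms (m : Measure ℝ) [IsProbabilityMeasure m] [NullSingletonClass m] :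
    Continuous (cdf m) := by
  rw [continuous_iff_continuousAt]
  intro a
  have hsing : (cdf m).measure {a} = ENNReal.ofReal (cdf m a - Function.leftLim (cdf m) a) :=
    (cdf m).measure_singleton a
  rw [measure_cdf, measure_singleton, eq_comm, ENNReal.ofReal_eq_zero] at hsing
  have hle : Function.leftLim (cdf m) a ≤ cdf m a := (monotone_cdf m).leftLim_le le_rfl
  have heq : Function.leftLim (cdf m) a = cdf m a := le_antisymm hle (by linarith)
  have hleft : ContinuousWithinAt (cdf m) (Iio a) a :=
    ((monotone_cdf m).continuousWithinAt_Iio_iff_leftLim_eq).2 heq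
  have hright : ContinuousWithinAt (cdf m) (Ici a) a := (cdf m).right_continuous a
  exact continuousAt_iff_continuous_left'_right'.2 ⟨hleft, (continuousWithinAt_Ioi_iff_Ici.2 hright)⟩

/-- Probability integral transform: for `u ∈ [0,1]`, `m {t | F t ≤ u} = u`. -/
theorem measure_cdf_le (m : Measure ℝ) [IsProbabilityMeasure m] [NullSingletonClass m] {u : ℝ} (hu0 : 0 ≤ u)
    (hu1 : u ≤ 1) : m {t | cdf m t ≤ u} = ENNReal.ofReal u := by
  have hF := continuous_cdf_of_noAtoms m
  rcases eq_or_lt_of_le hu1 with rfl | hu1'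
  · have : {t | cdf m t ≤ 1} = univ := by
      ext t
      simpa using cdf_le_one m t
    rw [this]
    simp
  set S : Set ℝ := {t | cdf m t ≤ u} with hS
  by_cases hne : S.Nonempty
  · have hclosed : IsClosed S := isClosed_le hF continuous_const
    have hbdd : BddAbove S := by
      have := (tendsto_order.1 (tendsto_cdf_atTop m)).1 u hu1'
      obtain ⟨b, hb⟩ := (this.and (eventually_ge_atTop 0)).exists
      refine ⟨b, fun t ht => ?_⟩
      by_contra hlt
      have := (monotone_cdf m) (le_of_not_ge hlt)
      have ht' : cdf m t ≤ u := ht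
      linarith [hb.1]
    set t₀ := sSup S with ht₀
    have hmem : t₀ ∈ S := hclosed.csSup_mem hne hbdd
    have hIic : S = Iic t₀ := by
      ext t
      constructor
      · intro ht
        exact le_csSup hbdd ht
      · intro ht
        exact ((monotone_cdf m) ht).trans hmem
    have hval : cdf m t₀ = u := by
      apply le_antisymm hmem
      have hlim : Tendsto (cdf m) (𝓝[>] t₀) (𝓝 (cdf m t₀)) :=
        (hF.tendsto t₀).mono_left nhdsWithin_le_nhds
      refine ge_of_tendsto hlim ?_
      filter_upwards [self_mem_nhdsWithin] with t ht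
      by_contra hlt
      have : t ∈ S := le_of_lt (not_le.1 hlt)
      exact absurd (le_csSup hbdd this) (not_le.2 ht)
    rw [hIic, ← ofReal_cdf, hval]
  · rw [not_nonempty_iff_eq_empty] at hne
    have hu : u = 0 := by
      by_contra h
      have hpos : 0 < u := lt_of_le_of_ne hu0 (Ne.symm h)
      obtain ⟨b, hb⟩ := ((tendsto_order.1 (tendsto_cdf_atBot m)).2 u hpos).exists
      have : b ∈ S := hb.le
      rw [hne] at this
      exact this
    rw [hne, hu]
    simp

/-- The probability integral transform as a map to the unit interval. -/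
noncomputable def cdfI (m : Measure ℝ) (t : ℝ) : I := ⟨cdf m t, cdf_nonneg m t, cdf_le_one m t⟩

theorem measurable_cdfI (m : Measure ℝ) : Measurable (cdfI m) :=
  ((monotone_cdf m).measurable).subtype_mk

theorem map_cdfI (m : Measure ℝ) [IsProbabilityMeasure m] [NullSingletonClass m] :
    m.map (cdfI m) = (volume : Measure I) := by
  have : IsProbabilityMeasure (m.map (cdfI m)) :=
    Measure.isProbabilityMeasure_map (measurable_cdfI m).aemeasurable
  refine Measure.ext_of_Iic _ _ fun u => ?_
  rw [Measure.map_apply (measurable_cdfI m) measurableSet_Iic, unitInterval.volume_Iic]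
  exact measure_cdf_le m u.2.1 u.2.2

/-- Hyperplanes are null. -/
theorem volume_coord_eq {d : ℕ} (i : Fin d) (t : ℝ) :
    volume {x : EuclideanSpace ℝ (Fin d) | x i = t} = 0 := by
  let L : EuclideanSpace ℝ (Fin d) →ₗ[ℝ] ℝ :=
    (LinearMap.proj i : (Fin d → ℝ) →ₗ[ℝ] ℝ) ∘ₗ (WithLp.linearEquiv 2 ℝ (Fin d → ℝ)).toLinearMap
  have hLne : LinearMap.ker L ≠ ⊤ := by
    intro h
    have h1 : EuclideanSpace.single i (1 : ℝ) ∈ LinearMap.ker L := by rw [h]; trivial
    have h2 : L (EuclideanSpace.single i (1 : ℝ)) = 1 := by simp [L]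
    rw [LinearMap.mem_ker] at h1
    rw [h1] at h2
    exact zero_ne_one h2
  have h0 : volume ((LinearMap.ker L : Submodule ℝ _) : Set (EuclideanSpace ℝ (Fin d))) = 0 :=
    Measure.addHaar_submodule _ _ hLne
  have hset : {x : EuclideanSpace ℝ (Fin d) | x i = t} =
      (fun x => x + EuclideanSpace.single i (-t)) ⁻¹' (LinearMap.ker L : Submodule ℝ _) := by
    ext x
    simp [L, add_neg_eq_zero]
  rw [hset, measure_preimage_add_right]
  exact h0

/-- Absolutely continuous finite measures can be pushed to any measure of the same mass. -/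
theorem exists_map_of_ac {d : ℕ} (hd : 1 ≤ d) (lam nu : Measure (EuclideanSpace ℝ (Fin d)))
    [IsFiniteMeasure lam] (hlam : lam ≪ volume) (hmass : lam univ = nu univ) :
    ∃ S : EuclideanSpace ℝ (Fin d) → EuclideanSpace ℝ (Fin d), Measurable S ∧ lam.map S = nu := by
  by_cases h0 : lam univ = 0
  · have hl : lam = 0 := Measure.measure_univ_eq_zero.1 h0
    have hn : nu = 0 := Measure.measure_univ_eq_zero.1 (hmass ▸ h0)
    refine ⟨fun _ => 0, measurable_const, ?_⟩
    rw [hl, hn, Measure.map_zero]
  set c : ℝ≥0∞ := lam univ with hc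
  have hcne : c ≠ ∞ := measure_ne_top _ _
  have hinv0 : c⁻¹ ≠ 0 := ENNReal.inv_ne_zero.2 hcne
  have hinvT : c⁻¹ ≠ ∞ := ENNReal.inv_ne_top.2 h0
  let lam' : Measure (EuclideanSpace ℝ (Fin d)) := c⁻¹ • lam
  let nu' : Measure (EuclideanSpace ℝ (Fin d)) := c⁻¹ • nu
  have hl' : IsProbabilityMeasure lam' := ⟨by
    simp only [lam', Measure.smul_apply, smul_eq_mul]
    exact ENNReal.inv_mul_cancel h0 hcne⟩
  have hn' : IsProbabilityMeasure nu' := ⟨by
    simp only [nu', Measure.smul_apply, smul_eq_mul, ← hmass]
    exact ENNReal.inv_mul_cancel h0 hcne⟩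
  have hlamback : lam = c • lam' := by
    simp only [lam', smul_smul, ENNReal.mul_inv_cancel h0 hcne, one_smul]
  have hnuback : nu = c • nu' := by
    simp only [nu', smul_smul, ENNReal.mul_inv_cancel h0 hcne, one_smul]
  let i₀ : Fin d := ⟨0, hd⟩
  let p : EuclideanSpace ℝ (Fin d) → ℝ := fun x => x i₀
  have hp : Measurable p := by
    simpa [p] using (EuclideanSpace.proj (𝕜 := ℝ) i₀).continuous.measurable
  let m : Measure ℝ := lam'.map p
  have hm : IsProbabilityMeasure m := Measure.isProbabilityMeasure_map hp.aemeasurable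
  have hmna : NullSingletonClass m := ⟨fun t => by
    rw [Measure.map_apply hp (measurableSet_singleton t)]
    have hsub : p ⁻¹' {t} = {x : EuclideanSpace ℝ (Fin d) | x i₀ = t} := rfl
    rw [hsub]
    simp only [lam', Measure.smul_apply, smul_eq_mul]
    rw [hlam (volume_coord_eq i₀ t), mul_zero]⟩
  obtain ⟨f, hf, hfmap⟩ := Measure.exists_measurable_map_eq nu'
  have hG : Measurable (cdfI m ∘ p) := (measurable_cdfI m).comp hp
  refine ⟨f ∘ cdfI m ∘ p, hf.comp hG, ?_⟩
  have h1 : lam'.map (f ∘ cdfI m ∘ p) = nu' := by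
    rw [← Measure.map_map hf hG, ← Measure.map_map (measurable_cdfI m) hp, map_cdfI, hfmap]
  rw [hlamback, Measure.map_smul, h1, hnuback]

end Crest.Agent.Lib.OTStab
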