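import Crest.Agent.Lib.OTStab.Slice
import Crest.Agent.Lib.OTStab.PushAC

/-!
# Comparison of a general optimal map with a Laguerre map for a nearby atomic target.

`corr_of_optimal`: optimal maps have maximal correlation among competitors.
`compare_optimal`: the `L¹` distance between an optimal map and the Laguerre map of a nearby
atomic target.
-/

set_option autoImplicit false
set_option linter.unusedSectionVars false
set_option linter.unusedVariables false

open MeasureTheory Set Filter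
open scoped ENNReal RealInnerProductSpace Topology
open Crest.AnalysisR.OT

namespace Crest.Agent.Lib.OTStab

variable {d : ℕ} {ι : Type} [Fintype ι] [Nonempty ι]
variable {K : Set (Eu d)} {R r : ℝ} {x0 : Eu d}

/-- A measurable map pushing to a measure carried by `Y` has values in `Y` almost surely
(no measurability of `Y` needed). -/
theorem ae_mem_of_map' {ρ μ : Measure (Eu d)} {Y : Set (Eu d)} {T : Eu d → Eu d}
    (hT : Measurable T) (hmap : ρ.map T = μ) (hμ : μ Yᶜ = 0) : ∀ᵐ x ∂ρ, T x ∈ Y := by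
  have h1 : ∀ᵐ q ∂(ρ.map T), q ∈ Y := by
    rw [hmap]
    exact measure_eq_zero_iff_ae_notMem.1 hμ |>.mono fun x hx => by simpa using hx
  exact ae_of_ae_map hT.aemeasurable h1

/-- The expansion of the quadratic cost. -/
theorem lintegral_cost (hK : Body K R r x0) {L : ℝ} {μ : Measure (Eu d)}
    [IsProbabilityMeasure μ] (hμL : ∀ᵐ q ∂μ, ‖q‖ ≤ L) {S : Eu d → Eu d} (hS : Measurable S)
    (hSμ : (uniformProbOn K).map S = μ) :
    0 ≤ (∫ x, ‖x‖ ^ 2 ∂(uniformProbOn K)) - 2 * (∫ x, ⟪x, S x⟫ ∂(uniformProbOn K))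
        + ∫ q, ‖q‖ ^ 2 ∂μ ∧
    ∫⁻ x, ‖x - S x‖ₑ ^ 2 ∂(uniformProbOn K) =
      ENNReal.ofReal ((∫ x, ‖x‖ ^ 2 ∂(uniformProbOn K)) - 2 * (∫ x, ⟪x, S x⟫ ∂(uniformProbOn K))
        + ∫ q, ‖q‖ ^ 2 ∂μ) := by
  have hprob := hK.isProb
  have hmem := hK.ae_mem
  set ρ := uniformProbOn K with hρ
  have hR0 := hK.R_nonneg
  have hSL : ∀ᵐ x ∂ρ, ‖S x‖ ≤ L := by
    have : ∀ᵐ q ∂(ρ.map S), ‖q‖ ≤ L := by rw [hSμ]; exact hμL
    exact ae_of_ae_map hS.aemeasurable this
  have hSq : ∫ x, ‖S x‖ ^ 2 ∂ρ = ∫ q, ‖q‖ ^ 2 ∂μ := by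
    rw [← hSμ, integral_map hS.aemeasurable (by fun_prop)]
  have hL : ∀ᵐ x ∂ρ, ‖x‖ ≤ R := by
    filter_upwards [hmem] with x hx using hK.norm_le hx
  have hi1 : Integrable (fun x : Eu d => ‖x‖ ^ 2) ρ := by
    refine Integrable.of_bound (by fun_prop) (R ^ 2) ?_
    filter_upwards [hL] with x hx
    rw [Real.norm_eq_abs, abs_of_nonneg (by positivity)]
    gcongr
  have hi2 : Integrable (fun x : Eu d => ⟪x, S x⟫) ρ := by
    refine Integrable.of_bound (measurable_id.inner hS).aestronglyMeasurable (R * |L|) ?_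
    filter_upwards [hL, hSL] with x hx hx'
    rw [Real.norm_eq_abs]
    refine (abs_real_inner_le_norm _ _).trans ?_
    exact mul_le_mul hx (hx'.trans (le_abs_self _)) (norm_nonneg _) hR0
  have hi3 : Integrable (fun x : Eu d => ‖S x‖ ^ 2) ρ := by
    refine Integrable.of_bound (hS.norm.pow_const 2).aestronglyMeasurable (|L| ^ 2) ?_
    filter_upwards [hSL] with x hx'
    rw [Real.norm_eq_abs, abs_of_nonneg (by positivity)]
    have := hx'.trans (le_abs_self _)
    gcongr
  have hexp : ∀ x : Eu d, ‖x - S x‖ ^ 2 = ‖x‖ ^ 2 - 2 * ⟪x, S x⟫ + ‖S x‖ ^ 2 := fun x =>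
    norm_sub_sq_real x (S x)
  have hi5 : Integrable (fun x : Eu d => ‖x‖ ^ 2 - 2 * ⟪x, S x⟫) ρ := hi1.sub (hi2.const_mul 2)
  have hi6 : Integrable (fun x : Eu d => 2 * ⟪x, S x⟫) ρ := hi2.const_mul 2
  have hi4 : Integrable (fun x : Eu d => ‖x - S x‖ ^ 2) ρ := by
    simp_rw [hexp]
    exact hi5.add hi3
  have hval : ∫ x, ‖x - S x‖ ^ 2 ∂ρ = (∫ x, ‖x‖ ^ 2 ∂ρ) - 2 * (∫ x, ⟪x, S x⟫ ∂ρ)
      + ∫ q, ‖q‖ ^ 2 ∂μ := by
    simp_rw [hexp]
    rw [integral_add hi5 hi3, integral_sub hi1 hi6, integral_const_mul, hSq]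
  rw [← hval]
  refine ⟨integral_nonneg fun x => by positivity, ?_⟩
  rw [ofReal_integral_eq_lintegral_ofReal hi4 (ae_of_all _ fun x => by positivity)]
  refine lintegral_congr fun x => ?_
  rw [ENNReal.ofReal_pow (norm_nonneg _), ofReal_norm]

/-- Optimal maps have the maximal correlation among competitors. -/
theorem corr_of_optimal (hK : Body K R r x0) {Y : Set (Eu d)} {L : ℝ} (hY : ∀ q ∈ Y, ‖q‖ ≤ L)
    {μ : Measure (Eu d)} (hμ : IsProbabilityOn Y μ) {T S : Eu d → Eu d}
    (hT : IsOptimalMap (uniformProbOn K) μ T) (hS : Measurable S)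
    (hSμ : (uniformProbOn K).map S = μ) :
    ∫ x, ⟪x, S x⟫ ∂(uniformProbOn K) ≤ ∫ x, ⟪x, T x⟫ ∂(uniformProbOn K) := by
  have := hμ.1
  have hμL : ∀ᵐ q ∂μ, ‖q‖ ≤ L := by
    have h : ∀ᵐ q ∂μ, q ∈ Y :=
      measure_eq_zero_iff_ae_notMem.1 hμ.2 |>.mono fun x hx => by simpa using hx
    filter_upwards [h] with q hq using hY q hq
  obtain ⟨hS0, hS1⟩ := lintegral_cost hK hμL hS hSμ
  obtain ⟨hT0, hT1⟩ := lintegral_cost hK hμL hT.1 hT.2.1
  have hle := hT.2.2 S hS hSμ
  rw [hS1, hT1, ENNReal.ofReal_le_ofReal_iff hS0] at hle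
  linarith

/-- The dual potential on the target side. -/
noncomputable def dualPot (R : ℝ) (y : ι → Eu d) (w : ι → ℝ) (q : Eu d) : ℝ :=
  ⨅ i, (w i + R * ‖q - y i‖)

theorem measurable_dualPot (R : ℝ) (y : ι → Eu d) (w : ι → ℝ) : Measurable (dualPot R y w) := by
  unfold dualPot
  exact Measurable.iInf fun i => by fun_prop

theorem dualPot_le (R : ℝ) (y : ι → Eu d) (w : ι → ℝ) (i : ι) (q : Eu d) :
    dualPot R y w q ≤ w i + R * ‖q - y i‖ :=
  ciInf_le (f := fun i => w i + R * ‖q - y i‖) (Set.finite_range _).bddBelow i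

theorem exists_dualPot_eq (R : ℝ) (y : ι → Eu d) (w : ι → ℝ) (q : Eu d) :
    ∃ i, w i + R * ‖q - y i‖ = dualPot R y w q :=
  exists_eq_ciInf_of_finite (f := fun i => w i + R * ‖q - y i‖)

/-- The Young inequality for the dual potential. -/
theorem inner_sub_dualPot_le (y : ι → Eu d) (w : ι → ℝ) {x' : Eu d} (hx' : ‖x'‖ ≤ R) (q : Eu d) :
    ⟪x', q⟫ - dualPot R y w q ≤ pot y w x' := by
  obtain ⟨i, hi⟩ := exists_dualPot_eq R y w q
  rw [← hi]
  have h1 : ⟪x', q - y i⟫ ≤ R * ‖q - y i‖ :=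
    (real_inner_le_norm _ _).trans (mul_le_mul_of_nonneg_right hx' (norm_nonneg _))
  have h2 := sc_le_pot y w i x'
  unfold sc at h2
  rw [inner_sub_right] at h1
  linarith

/-- Comparison of a general optimal map with the Laguerre map for a nearby atomic target: the target
`μ` is split into `μ i` of masses `m i`, each concentrated within `ε` of the site `y i`. Competitor:
`exists_map_of_ac` on each piece. Then apply `l1_le_gap` with `g = T`,
`ψ x = ⨅ i, (w i + R * ‖T x - y i‖)` and `t = √ε`. -/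
theorem compare_optimal (hd : 1 ≤ d) (hK : Body K R r x0) {Y : Set (Eu d)} {L : ℝ}
    (hY : ∀ q ∈ Y, ‖q‖ ≤ L)
    {μ : Measure (Eu d)} (hμ : IsProbabilityOn Y μ) {T : Eu d → Eu d}
    (hT : IsOptimalMap (uniformProbOn K) μ T) {y : ι → Eu d} (hyL : ∀ i, ‖y i‖ ≤ L)
    {m w : ι → ℝ} (hw : IsOpt (uniformProbOn K) y m w)
    (hmpos : ∀ i, 0 < m i) (hm : ∑ i, m i = 1)
    (μs : ι → Measure (Eu d)) (hsum : μ = ∑ i, μs i)
    (hmass : ∀ i, μs i univ = ENNReal.ofReal (m i)) {ε : ℝ} (hε : 0 < ε) (hεr : Real.sqrt ε ≤ r)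
    (hconc : ∀ i, μs i (Metric.closedBall (y i) ε)ᶜ = 0) :
    ∫ x, ‖T x - lagMap y w x‖ ∂(uniformProbOn K)
      ≤ 2 * d * (4 * L * d / r + 2 * R) * Real.sqrt ε := by
  classical
  have hprob := hK.isProb
  have hsrc := hK.src
  have hmem := hK.ae_mem
  set ρ := uniformProbOn K with hρ
  have hμP := hμ.1
  have hR0 := hK.R_nonneg
  have hL0 : 0 ≤ L := (norm_nonneg _).trans (hyL (Classical.arbitrary ι))
  have hxR : ∀ᵐ x ∂ρ, ‖x‖ ≤ R := by
    filter_upwards [hmem] with x hx using hK.norm_le hx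
  have hfin : ∀ i, IsFiniteMeasure (μs i) := fun i => ⟨by rw [hmass]; exact ENNReal.ofReal_lt_top⟩
  -- the masses of the pieces
  have hpiece : ∀ i, ρ (piece y w i) = ENNReal.ofReal (m i) := by
    intro i
    rw [← hw i, ofReal_measureReal (measure_ne_top _ _)]
  have hac : ρ ≪ volume := by
    rw [hρ]
    unfold uniformProbOn
    exact (Measure.smul_absolutelyContinuous).trans Measure.restrict_le_self.absolutelyContinuous
  -- the competitors on the pieces
  have hex : ∀ i, ∃ S : Eu d → Eu d, Measurable S ∧ (ρ.restrict (piece y w i)).map S = μs i := by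
    intro i
    refine exists_map_of_ac hd _ _ ((Measure.restrict_le_self.absolutelyContinuous).trans hac) ?_
    rw [Measure.restrict_apply_univ, hpiece, hmass]
  choose Si hSim hSimap using hex
  set S : Eu d → Eu d := fun x => Si (sel y w x) x with hS
  have hSpre : ∀ A : Set (Eu d), S ⁻¹' A = ⋃ i, piece y w i ∩ Si i ⁻¹' A := by
    intro A
    ext x
    simp only [mem_preimage, hS, mem_iUnion, mem_inter_iff, mem_piece]
    constructor
    · intro h
      exact ⟨sel y w x, rfl, h⟩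
    · rintro ⟨i, rfl, h⟩
      exact h
  have hSm : Measurable S := by
    intro A hA
    rw [hSpre]
    exact MeasurableSet.iUnion fun i => (measurableSet_piece y w i).inter (hSim i hA)
  have hSμ : ρ.map S = μ := by
    ext A hA
    rw [Measure.map_apply hSm hA, hSpre, measure_iUnion
      (fun i j hij => (pairwise_disjoint_piece y w hij).mono inter_subset_left inter_subset_left)
      (fun i => (measurableSet_piece y w i).inter (hSim i hA)), tsum_fintype, hsum,
      Measure.finsetSum_apply]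
    refine Finset.sum_congr rfl fun i _ => ?_
    rw [← hSimap i, Measure.map_apply (hSim i) hA,
      Measure.restrict_apply (hSim i hA), inter_comm]
  -- the competitor stays close to the Laguerre map
  have hSclose : ∀ᵐ x ∂ρ, ‖S x - lagMap y w x‖ ≤ ε := by
    have h1 : ∀ i, ∀ᵐ x ∂ρ, x ∈ piece y w i → ‖Si i x - y i‖ ≤ ε := by
      intro i
      have h2 : ∀ᵐ q ∂((ρ.restrict (piece y w i)).map (Si i)), q ∈ Metric.closedBall (y i) ε := by
        rw [hSimap i]
        exact measure_eq_zero_iff_ae_notMem.1 (hconc i) |>.mono fun x hx => by simpa using hx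
      have h3 := ae_of_ae_map (hSim i).aemeasurable h2
      rw [ae_restrict_iff' (measurableSet_piece y w i)] at h3
      filter_upwards [h3] with x hx hxp
      have := hx hxp
      rwa [Metric.mem_closedBall, dist_eq_norm] at this
    filter_upwards [ae_all_iff.mpr h1] with x hx
    have h4 : x ∈ piece y w (sel y w x) := rfl
    have h5 := hx (sel y w x) h4
    simpa [hS, lagMap] using h5
  -- the correlation of the competitor
  have hSint : Integrable (fun x : Eu d => ⟪x, S x⟫) ρ := by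
    refine Integrable.of_bound (measurable_id.inner hSm).aestronglyMeasurable (R * (L + ε)) ?_
    filter_upwards [hxR, hSclose] with x hx hx2
    rw [Real.norm_eq_abs]
    refine (abs_real_inner_le_norm _ _).trans ?_
    have h6 : ‖S x‖ ≤ L + ε := by
      have h7 : ‖S x‖ ≤ ‖lagMap y w x‖ + ‖S x - lagMap y w x‖ := by
        have := norm_add_le (lagMap y w x) (S x - lagMap y w x)
        simpa using this
      have h8 := norm_lagMap_le w hyL x
      linarith
    exact mul_le_mul hx h6 (norm_nonneg _) hR0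
  have hlagint : Integrable (fun x : Eu d => ⟪x, lagMap y w x⟫) ρ := by
    refine Integrable.of_bound (measurable_id.inner (measurable_lagMap y w)).aestronglyMeasurable
      (R * L) ?_
    filter_upwards [hxR] with x hx
    rw [Real.norm_eq_abs]
    refine (abs_real_inner_le_norm _ _).trans ?_
    exact mul_le_mul hx (norm_lagMap_le w hyL x) (norm_nonneg _) hR0
  have hcorr : corr ρ y w - R * ε ≤ ∫ x, ⟪x, S x⟫ ∂ρ := by
    rw [hsrc.corr_eq_integral y w]
    have h1 : ∫ x, (⟪x, lagMap y w x⟫ - R * ε) ∂ρ ≤ ∫ x, ⟪x, S x⟫ ∂ρ := by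
      refine integral_mono_ae (hlagint.sub (integrable_const _)) hSint ?_
      filter_upwards [hxR, hSclose] with x hx hx2
      have h2 : ⟪x, lagMap y w x - S x⟫ ≤ R * ε := by
        refine (real_inner_le_norm _ _).trans ?_
        rw [norm_sub_rev]
        exact mul_le_mul hx hx2 (norm_nonneg _) hR0
      rw [inner_sub_right] at h2
      linarith
    rw [integral_sub hlagint (integrable_const _)] at h1
    simpa using h1
  have hopt := corr_of_optimal hK hY hμ hT hSm hSμ
  -- the dual potential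
  have hTY : ∀ᵐ x ∂ρ, T x ∈ Y := ae_mem_of_map' hT.1 hT.2.1 hμ.2
  have hTL : ∀ᵐ x ∂ρ, ‖T x‖ ≤ L := hTY.mono fun x hx => hY _ hx
  set ψs := dualPot R y w with hψs
  have hψsm : Measurable ψs := measurable_dualPot R y w
  set W : ℝ := ∑ i, |w i| with hW
  have hwi : ∀ i, |w i| ≤ W := fun i =>
    Finset.single_le_sum (f := fun i => |w i|) (fun _ _ => abs_nonneg _) (Finset.mem_univ i)
  have hψsb : ∀ q : Eu d, ‖q‖ ≤ L → ‖ψs q‖ ≤ W + 2 * R * L := by
    intro q hq
    rw [Real.norm_eq_abs, abs_le]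
    constructor
    · obtain ⟨i, hi⟩ := exists_dualPot_eq R y w q
      rw [hψs, ← hi]
      have h1 := (abs_le.mp (hwi i)).1
      have h2 : 0 ≤ R * ‖q - y i‖ := by positivity
      have h3 : 0 ≤ R * L := by positivity
      linarith
    · have hi := Classical.arbitrary ι
      have h1 := dualPot_le R y w hi q
      have h2 := (abs_le.mp (hwi hi)).2
      have h3 : ‖q - y hi‖ ≤ L + L := (norm_sub_le _ _).trans (add_le_add hq (hyL hi))
      have h4 : R * ‖q - y hi‖ ≤ R * (L + L) := mul_le_mul_of_nonneg_left h3 hR0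
      rw [hψs]
      linarith
  have hμL : ∀ᵐ q ∂μ, ‖q‖ ≤ L :=
    (measure_eq_zero_iff_ae_notMem.1 hμ.2).mono fun q hq => hY q (by simpa using hq)
  have hψsμ : Integrable ψs μ := by
    refine Integrable.of_bound hψsm.aestronglyMeasurable (W + 2 * R * L) ?_
    filter_upwards [hμL] with q hq using hψsb q hq
  set ψ : Eu d → ℝ := fun x => ψs (T x) with hψ
  have hψm : Measurable ψ := hψsm.comp hT.1
  have hψi : Integrable ψ ρ := by
    refine Integrable.of_bound hψm.aestronglyMeasurable (W + 2 * R * L) ?_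
    filter_upwards [hTL] with x hx using hψsb _ hx
  have hψint : ∫ x, ψ x ∂ρ = ∫ q, ψs q ∂μ := by
    rw [← hT.2.1, integral_map hT.1.aemeasurable hψsm.aestronglyMeasurable]
  have hψsi : ∀ i, Integrable ψs (μs i) := by
    have h := hψsμ
    rw [hsum, integrable_finsetSum_measure] at h
    exact fun i => h i (Finset.mem_univ i)
  have hψbd : ∫ q, ψs q ∂μ ≤ ∑ i, m i * w i + R * ε := by
    rw [hsum, integral_finsetSum_measure fun i _ => hψsi i]
    have hterm : ∀ i, ∫ q, ψs q ∂(μs i) ≤ m i * w i + m i * (R * ε) := by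
      intro i
      have h1 : ∫ q, ψs q ∂(μs i) ≤ ∫ _q, (w i + R * ε) ∂(μs i) := by
        refine integral_mono_ae (hψsi i) (integrable_const _) ?_
        have h2 : ∀ᵐ q ∂(μs i), q ∈ Metric.closedBall (y i) ε :=
          measure_eq_zero_iff_ae_notMem.1 (hconc i) |>.mono fun x hx => by simpa using hx
        filter_upwards [h2] with q hq
        rw [Metric.mem_closedBall, dist_eq_norm] at hq
        have h3 := dualPot_le R y w i q
        have h4 : R * ‖q - y i‖ ≤ R * ε := mul_le_mul_of_nonneg_left hq hR0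
        rw [hψs]
        linarith
      have h5 : ∫ _q, (w i + R * ε) ∂(μs i) = m i * (w i + R * ε) := by
        rw [integral_const, smul_eq_mul, measureReal_def, hmass,
          ENNReal.toReal_ofReal (hmpos i).le]
      rw [h5] at h1
      linarith
    refine (Finset.sum_le_sum fun i _ => hterm i).trans (le_of_eq ?_)
    rw [Finset.sum_add_distrib, ← Finset.sum_mul, hm, one_mul]
  -- the Young gap
  have hpotint := hsrc.integrable_pot y w
  have hTinner : Integrable (fun x : Eu d => ⟪x, T x⟫) ρ := by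
    refine Integrable.of_bound (measurable_id.inner hT.1).aestronglyMeasurable (R * L) ?_
    filter_upwards [hxR, hTL] with x hx hx2
    rw [Real.norm_eq_abs]
    refine (abs_real_inner_le_norm _ _).trans ?_
    exact mul_le_mul hx hx2 (norm_nonneg _) hR0
  have hgap : ∫ x, (pot y w x + ψ x - ⟪x, T x⟫) ∂ρ ≤ 2 * R * ε := by
    have h1 : Integrable (fun x => pot y w x + ψ x) ρ := hpotint.add hψi
    rw [integral_sub h1 hTinner, integral_add hpotint hψi, hψint]
    have h2 := hsrc.dualE_eq_corr hw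
    unfold dualE at h2
    linarith
  -- conclusion
  have hsq : 0 < Real.sqrt ε := Real.sqrt_pos.mpr hε
  have hψ2 : ∀ᵐ x ∂ρ, ∀ x' ∈ K, ⟪x', T x⟫ - ψ x ≤ pot y w x' := by
    refine ae_of_all _ fun x x' hx' => ?_
    exact inner_sub_dualPot_le y w (hK.norm_le hx') (T x)
  have hmain := l1_le_gap hK w hyL hT.1 hTL hψm hψi hψ2 hsq hεr
  refine hmain.trans ?_
  have hgap' : (∫ x, (pot y w x + ψ x - ⟪x, T x⟫) ∂ρ) / Real.sqrt ε ≤ 2 * R * Real.sqrt ε := by
    rw [div_le_iff₀ hsq]
    have : 2 * R * Real.sqrt ε * Real.sqrt ε = 2 * R * ε := by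
      rw [mul_assoc, Real.mul_self_sqrt hε.le]
    linarith
  have hd0 : (0 : ℝ) ≤ 2 * d := by positivity
  calc 2 * (d : ℝ) * (4 * L * (d * Real.sqrt ε / r)
        + (∫ x, (pot y w x + ψ x - ⟪x, T x⟫) ∂ρ) / Real.sqrt ε)
      ≤ 2 * (d : ℝ) * (4 * L * (d * Real.sqrt ε / r) + 2 * R * Real.sqrt ε) :=
        mul_le_mul_of_nonneg_left (by linarith) hd0
    _ = 2 * d * (4 * L * d / r + 2 * R) * Real.sqrt ε := by ring

end Crest.Agent.Lib.OTStab
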