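import Crest.Agent.Lib.OTStab.Atomic
import Crest.Agent.Lib.OTStab.PushAC
import Crest.Agent.Lib.OTStab.Compare

/-!
# From atoms to general targets.
-/

set_option autoImplicit false
set_option linter.unusedSectionVars false
set_option linter.unusedVariables false

open MeasureTheory Set Filter
open scoped ENNReal RealInnerProductSpace Topology
open Crest.AnalysisR.OT

namespace Crest.Agent.Lib.OTStab

variable {d : ℕ} {ι : Type} [Fintype ι] [Nonempty ι]
variable {K : Set (Eu d)} {R r : ℝ} {x0 : Eu d}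

/-- Perturbing a finite family to an injective one. -/
theorem exists_injective_perturb (hd : 1 ≤ d) {δ : ℝ} (hδ : 0 < δ) (n : ℕ) (a : Fin n → Eu d) :
    ∃ b : Fin n → Eu d, Function.Injective b ∧ ∀ i, ‖b i - a i‖ < δ := by
  have hne : Nonempty (Fin d) := ⟨⟨0, hd⟩⟩
  have hnt : Nontrivial (Eu d) := by
    refine ⟨⟨EuclideanSpace.single ⟨0, hd⟩ (1 : ℝ), 0, ?_⟩⟩
    intro h
    have := congrArg (fun v : Eu d => v ⟨0, hd⟩) h
    simp at this
  induction n with
  | zero => exact ⟨fun i => i.elim0, fun i => i.elim0, fun i => i.elim0⟩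
  | succ n ih =>
    obtain ⟨b, hb, hbδ⟩ := ih (fun i => a i.succ)
    have hinf : (Metric.ball (a 0) δ).Infinite := infinite_of_mem_nhds (a 0) (Metric.ball_mem_nhds _ hδ)
    obtain ⟨q, hq, hqb⟩ := hinf.exists_notMem_finset (Finset.univ.image b)
    refine ⟨Fin.cons q b, Fin.cons_injective_iff.2 ⟨?_, hb⟩, ?_⟩
    · rintro ⟨i, rfl⟩
      exact hqb (Finset.mem_image_of_mem b (Finset.mem_univ i))
    · intro i
      refine Fin.cases ?_ (fun j => ?_) i
      · simpa [dist_eq_norm] using hq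
      · simpa using hbδ j

/-- Discretisation of a coupling. -/
theorem exists_discretization (hd : 1 ≤ d) {Y : Set (Eu d)} (hYc : IsCompact Y)
    {π : Measure (Eu d × Eu d)} [IsProbabilityMeasure π] (hπ : π (Y ×ˢ Y)ᶜ = 0)
    {ε : ℝ} (hε : 0 < ε) :
    ∃ (n : ℕ) (I : Fin n → Set (Eu d × Eu d)) (y z : Fin n → Eu d),
      (∀ i, MeasurableSet (I i)) ∧ Pairwise (fun i j => Disjoint (I i) (I j)) ∧
      (∀ i, 0 < π (I i)) ∧ π (⋃ i, I i)ᶜ = 0 ∧
      Function.Injective y ∧ Function.Injective z ∧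
      (∀ i, ∀ p ∈ I i, ‖p.1 - y i‖ ≤ ε ∧ ‖p.2 - z i‖ ≤ ε) ∧
      (∀ i, (I i) ⊆ Y ×ˢ Y) := by
  classical
  have hYY : MeasurableSet (Y ×ˢ Y) := hYc.measurableSet.prod hYc.measurableSet
  obtain ⟨t, -, htfin, hcov⟩ := (hYc.prod hYc).finite_cover_balls (half_pos hε)
  -- enumerate the centres
  let e := htfin.toFinset.equivFin
  let N := htfin.toFinset.card
  let c : Fin N → Eu d × Eu d := fun i => (e.symm i).1
  let B : Fin N → Set (Eu d × Eu d) := fun i => Metric.ball (c i) (ε / 2) ∩ (Y ×ˢ Y)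
  have hBm : ∀ i, MeasurableSet (B i) := fun i => Metric.isOpen_ball.measurableSet.inter hYY
  let D : Fin N → Set (Eu d × Eu d) := disjointed B
  have hDm : ∀ i, MeasurableSet (D i) := fun i =>
    disjointedRec (f := B) (p := MeasurableSet) (fun _ _ ht => MeasurableSet.diff ht (hBm _)) (hBm i)
  have hDsub : ∀ i, D i ⊆ B i := fun i => disjointed_le B i
  have hDd : Pairwise (fun i j => Disjoint (D i) (D j)) := disjoint_disjointed B
  have hDcov : ∀ p ∈ Y ×ˢ Y, ∃ i, p ∈ D i := by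
    intro p hp
    have h1 : p ∈ Finset.univ.sup B := by
      obtain ⟨q, hq, hpq⟩ := Set.mem_iUnion₂.1 (hcov hp)
      have hq' : q ∈ htfin.toFinset := htfin.mem_toFinset.2 hq
      have h2 : p ∈ B (e ⟨q, hq'⟩) := by
        refine ⟨?_, hp⟩
        simpa [c] using hpq
      have : B (e ⟨q, hq'⟩) ≤ Finset.univ.sup B := Finset.le_sup (Finset.mem_univ _)
      exact this h2
    rw [← Fintype.sup_disjointed, Finset.sup_set_eq_biUnion] at h1
    simp only [Finset.mem_univ, iUnion_true, mem_iUnion] at h1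
    exact h1
  -- keep the positive pieces
  let J : Finset (Fin N) := Finset.univ.filter (fun i => 0 < π (D i))
  let g := J.equivFin.symm
  let n := J.card
  obtain ⟨y, hy, hyδ⟩ := exists_injective_perturb hd (half_pos hε) n (fun i => (c (g i).1).1)
  obtain ⟨z, hz, hzδ⟩ := exists_injective_perturb hd (half_pos hε) n (fun i => (c (g i).1).2)
  refine ⟨n, fun i => D (g i).1, y, z, fun i => hDm _, ?_, ?_, ?_, hy, hz, ?_, ?_⟩
  · intro i j hij
    refine hDd ?_
    intro h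
    exact hij (g.injective (Subtype.ext h))
  · intro i
    exact (Finset.mem_filter.1 (g i).2).2
  · -- the rest is null
    have hsub : (⋃ i, D (g i).1)ᶜ ⊆ (Y ×ˢ Y)ᶜ ∪ ⋃ j ∈ (Finset.univ.filter (fun i => ¬ 0 < π (D i))), D j := by
      intro p hp
      by_cases hpY : p ∈ Y ×ˢ Y
      · right
        obtain ⟨j, hj⟩ := hDcov p hpY
        by_cases hjJ : j ∈ J
        · exfalso
          refine hp (mem_iUnion.2 ⟨g.symm ⟨j, hjJ⟩, ?_⟩)
          simpa using hj
        · refine mem_iUnion₂.2 ⟨j, ?_, hj⟩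
          simpa [J] using hjJ
      · exact Or.inl hpY
    refine measure_mono_null hsub (measure_union_null hπ ?_)
    refine (measure_biUnion_null_iff (Finset.countable_toSet _)).2 fun j hj => ?_
    have hj' : ¬ 0 < π (D j) := by simpa using hj
    simpa using hj'
  · intro i p hp
    have h1 := hDsub _ hp
    have h2 : dist p (c (g i).1) < ε / 2 := h1.1
    rw [Prod.dist_eq, max_lt_iff] at h2
    constructor
    · have h3 : ‖p.1 - (c (g i).1).1‖ < ε / 2 := by rw [← dist_eq_norm]; exact h2.1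
      have h4 := hyδ i
      have h5 : p.1 - y i = (p.1 - (c (g i).1).1) - (y i - (c (g i).1).1) := by abel
      rw [h5]
      have := norm_sub_le (p.1 - (c (g i).1).1) (y i - (c (g i).1).1)
      linarith
    · have h3 : ‖p.2 - (c (g i).1).2‖ < ε / 2 := by rw [← dist_eq_norm]; exact h2.2
      have h4 := hzδ i
      have h5 : p.2 - z i = (p.2 - (c (g i).1).2) - (z i - (c (g i).1).2) := by abel
      rw [h5]
      have := norm_sub_le (p.2 - (c (g i).1).2) (z i - (c (g i).1).2)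
      linarith
  · intro i p hp
    exact (hDsub _ hp).2

/-- Optimal maps take values in the carrier almost surely. -/
theorem ae_mem_of_map {ρ η : Measure (Eu d)} {Y : Set (Eu d)} (hYm : MeasurableSet Y) {T : Eu d → Eu d}
    (hT : Measurable T) (hmap : ρ.map T = η) (hη : η Yᶜ = 0) : ∀ᵐ x ∂ρ, T x ∈ Y := by
  have h1 : ρ (T ⁻¹' Yᶜ) = 0 := by
    rw [← Measure.map_apply hT hYm.compl, hmap]
    exact hη
  exact (measure_eq_zero_iff_ae_notMem.1 h1).mono fun x hx => by simpa using hx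

/-- The inequality for a fixed small `ε`. -/
theorem stability_eps (hd : 1 ≤ d) (hK : Body K R r x0) {Y : Set (Eu d)} (hYc : IsCompact Y) {L₀ : ℝ}
    (hY : ∀ q ∈ Y, ‖q‖ ≤ L₀) {μ ν : Measure (Eu d)} (hμ : IsProbabilityOn Y μ)
    (hν : IsProbabilityOn Y ν) {Tμ Tν : Eu d → Eu d}
    (hTμ : IsOptimalMap (uniformProbOn K) μ Tμ) (hTν : IsOptimalMap (uniformProbOn K) ν Tν)
    {π : Measure (Eu d × Eu d)} (hπ : IsPairCoupling μ ν π) {ε : ℝ} (hε : 0 < ε) (hε1 : ε ≤ 1)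
    (hεr : Real.sqrt ε ≤ r) :
    ∫ x, ‖Tμ x - Tν x‖ ^ 2 ∂(uniformProbOn K)
      ≤ 3 * (4 * (L₀ + 1) * (2 * d * (4 * (L₀ + 1) * d / r + 2 * R) * Real.sqrt ε)
        + ((2 ^ 19 * R ^ 2 * d ^ 5 * (L₀ + 1) ^ 4 / r ^ 2)
          * (2 * (∫ p, ‖p.1 - p.2‖ ^ 2 ∂π) + 8 * ε ^ 2)) ^ (1 / 3 : ℝ)) := by
  classical
  have hρ := hK.isProb
  have hYm : MeasurableSet Y := hYc.measurableSet
  have := hμ.1
  have hπprob : IsProbabilityMeasure π := by
    constructor
    have : π.map Prod.fst univ = 1 := by rw [hπ.1]; exact measure_univ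
    rwa [Measure.map_apply measurable_fst MeasurableSet.univ, Set.preimage_univ] at this
  have hπ1 : π (Prod.fst ⁻¹' Yᶜ) = 0 := by
    rw [← Measure.map_apply measurable_fst hYm.compl, hπ.1]; exact hμ.2
  have hπ2 : π (Prod.snd ⁻¹' Yᶜ) = 0 := by
    rw [← Measure.map_apply measurable_snd hYm.compl, hπ.2]; exact hν.2
  have hπY : π (Y ×ˢ Y)ᶜ = 0 := by
    have : (Y ×ˢ Y)ᶜ ⊆ Prod.fst ⁻¹' Yᶜ ∪ Prod.snd ⁻¹' Yᶜ := by
      intro p hp
      simp only [mem_compl_iff, mem_prod, not_and_or] at hp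
      exact hp
    exact measure_mono_null this (measure_union_null hπ1 hπ2)
  obtain ⟨n, I, y, z, hIm, hId, hIpos, hIcov, hy, hz, hIε, hIY⟩ :=
    exists_discretization hd hYc hπY hε
  -- the index set is nonempty
  have hcov1 : π (⋃ i, I i) = 1 := by
    have h1 : π (⋃ i, I i) + π (⋃ i, I i)ᶜ = 1 := by
      rw [measure_add_measure_compl (MeasurableSet.iUnion hIm)]; exact measure_univ
    rwa [hIcov, add_zero] at h1
  have hn : Nonempty (Fin n) := by
    by_contra hne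
    rw [not_nonempty_iff] at hne
    simp [iUnion_of_empty] at hcov1
  -- masses
  set m : Fin n → ℝ := fun i => π.real (I i) with hm_def
  have hmpos : ∀ i, 0 < m i := fun i =>
    ENNReal.toReal_pos (hIpos i).ne' (measure_ne_top _ _)
  have hm : ∑ i, m i = 1 := by
    have h1 := measureReal_iUnion_fintype (μ := π) (f := I) hId hIm
    rw [← h1, measureReal_def, hcov1]
    simp
  have hmass : ∀ i, π (I i) = ENNReal.ofReal (m i) := fun i => by
    simp only [hm_def, ofReal_measureReal (measure_ne_top π (I i))]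
  -- the bound on the sites
  have hyL : ∀ i, ‖y i‖ ≤ L₀ + 1 := by
    intro i
    obtain ⟨p, hp⟩ : (I i).Nonempty := nonempty_of_measure_ne_zero (hIpos i).ne'
    have h1 := (hIε i p hp).1
    have h2 := hY _ (hIY i hp).1
    have h3 : ‖y i‖ ≤ ‖p.1‖ + ‖p.1 - y i‖ := by
      have := norm_sub_le p.1 (p.1 - y i)
      simpa using this
    linarith
  have hzL : ∀ i, ‖z i‖ ≤ L₀ + 1 := by
    intro i
    obtain ⟨p, hp⟩ : (I i).Nonempty := nonempty_of_measure_ne_zero (hIpos i).ne'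
    have h1 := (hIε i p hp).2
    have h2 := hY _ (hIY i hp).2
    have h3 : ‖z i‖ ≤ ‖p.2‖ + ‖p.2 - z i‖ := by
      have := norm_sub_le p.2 (p.2 - z i)
      simpa using this
    linarith
  -- solutions
  have hsrc := hK.src
  obtain ⟨w0, hw0⟩ := hsrc.exists_isOpt hK.R_nonneg hy hmpos hm
  obtain ⟨w1, hw1⟩ := hsrc.exists_isOpt hK.R_nonneg hz hmpos hm
  -- splitting the targets
  have hπsum : π = ∑ i, π.restrict (I i) := by
    have h1 : π.restrict (⋃ i, I i) = π := by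
      apply Measure.restrict_eq_self_of_ae_mem
      exact measure_eq_zero_iff_ae_notMem.1 hIcov |>.mono fun p hp => by simpa using hp
    rw [← Measure.sum_fintype, ← Measure.restrict_iUnion hId hIm, h1]
  have hsplit : ∀ (f : Eu d × Eu d → Eu d) (hf : Measurable f),
      π.map f = ∑ i, (π.restrict (I i)).map f := by
    intro f hf
    ext A hA
    simp only [Measure.coe_finsetSum, Finset.sum_apply]
    rw [Measure.map_apply hf hA]
    simp_rw [Measure.map_apply hf hA]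
    conv_lhs => rw [hπsum]
    simp
  have hY' : ∀ q ∈ Y, ‖q‖ ≤ L₀ + 1 := fun q hq => (hY q hq).trans (by linarith)
  have hconc : ∀ (f : Eu d × Eu d → Eu d) (hf : Measurable f) (c : Fin n → Eu d),
      (∀ i, ∀ p ∈ I i, ‖f p - c i‖ ≤ ε) →
      ∀ i, ((π.restrict (I i)).map f) (Metric.closedBall (c i) ε)ᶜ = 0 := by
    intro f hf c hc i
    rw [Measure.map_apply hf Metric.isClosed_closedBall.measurableSet.compl,
      Measure.restrict_apply (hf Metric.isClosed_closedBall.measurableSet.compl)]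
    convert measure_empty (μ := π)
    ext p
    simp only [mem_inter_iff, mem_preimage, mem_compl_iff, Metric.mem_closedBall, mem_empty_iff_false,
      iff_false, not_and]
    intro hp hp'
    exact hp (by rw [dist_eq_norm]; exact hc i p hp')
  have hcmp1 : ∫ x, ‖Tμ x - lagMap y w0 x‖ ∂(uniformProbOn K)
      ≤ 2 * d * (4 * (L₀ + 1) * d / r + 2 * R) * Real.sqrt ε := by
    refine compare_optimal hd hK hY' hμ hTμ hyL hw0 hmpos hm
      (fun i => (π.restrict (I i)).map Prod.fst) ?_ ?_ hε hεr ?_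
    · rw [← hsplit _ measurable_fst, hπ.1]
    · intro i
      rw [Measure.map_apply measurable_fst MeasurableSet.univ, Set.preimage_univ,
        Measure.restrict_apply_univ, hmass]
    · exact hconc _ measurable_fst y fun i p hp => (hIε i p hp).1
  have hcmp2 : ∫ x, ‖Tν x - lagMap z w1 x‖ ∂(uniformProbOn K)
      ≤ 2 * d * (4 * (L₀ + 1) * d / r + 2 * R) * Real.sqrt ε := by
    refine compare_optimal hd hK hY' hν hTν hzL hw1 hmpos hm
      (fun i => (π.restrict (I i)).map Prod.snd) ?_ ?_ hε hεr ?_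
    · rw [← hsplit _ measurable_snd, hπ.2]
    · intro i
      rw [Measure.map_apply measurable_snd MeasurableSet.univ, Set.preimage_univ,
        Measure.restrict_apply_univ, hmass]
    · exact hconc _ measurable_snd z fun i p hp => (hIε i p hp).2
  -- the cost of the atomic coupling
  have hπae : ∀ᵐ p ∂π, p ∈ Y ×ˢ Y := measure_eq_zero_iff_ae_notMem.1 hπY |>.mono fun p hp => by simpa using hp
  have hQint : Integrable (fun p : Eu d × Eu d => ‖p.1 - p.2‖ ^ 2) π := by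
    refine Integrable.of_bound (by
      exact ((measurable_fst.sub measurable_snd).norm.pow_const 2).aestronglyMeasurable) ((L₀ + L₀) ^ 2) ?_
    filter_upwards [hπae] with p hp
    rw [Real.norm_eq_abs, abs_of_nonneg (by positivity)]
    have h3 : ‖p.1 - p.2‖ ≤ L₀ + L₀ := (norm_sub_le _ _).trans (add_le_add (hY _ hp.1) (hY _ hp.2))
    gcongr
  have hτ : ∑ i, m i * ‖y i - z i‖ ^ 2 ≤ 2 * (∫ p, ‖p.1 - p.2‖ ^ 2 ∂π) + 8 * ε ^ 2 := by
    have hterm : ∀ i, m i * ‖y i - z i‖ ^ 2 ≤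
        2 * (∫ p in I i, ‖p.1 - p.2‖ ^ 2 ∂π) + 8 * ε ^ 2 * m i := by
      intro i
      have h1 : ∫ _p in I i, ‖y i - z i‖ ^ 2 ∂π = m i * ‖y i - z i‖ ^ 2 := by
        rw [setIntegral_const, smul_eq_mul]
      have h2 : ∫ _p in I i, ‖y i - z i‖ ^ 2 ∂π ≤
          ∫ p in I i, (2 * ‖p.1 - p.2‖ ^ 2 + 8 * ε ^ 2) ∂π := by
        refine setIntegral_mono_on (integrable_const _).integrableOn
          ((hQint.const_mul 2).add (integrable_const _)).integrableOn (hIm i) fun p hp => ?_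
        obtain ⟨h3, h4⟩ := hIε i p hp
        have h5 : ‖y i - z i‖ ≤ ‖p.1 - p.2‖ + 2 * ε := by
          have h6 : y i - z i = (p.1 - p.2) - (p.1 - y i) + (p.2 - z i) := by abel
          rw [h6]
          refine (norm_add_le _ _).trans ?_
          have h7 := norm_sub_le (p.1 - p.2) (p.1 - y i)
          linarith
        have h8 : ‖y i - z i‖ ^ 2 ≤ (‖p.1 - p.2‖ + 2 * ε) ^ 2 := by gcongr
        nlinarith [sq_nonneg (‖p.1 - p.2‖ - 2 * ε)]
      have h2' : ∫ p in I i, (2 * ‖p.1 - p.2‖ ^ 2 + 8 * ε ^ 2) ∂π =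
          2 * (∫ p in I i, ‖p.1 - p.2‖ ^ 2 ∂π) + 8 * ε ^ 2 * m i := by
        rw [integral_add (hQint.const_mul 2).integrableOn (integrable_const _), integral_const_mul,
          setIntegral_const, smul_eq_mul]
        ring
      rw [h1, h2'] at h2
      exact h2
    calc ∑ i, m i * ‖y i - z i‖ ^ 2
        ≤ ∑ i, (2 * (∫ p in I i, ‖p.1 - p.2‖ ^ 2 ∂π) + 8 * ε ^ 2 * m i) :=
          Finset.sum_le_sum fun i _ => hterm i
      _ = 2 * (∫ p in ⋃ i, I i, ‖p.1 - p.2‖ ^ 2 ∂π) + 8 * ε ^ 2 := by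
          rw [integral_iUnion_fintype hIm hId (fun i => hQint.integrableOn),
            Finset.sum_add_distrib, ← Finset.mul_sum, ← Finset.mul_sum, hm, mul_one]
      _ ≤ 2 * (∫ p, ‖p.1 - p.2‖ ^ 2 ∂π) + 8 * ε ^ 2 := by
          have := setIntegral_le_integral (s := ⋃ i, I i) hQint (ae_of_all _ fun p => by positivity)
          linarith
  -- the atomic estimate
  have hat := atomic hd hK hy hz hmpos hm hyL hzL hw0 hw1
  set c₀ : ℝ := 2 ^ 19 * R ^ 2 * d ^ 5 * (L₀ + 1) ^ 4 / r ^ 2 with hc₀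
  have hc₀0 : 0 ≤ c₀ := by
    have hL : 0 ≤ L₀ + 1 := (norm_nonneg _).trans (hyL hn.some)
    positivity
  set A := ∫ x, ‖lagMap y w0 x - lagMap z w1 x‖ ^ 2 ∂(uniformProbOn K) with hA
  have hA0 : 0 ≤ A := integral_nonneg fun x => by positivity
  have hA1 : A ≤ (c₀ * (2 * (∫ p, ‖p.1 - p.2‖ ^ 2 ∂π) + 8 * ε ^ 2)) ^ (1 / 3 : ℝ) := by
    have h1 : A ^ 3 ≤ c₀ * (2 * (∫ p, ‖p.1 - p.2‖ ^ 2 ∂π) + 8 * ε ^ 2) :=
      hat.trans (mul_le_mul_of_nonneg_left hτ hc₀0)
    calc A = (A ^ 3) ^ (1 / 3 : ℝ) := by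
          rw [← Real.rpow_natCast, ← Real.rpow_mul hA0]; norm_num
      _ ≤ _ := Real.rpow_le_rpow (by positivity) h1 (by norm_num)
  -- combine
  set T₀ := lagMap y w0 with hT₀
  set T₁ := lagMap z w1 with hT₁
  have hT₀m : Measurable T₀ := measurable_lagMap y w0
  have hT₁m : Measurable T₁ := measurable_lagMap z w1
  have hμY := ae_mem_of_map hYm hTμ.1 hTμ.2.1 hμ.2
  have hνY := ae_mem_of_map hYm hTν.1 hTν.2.1 hν.2
  set L := L₀ + 1 with hL
  have hL0 : 0 ≤ L := (norm_nonneg _).trans (hyL hn.some)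
  have hT₀L : ∀ x, ‖T₀ x‖ ≤ L := norm_lagMap_le w0 hyL
  have hT₁L : ∀ x, ‖T₁ x‖ ≤ L := norm_lagMap_le w1 hzL
  have hi1 : Integrable (fun x => ‖Tμ x - T₀ x‖) (uniformProbOn K) := by
    refine Integrable.of_bound ((hTμ.1.sub hT₀m).norm).aestronglyMeasurable (L + L) ?_
    filter_upwards [hμY] with x hx
    rw [norm_norm]
    exact (norm_sub_le _ _).trans (add_le_add (hY' _ hx) (hT₀L x))
  have hi2 : Integrable (fun x => ‖Tν x - T₁ x‖) (uniformProbOn K) := by
    refine Integrable.of_bound ((hTν.1.sub hT₁m).norm).aestronglyMeasurable (L + L) ?_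
    filter_upwards [hνY] with x hx
    rw [norm_norm]
    exact (norm_sub_le _ _).trans (add_le_add (hY' _ hx) (hT₁L x))
  have hi3 : Integrable (fun x => ‖T₀ x - T₁ x‖ ^ 2) (uniformProbOn K) := by
    refine Integrable.of_bound (((hT₀m.sub hT₁m).norm.pow_const 2).aestronglyMeasurable) ((L + L) ^ 2) ?_
    filter_upwards with x
    rw [Real.norm_eq_abs, abs_of_nonneg (by positivity)]
    have : ‖T₀ x - T₁ x‖ ≤ L + L := (norm_sub_le _ _).trans (add_le_add (hT₀L x) (hT₁L x))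
    gcongr
  have hi4 : Integrable (fun x => ‖Tμ x - Tν x‖ ^ 2) (uniformProbOn K) := by
    refine Integrable.of_bound (((hTμ.1.sub hTν.1).norm.pow_const 2).aestronglyMeasurable) ((L + L) ^ 2) ?_
    filter_upwards [hμY, hνY] with x hx hx'
    rw [Real.norm_eq_abs, abs_of_nonneg (by positivity)]
    have : ‖Tμ x - Tν x‖ ≤ L + L := (norm_sub_le _ _).trans (add_le_add (hY' _ hx) (hY' _ hx'))
    gcongr
  have hpt : ∀ᵐ x ∂(uniformProbOn K), ‖Tμ x - Tν x‖ ^ 2 ≤
      3 * (2 * L * ‖Tμ x - T₀ x‖ + ‖T₀ x - T₁ x‖ ^ 2 + 2 * L * ‖Tν x - T₁ x‖) := by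
    filter_upwards [hμY, hνY] with x hx hx'
    set a := ‖Tμ x - T₀ x‖
    set b := ‖T₀ x - T₁ x‖
    set c := ‖Tν x - T₁ x‖
    have ha : a ≤ 2 * L := by
      have := (norm_sub_le (Tμ x) (T₀ x)).trans (add_le_add (hY' _ hx) (hT₀L x))
      linarith
    have hc : c ≤ 2 * L := by
      have := (norm_sub_le (Tν x) (T₁ x)).trans (add_le_add (hY' _ hx') (hT₁L x))
      linarith
    have ha0 : 0 ≤ a := norm_nonneg _
    have hb0 : 0 ≤ b := norm_nonneg _
    have hc0 : 0 ≤ c := norm_nonneg _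
    have htri : ‖Tμ x - Tν x‖ ≤ a + b + c := by
      have h6 : Tμ x - Tν x = (Tμ x - T₀ x) + (T₀ x - T₁ x) - (Tν x - T₁ x) := by abel
      rw [h6]
      refine (norm_sub_le _ _).trans ?_
      exact add_le_add (norm_add_le _ _) le_rfl
    have h7 : ‖Tμ x - Tν x‖ ^ 2 ≤ (a + b + c) ^ 2 := by gcongr
    have h8 : (a + b + c) ^ 2 ≤ 3 * (a ^ 2 + b ^ 2 + c ^ 2) := by
      nlinarith [sq_nonneg (a - b), sq_nonneg (b - c), sq_nonneg (a - c)]
    have h9 : a ^ 2 ≤ 2 * L * a := by nlinarith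
    have h10 : c ^ 2 ≤ 2 * L * c := by nlinarith
    linarith
  have hint : ∫ x, ‖Tμ x - Tν x‖ ^ 2 ∂(uniformProbOn K) ≤
      ∫ x, 3 * (2 * L * ‖Tμ x - T₀ x‖ + ‖T₀ x - T₁ x‖ ^ 2 + 2 * L * ‖Tν x - T₁ x‖) ∂(uniformProbOn K) :=
    integral_mono_ae hi4 (((hi1.const_mul _).add hi3).add (hi2.const_mul _) |>.const_mul 3) hpt
  have hval : ∫ x, 3 * (2 * L * ‖Tμ x - T₀ x‖ + ‖T₀ x - T₁ x‖ ^ 2 + 2 * L * ‖Tν x - T₁ x‖) ∂(uniformProbOn K)
      = 3 * (2 * L * (∫ x, ‖Tμ x - T₀ x‖ ∂(uniformProbOn K)) + A + 2 * L * ∫ x, ‖Tν x - T₁ x‖ ∂(uniformProbOn K)) := by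
    have hi13 : Integrable (fun x => 2 * L * ‖Tμ x - T₀ x‖ + ‖T₀ x - T₁ x‖ ^ 2) (uniformProbOn K) :=
      (hi1.const_mul _).add hi3
    rw [integral_const_mul, integral_add hi13 (hi2.const_mul _),
      integral_add (hi1.const_mul _) hi3, integral_const_mul, integral_const_mul]
  rw [hval] at hint
  set Cb := 2 * (d : ℝ) * (4 * L * d / r + 2 * R) * Real.sqrt ε with hCb
  have hfin : ∫ x, ‖Tμ x - Tν x‖ ^ 2 ∂(uniformProbOn K) ≤ 3 * (4 * L * Cb + A) := by
    have h1 : 2 * L * (∫ x, ‖Tμ x - T₀ x‖ ∂(uniformProbOn K)) ≤ 2 * L * Cb :=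
      mul_le_mul_of_nonneg_left hcmp1 (by positivity)
    have h2 : 2 * L * (∫ x, ‖Tν x - T₁ x‖ ∂(uniformProbOn K)) ≤ 2 * L * Cb :=
      mul_le_mul_of_nonneg_left hcmp2 (by positivity)
    linarith
  refine hfin.trans ?_
  have : 3 * (4 * L * Cb + A) ≤ 3 * (4 * L * Cb + (c₀ * (2 * (∫ p, ‖p.1 - p.2‖ ^ 2 ∂π) + 8 * ε ^ 2)) ^ (1 / 3 : ℝ)) := by
    linarith
  exact this

/-- **The stability theorem.** -/
theorem stability (hd : 1 ≤ d) (hK : Body K R r x0) {Y : Set (Eu d)} (hYc : IsCompact Y) {L₀ : ℝ}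
    (hY : ∀ q ∈ Y, ‖q‖ ≤ L₀) {μ ν : Measure (Eu d)} (hμ : IsProbabilityOn Y μ)
    (hν : IsProbabilityOn Y ν) {Tμ Tν : Eu d → Eu d}
    (hTμ : IsOptimalMap (uniformProbOn K) μ Tμ) (hTν : IsOptimalMap (uniformProbOn K) ν Tν)
    {π : Measure (Eu d × Eu d)} (hπ : IsPairCoupling μ ν π) :
    ∫ x, ‖Tμ x - Tν x‖ ^ 2 ∂(uniformProbOn K)
      ≤ 3 * (2 * (2 ^ 19 * R ^ 2 * d ^ 5 * (L₀ + 1) ^ 4 / r ^ 2)
          * ∫ p, ‖p.1 - p.2‖ ^ 2 ∂π) ^ (1 / 3 : ℝ) := by
  -- pass to the limit in `stability_eps`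
  set Q := ∫ p, ‖p.1 - p.2‖ ^ 2 ∂π with hQ
  set c₀ : ℝ := 2 ^ 19 * R ^ 2 * d ^ 5 * (L₀ + 1) ^ 4 / r ^ 2 with hc₀
  set Ca : ℝ := 4 * (L₀ + 1) * (2 * d * (4 * (L₀ + 1) * d / r + 2 * R)) with hCa
  let F : ℝ → ℝ := fun ε => 3 * (Ca * Real.sqrt ε + (c₀ * (2 * Q + 8 * ε ^ 2)) ^ (1 / 3 : ℝ))
  have hFc : Continuous F := by
    refine continuous_const.mul (((continuous_const.mul Real.continuous_sqrt)).add ?_)
    exact (Real.continuous_rpow_const (by norm_num)).comp (by fun_prop)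
  have hF0 : F 0 = 3 * (2 * c₀ * Q) ^ (1 / 3 : ℝ) := by
    simp only [F, Real.sqrt_zero, mul_zero, zero_add]
    congr 2
    ring
  rw [← hF0]
  have hlim : Tendsto F (𝓝[>] 0) (𝓝 (F 0)) := (hFc.tendsto 0).mono_left nhdsWithin_le_nhds
  refine ge_of_tendsto hlim ?_
  have hr := hK.rpos
  have hpos : 0 < min 1 (r ^ 2) := lt_min one_pos (by positivity)
  filter_upwards [Ioo_mem_nhdsGT hpos] with ε hε
  have hε1 : ε ≤ 1 := hε.2.le.trans (min_le_left _ _)
  have hεr : Real.sqrt ε ≤ r := by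
    rw [Real.sqrt_le_left hr.le]
    exact hε.2.le.trans (min_le_right _ _)
  have := stability_eps hd hK hYc hY hμ hν hTμ hTν hπ hε.1 hε1 hεr
  refine this.trans (le_of_eq ?_)
  simp only [F, hCa]
  ring

end Crest.Agent.Lib.OTStab
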