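import Crest.Agent.Lib.OTStab.Body

/-!
# Line slicing: volume lemma, the monotone term and the L¹ comparison lemma.
-/

set_option autoImplicit false
set_option linter.unusedSectionVars false
set_option linter.unusedVariables false

open MeasureTheory Set Filter
open scoped ENNReal RealInnerProductSpace Topology
open Crest.AnalysisR.OT

namespace Crest.Agent.Lib.OTStab

variable {d : ℕ} {ι : Type} [Fintype ι] [Nonempty ι]
variable {K : Set (Eu d)} {R r : ℝ} {x0 : Eu d}

/-- Volume lemma: translating `K` by `v` loses little. `K_δ = x0 + (1 - δ) (K - x0) ⊆ K + v`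
for `δ = ‖v‖/r`, and `|K_δ| = (1 - δ)^d |K|`. -/
theorem vol_sdiff_translate (hK : Body K R r x0) {v : Eu d} (hv : ‖v‖ ≤ r) :
    (uniformProbOn K) (K \ {x | x + v ∈ K}) ≤ ENNReal.ofReal (d * ‖v‖ / r) := by
  have hr := hK.rpos
  have hKm := hK.measurableSet
  by_cases hv0 : v = 0
  · subst hv0
    have : K \ {x | x + (0 : Eu d) ∈ K} = ∅ := by
      ext x; simp
    rw [this]; simp
  have hvpos : 0 < ‖v‖ := norm_pos_iff.mpr hv0
  set δ : ℝ := ‖v‖ / r with hδ
  have hδ0 : 0 < δ := by positivity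
  have hδ1 : δ ≤ 1 := (div_le_one hr).mpr hv
  have hx0 : x0 ∈ K := hK.ball (Metric.mem_closedBall_self hr.le)
  set Kδ : Set (Eu d) := (AffineMap.homothety x0 (1 - δ)) '' K with hKδ
  have hKδc : IsCompact Kδ := hK.compact.image (AffineMap.homothety_continuous x0 (1 - δ))
  have hform : ∀ k : Eu d, (AffineMap.homothety x0 (1 - δ)) k = δ • x0 + (1 - δ) • k := by
    intro k
    rw [AffineMap.homothety_apply, vsub_eq_sub, vadd_eq_add, smul_sub, sub_smul, one_smul,
      sub_smul, one_smul]
    abel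
  have hsubK : Kδ ⊆ K := by
    rintro _ ⟨k, hk, rfl⟩
    rw [hform]
    exact hK.convex hx0 hk (a := δ) (b := 1 - δ) hδ0.le (by linarith) (by ring)
  have hsubv : Kδ ⊆ {x | x + v ∈ K} := by
    rintro _ ⟨k, hk, rfl⟩
    rw [mem_ofPred_eq, hform]
    have hpt : x0 + δ⁻¹ • v ∈ K := by
      apply hK.ball
      rw [Metric.mem_closedBall, dist_eq_norm, add_sub_cancel_left, norm_smul, norm_inv,
        Real.norm_of_nonneg hδ0.le, hδ]
      field_simp
      exact le_refl _
    have := hK.convex hpt hk (a := δ) (b := 1 - δ) hδ0.le (by linarith) (by ring)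
    have h2 : δ • (x0 + δ⁻¹ • v) + (1 - δ) • k = δ • x0 + (1 - δ) • k + v := by
      rw [smul_add, smul_smul, mul_inv_cancel₀ hδ0.ne', one_smul]
      abel
    rwa [h2] at this
  have hvol : volume Kδ = ENNReal.ofReal ((1 - δ) ^ d) * volume K := by
    rw [hKδ, Measure.addHaar_image_homothety, finrank_euclideanSpace_fin,
      abs_of_nonneg (pow_nonneg (by linarith) d)]
  have hsub2 : K \ {x | x + v ∈ K} ⊆ K \ Kδ := sdiff_subset_sdiff_right hsubv
  have hV : volume K ≠ ⊤ := hK.vol_ne_top
  have hV0 : volume K ≠ 0 := hK.vol_pos.ne'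
  have hbern : 1 ≤ d * δ + (1 - δ) ^ d := by
    have := one_add_mul_le_pow (a := -δ) (by linarith) d
    have h3 : 1 + -δ = 1 - δ := by ring
    rw [h3] at this
    linarith
  have hdiff : volume (K \ Kδ) ≤ ENNReal.ofReal (d * δ) * volume K := by
    rw [measure_sdiff hsubK hKδc.measurableSet.nullMeasurableSet (hKδc.measure_lt_top.ne), hvol,
      tsub_le_iff_right, ← add_mul, ← ENNReal.ofReal_add (by positivity)
        (pow_nonneg (by linarith) d)]
    calc volume K = 1 * volume K := (one_mul _).symm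
      _ ≤ _ := by
        gcongr
        rw [← ENNReal.ofReal_one]
        exact ENNReal.ofReal_le_ofReal hbern
  have hmeas : MeasurableSet (K \ Kδ) := hKm.diff hKδc.measurableSet
  calc (uniformProbOn K) (K \ {x | x + v ∈ K})
      ≤ (uniformProbOn K) (K \ Kδ) := measure_mono hsub2
    _ = (volume K)⁻¹ * volume (K \ Kδ) := by
        unfold uniformProbOn
        rw [Measure.smul_apply, smul_eq_mul, Measure.restrict_apply hmeas]
        congr 2
        exact inter_eq_self_of_subset_left sdiff_subset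
    _ ≤ (volume K)⁻¹ * (ENNReal.ofReal (d * δ) * volume K) := by gcongr
    _ = ENNReal.ofReal (d * δ) := by
        rw [mul_comm, mul_assoc, ENNReal.mul_inv_cancel hV0 hV, mul_one]
    _ = ENNReal.ofReal (d * ‖v‖ / r) := by
        rw [hδ, mul_div_assoc]

/-- The uniform measure restricted to a subset of `K`. -/
theorem restrict_uniform (hK : Body K R r x0) {S : Set (Eu d)} (hS : MeasurableSet S)
    (hSK : S ⊆ K) {F : Type*} [NormedAddCommGroup F] [NormedSpace ℝ F] (g : Eu d → F) :
    ∫ x in S, g x ∂(uniformProbOn K) = (volume.real K)⁻¹ • ∫ x in S, g x := by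
  unfold uniformProbOn
  rw [Measure.restrict_smul, Measure.restrict_restrict hS, inter_eq_self_of_subset_left hSK,
    integral_smul_measure, ENNReal.toReal_inv]
  rfl

theorem uniform_real_sdiff_le (hK : Body K R r x0) {v : Eu d} (hv : ‖v‖ ≤ r) :
    (uniformProbOn K).real (K \ {x | x + v ∈ K}) ≤ d * ‖v‖ / r := by
  have := hK.isProb
  have h := vol_sdiff_translate hK hv
  have hr := hK.rpos
  have hnn : (0 : ℝ) ≤ d * ‖v‖ / r := by positivity
  rw [Measure.real]
  exact ENNReal.toReal_le_of_le_ofReal hnn h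

theorem measurableSet_translate (hK : Body K R r x0) (v : Eu d) :
    MeasurableSet {x | x + v ∈ K} :=
  (measurable_id.add_const v) hK.measurableSet

/-- The monotone term. For bounded measurable `T` and a unit vector `e`, `0 < t ≤ r`,
with `S = K ∩ (K - t e)`: `∫_S ⟪T (x + t e) - T x, e⟫ dρ ≤ 2 L d t / r`. -/
theorem mono_term (hK : Body K R r x0) {T : Eu d → Eu d} (hT : Measurable T) {L : ℝ}
    (hTL : ∀ x, ‖T x‖ ≤ L) {e : Eu d} (he : ‖e‖ = 1) {t : ℝ} (ht : 0 < t) (htr : t ≤ r) :
    ∫ x in K ∩ {x | x + t • e ∈ K}, ⟪T (x + t • e) - T x, e⟫ ∂(uniformProbOn K)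
      ≤ 2 * L * (d * t / r) := by
  have := hK.isProb
  have hKm := hK.measurableSet
  have hL0 : 0 ≤ L := (norm_nonneg _).trans (hTL 0)
  set ρ := uniformProbOn K with hρ
  set a : Eu d → ℝ := fun x => ⟪T x, e⟫ with ha
  have hameas : Measurable a := hT.inner measurable_const
  have habd : ∀ x, ‖a x‖ ≤ L := by
    intro x
    rw [Real.norm_eq_abs]
    refine (abs_real_inner_le_norm _ _).trans ?_
    rw [he, mul_one]
    exact hTL x
  have hint : Integrable a ρ := Integrable.of_bound hameas.aestronglyMeasurable L (ae_of_all _ habd)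
  have hint2 : Integrable (fun x => a (x + t • e)) ρ :=
    Integrable.of_bound (hameas.comp (measurable_id.add_const _)).aestronglyMeasurable L
      (ae_of_all _ fun x => habd _)
  set Sp : Set (Eu d) := K ∩ {x | x + t • e ∈ K} with hSp
  set Sm : Set (Eu d) := K ∩ {x | x + (-(t • e)) ∈ K} with hSm
  have hSpm : MeasurableSet Sp := hKm.inter (measurableSet_translate hK _)
  have hSmm : MeasurableSet Sm := hKm.inter (measurableSet_translate hK _)
  -- substitution
  have hsubst : ∫ x in Sp, a (x + t • e) ∂ρ = ∫ x in Sm, a x ∂ρ := by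
    rw [hρ, restrict_uniform hK hSpm inter_subset_left, restrict_uniform hK hSmm inter_subset_left]
    congr 1
    rw [← integral_indicator hSpm, ← integral_indicator hSmm,
      ← integral_add_right_eq_self (Sm.indicator a) (t • e)]
    refine integral_congr_ae (ae_of_all _ fun x => ?_)
    have hmem : x + t • e ∈ Sm ↔ x ∈ Sp := by
      simp only [hSm, hSp, mem_inter_iff, mem_ofPred_eq, add_neg_cancel_right]
      exact And.comm
    show Sp.indicator (fun x => a (x + t • e)) x = Sm.indicator a (x + t • e)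
    by_cases hx : x ∈ Sp
    · rw [indicator_of_mem hx, indicator_of_mem (hmem.mpr hx)]
    · rw [indicator_of_notMem hx, indicator_of_notMem (fun h => hx (hmem.mp h))]
  have hsplit : ∀ v : Eu d, ∫ x in K ∩ {x | x + v ∈ K}, a x ∂ρ
      + ∫ x in K \ {x | x + v ∈ K}, a x ∂ρ = ∫ x in K, a x ∂ρ := by
    intro v
    exact integral_inter_add_sdiff (measurableSet_translate hK v) hint.integrableOn
  have hbd : ∀ v : Eu d, ‖v‖ ≤ t → |∫ x in K \ {x | x + v ∈ K}, a x ∂ρ| ≤ L * (d * t / r) := by
    intro v hv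
    have h1 := norm_setIntegral_le_of_norm_le_const (μ := ρ) (s := K \ {x | x + v ∈ K})
      (f := a) (C := L) (measure_lt_top _ _) (fun x _ => habd x)
    rw [Real.norm_eq_abs] at h1
    refine h1.trans ?_
    refine mul_le_mul_of_nonneg_left ?_ hL0
    refine (uniform_real_sdiff_le hK (hv.trans htr)).trans ?_
    have hr := hK.rpos
    gcongr
  have hnorm : ‖t • e‖ = t := by rw [norm_smul, he, mul_one, Real.norm_of_nonneg ht.le]
  have hnorm' : ‖-(t • e)‖ = t := by rw [norm_neg, hnorm]
  have h1 := hsplit (t • e)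
  have h2 := hsplit (-(t • e))
  have h3 := abs_le.mp (hbd (t • e) hnorm.le)
  have h4 := abs_le.mp (hbd (-(t • e)) hnorm'.le)
  have heq : ∫ x in Sp, ⟪T (x + t • e) - T x, e⟫ ∂ρ
      = ∫ x in Sp, a (x + t • e) ∂ρ - ∫ x in Sp, a x ∂ρ := by
    rw [← integral_sub hint2.integrableOn hint.integrableOn]
    refine integral_congr_ae (ae_of_all _ fun x => ?_)
    simp only [ha, inner_sub_left]
  rw [heq, hsubst]
  have : 2 * L * ((d:ℝ) * t / r) = L * (d * t / r) + L * (d * t / r) := by ring
  rw [this]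
  linarith [h3.1, h3.2, h4.1, h4.2]

section gap

variable {z : ι → Eu d} {w : ι → ℝ} {L : ℝ}

/-- The positive part bound for a fixed unit vector. -/
theorem posPart_le_gap (hK : Body K R r x0) (w : ι → ℝ) (hzL : ∀ i, ‖z i‖ ≤ L)
    {g : Eu d → Eu d} (hg : Measurable g) (hgL : ∀ᵐ x ∂(uniformProbOn K), ‖g x‖ ≤ L)
    {ψ : Eu d → ℝ} (hψ : Measurable ψ)
    (hψ1 : Integrable ψ (uniformProbOn K))
    (hψ2 : ∀ᵐ x ∂(uniformProbOn K), ∀ x' ∈ K, ⟪x', g x⟫ - ψ x ≤ pot z w x')
    {t : ℝ} (ht : 0 < t) (htr : t ≤ r) {e : Eu d} (he : ‖e‖ = 1) :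
    ∫ x, max ⟪g x - lagMap z w x, e⟫ 0 ∂(uniformProbOn K)
      ≤ 4 * L * (d * t / r)
          + (∫ x, (pot z w x + ψ x - ⟪x, g x⟫) ∂(uniformProbOn K)) / t := by
  have := hK.isProb
  have hsrc := hK.src
  have hKm := hK.measurableSet
  have hL0 : 0 ≤ L := (norm_nonneg _).trans (hzL (Classical.arbitrary ι))
  have hr := hK.rpos
  set ρ := uniformProbOn K with hρ
  set T := lagMap z w with hTdef
  have hT : Measurable T := measurable_lagMap z w
  have hTL : ∀ x, ‖T x‖ ≤ L := norm_lagMap_le w hzL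
  set P : Eu d → ℝ := fun x => max ⟪g x - T x, e⟫ 0 with hP
  set D : Eu d → ℝ := fun x => pot z w x + ψ x - ⟪x, g x⟫ with hD
  have hinner1 : ∀ᵐ x ∂ρ, ‖g x - T x‖ ≤ 2 * L := by
    filter_upwards [hgL] with x hx
    have := norm_sub_le (g x) (T x)
    have := hTL x
    linarith
  have hPm : Measurable P :=
    ((hg.sub hT).inner measurable_const).max measurable_const
  have hPbd : ∀ᵐ x ∂ρ, ‖P x‖ ≤ 2 * L := by
    filter_upwards [hinner1] with x hx
    have h1 := abs_real_inner_le_norm (g x - T x) e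
    rw [he, mul_one] at h1
    rw [Real.norm_eq_abs, abs_of_nonneg (le_max_right _ _)]
    refine max_le ?_ (by linarith)
    exact (le_abs_self _).trans (h1.trans hx)
  have hPint : Integrable P ρ := Integrable.of_bound hPm.aestronglyMeasurable _ hPbd
  have hgxint : Integrable (fun x => ⟪x, g x⟫) ρ := by
    refine Integrable.of_bound (measurable_id.inner hg).aestronglyMeasurable (R * L) ?_
    filter_upwards [hgL, hK.ae_mem] with x hx hxK
    rw [Real.norm_eq_abs]
    refine (abs_real_inner_le_norm _ _).trans ?_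
    exact mul_le_mul (hK.norm_le hxK) hx (norm_nonneg _) hK.R_nonneg
  have hDint : Integrable D ρ := ((hsrc.integrable_pot z w).add hψ1).sub hgxint
  have hD0 : 0 ≤ᵐ[ρ] D := by
    filter_upwards [hψ2, hK.ae_mem] with x hx hxK
    have := hx x hxK
    simp only [hD, Pi.zero_apply]
    linarith
  set S : Set (Eu d) := K ∩ {x | x + t • e ∈ K} with hS
  set A : Set (Eu d) := K \ {x | x + t • e ∈ K} with hA
  have hnorm : ‖t • e‖ = t := by rw [norm_smul, he, mul_one, Real.norm_of_nonneg ht.le]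
  have hAreal : ρ.real A ≤ d * t / r := by
    have := uniform_real_sdiff_le hK (v := t • e) (by rw [hnorm]; exact htr)
    rwa [hnorm] at this
  have hSm : MeasurableSet S := hKm.inter (measurableSet_translate hK _)
  have hsplit : ∫ x in S, P x ∂ρ + ∫ x in A, P x ∂ρ = ∫ x, P x ∂ρ := by
    have h1 := integral_inter_add_sdiff (s := K) (t := {x | x + t • e ∈ K}) (f := P) (μ := ρ)
      (measurableSet_translate hK _) hPint.integrableOn
    rw [h1, Measure.restrict_eq_self_of_ae_mem hK.ae_mem]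
  -- bound on A
  have hAbd : ∫ x in A, P x ∂ρ ≤ 2 * L * (d * t / r) := by
    have h1 := norm_setIntegral_le_of_norm_le_const_ae (μ := ρ) (s := A) (f := P) (C := 2 * L)
      (measure_lt_top _ _) (ae_restrict_of_ae hPbd)
    rw [Real.norm_eq_abs] at h1
    refine (le_abs_self _).trans (h1.trans ?_)
    exact mul_le_mul_of_nonneg_left hAreal (by positivity)
  -- pointwise bound on S
  set Q : Eu d → ℝ := fun x => ⟪T (x + t • e) - T x, e⟫ with hQ
  have hQm : Measurable Q :=
    ((hT.comp (measurable_id.add_const _)).sub hT).inner measurable_const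
  have hQbd : ∀ x, ‖Q x‖ ≤ 2 * L := by
    intro x
    rw [Real.norm_eq_abs]
    refine (abs_real_inner_le_norm _ _).trans ?_
    rw [he, mul_one]
    have := norm_sub_le (T (x + t • e)) (T x)
    have := hTL (x + t • e)
    have := hTL x
    linarith
  have hQint : Integrable Q ρ := Integrable.of_bound hQm.aestronglyMeasurable _ (ae_of_all _ hQbd)
  have hpt : ∀ᵐ x ∂ρ, x ∈ S → P x ≤ Q x + D x / t := by
    filter_upwards [hψ2, hK.ae_mem, hD0] with x hx hxK hDx hxS
    have hxt : x + t • e ∈ K := hxS.2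
    have h1 := hx _ hxt
    have h2 := pot_subgrad z w (x + t • e) x
    have h3 : x - (x + t • e) = -(t • e) := by abel
    rw [h3, inner_neg_left, real_inner_smul_left] at h2
    rw [inner_add_left, real_inner_smul_left] at h1
    -- `h1 : ⟪x, g x⟫ + t * ⟪e, g x⟫ - ψ x ≤ pot (x + te)`
    have h4 : ⟪e, T (x + t • e)⟫ = ⟪T (x + t • e), e⟫ := real_inner_comm _ _
    have h5 : ⟪e, g x⟫ = ⟪g x, e⟫ := real_inner_comm _ _
    have hkey : t * ⟪g x, e⟫ ≤ t * ⟪T (x + t • e), e⟫ + D x := by
      simp only [hD]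
      rw [h4] at h2
      rw [h5] at h1
      linarith
    have hmono : 0 ≤ Q x := by
      have := lagMap_mono z w x (x + t • e)
      rw [add_sub_cancel_left, real_inner_smul_right] at this
      simp only [hQ]
      exact nonneg_of_mul_nonneg_right (by linarith) ht
    have hDt : 0 ≤ D x / t := div_nonneg hDx ht.le
    refine max_le ?_ (by linarith)
    simp only [hQ, inner_sub_left]
    have : ⟪g x, e⟫ ≤ ⟪T (x + t • e), e⟫ + D x / t := by
      have h6 : D x / t * t = D x := div_mul_cancel₀ _ ht.ne'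
      nlinarith
    linarith
  have hSbd : ∫ x in S, P x ∂ρ ≤ ∫ x in S, Q x ∂ρ + (∫ x in S, D x ∂ρ) / t := by
    have h1 : ∫ x in S, P x ∂ρ ≤ ∫ x in S, (Q x + D x / t) ∂ρ :=
      setIntegral_mono_on_ae hPint.integrableOn
        ((hQint.add (hDint.div_const t)).integrableOn) hSm hpt
    rw [integral_add hQint.integrableOn (hDint.div_const t).integrableOn, integral_div] at h1
    exact h1
  have hQle : ∫ x in S, Q x ∂ρ ≤ 2 * L * (d * t / r) := mono_term hK hT hTL he ht htr
  have hDle : ∫ x in S, D x ∂ρ ≤ ∫ x, D x ∂ρ := setIntegral_le_integral hDint hD0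
  have hDdiv : (∫ x in S, D x ∂ρ) / t ≤ (∫ x, D x ∂ρ) / t := by gcongr
  rw [← hsplit]
  have : 4 * L * ((d:ℝ) * t / r) = 2 * L * (d * t / r) + 2 * L * (d * t / r) := by ring
  rw [this]
  linarith

end gap

/-- A vector's norm is bounded by the positive parts along the coordinate directions. -/
theorem norm_le_sum_posPart (v : Eu d) :
    ‖v‖ ≤ ∑ j : Fin d, (max ⟪v, EuclideanSpace.single j (1:ℝ)⟫ 0
      + max ⟪v, -EuclideanSpace.single j (1:ℝ)⟫ 0) := by
  have h1 : ‖v‖ ≤ ∑ j : Fin d, |v j| := by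
    have h2 : v = ∑ j : Fin d, v j • EuclideanSpace.single j (1:ℝ) := by
      ext i
      simp [Finset.sum_apply, Pi.single_apply]
    calc ‖v‖ = ‖∑ j : Fin d, v j • EuclideanSpace.single j (1:ℝ)‖ := by rw [← h2]
      _ ≤ ∑ j : Fin d, ‖v j • EuclideanSpace.single j (1:ℝ)‖ := norm_sum_le _ _
      _ = ∑ j : Fin d, |v j| := by
          refine Finset.sum_congr rfl fun j _ => ?_
          rw [norm_smul, PiLp.norm_single, norm_one, mul_one, Real.norm_eq_abs]
  refine h1.trans (Finset.sum_le_sum fun j _ => ?_)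
  have h3 : ⟪v, EuclideanSpace.single j (1:ℝ)⟫ = v j := by
    simp [EuclideanSpace.inner_single_right]
  rw [inner_neg_right, h3]
  rcases le_total 0 (v j) with h | h
  · rw [abs_of_nonneg h, max_eq_left h]
    have := le_max_right (-(v j)) 0
    linarith
  · rw [abs_of_nonpos h, max_eq_right h, max_eq_left (by linarith)]
    linarith

/-- The L¹ comparison. `g` is any bounded measurable map and `ψ` a measurable function with
`⟪x', g x⟫ - ψ x ≤ pot z w x'` for all `x' ∈ K`. Then the L¹ distance between `g` and the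
Laguerre map is controlled by the Young gap `D x = pot z w x + ψ x - ⟪x, g x⟫`. -/
theorem l1_le_gap (hK : Body K R r x0) {z : ι → Eu d} (w : ι → ℝ) {L : ℝ} (hzL : ∀ i, ‖z i‖ ≤ L)
    {g : Eu d → Eu d} (hg : Measurable g) (hgL : ∀ᵐ x ∂(uniformProbOn K), ‖g x‖ ≤ L)
    {ψ : Eu d → ℝ} (hψ : Measurable ψ)
    (hψ1 : Integrable ψ (uniformProbOn K))
    (hψ2 : ∀ᵐ x ∂(uniformProbOn K), ∀ x' ∈ K, ⟪x', g x⟫ - ψ x ≤ pot z w x')
    {t : ℝ} (ht : 0 < t) (htr : t ≤ r) :
    ∫ x, ‖g x - lagMap z w x‖ ∂(uniformProbOn K)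
      ≤ 2 * d * (4 * L * (d * t / r)
          + (∫ x, (pot z w x + ψ x - ⟪x, g x⟫) ∂(uniformProbOn K)) / t) := by
  have := hK.isProb
  have hL0 : 0 ≤ L := (norm_nonneg _).trans (hzL (Classical.arbitrary ι))
  set ρ := uniformProbOn K with hρ
  set B : ℝ := 4 * L * (d * t / r)
          + (∫ x, (pot z w x + ψ x - ⟪x, g x⟫) ∂ρ) / t with hB
  set T := lagMap z w with hTdef
  have hT : Measurable T := measurable_lagMap z w
  have hTL : ∀ x, ‖T x‖ ≤ L := norm_lagMap_le w hzL
  have hinner1 : ∀ᵐ x ∂ρ, ‖g x - T x‖ ≤ 2 * L := by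
    filter_upwards [hgL] with x hx
    have := norm_sub_le (g x) (T x)
    have := hTL x
    linarith
  have hnint : Integrable (fun x => ‖g x - T x‖) ρ :=
    Integrable.of_bound (hg.sub hT).norm.aestronglyMeasurable (2 * L) (by
      filter_upwards [hinner1] with x hx
      simpa using hx)
  have hPint : ∀ e : Eu d, ‖e‖ = 1 → Integrable (fun x => max ⟪g x - T x, e⟫ 0) ρ := by
    intro e he
    refine Integrable.of_bound
      (((hg.sub hT).inner measurable_const).max measurable_const).aestronglyMeasurable (2 * L) ?_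
    filter_upwards [hinner1] with x hx
    have h1 := abs_real_inner_le_norm (g x - T x) e
    rw [he, mul_one] at h1
    rw [Real.norm_eq_abs, abs_of_nonneg (le_max_right _ _)]
    refine max_le ?_ (by linarith)
    exact (le_abs_self _).trans (h1.trans hx)
  have hunit : ∀ j : Fin d, ‖EuclideanSpace.single j (1:ℝ)‖ = 1 := by
    intro j; rw [PiLp.norm_single, norm_one]
  have hunit' : ∀ j : Fin d, ‖-EuclideanSpace.single j (1:ℝ)‖ = 1 := by
    intro j; rw [norm_neg, hunit]
  have hsum : Integrable (fun x => ∑ j : Fin d, (max ⟪g x - T x, EuclideanSpace.single j (1:ℝ)⟫ 0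
      + max ⟪g x - T x, -EuclideanSpace.single j (1:ℝ)⟫ 0)) ρ :=
    integrable_finsetSum _ fun j _ => (hPint _ (hunit j)).add (hPint _ (hunit' j))
  calc ∫ x, ‖g x - T x‖ ∂ρ
      ≤ ∫ x, ∑ j : Fin d, (max ⟪g x - T x, EuclideanSpace.single j (1:ℝ)⟫ 0
          + max ⟪g x - T x, -EuclideanSpace.single j (1:ℝ)⟫ 0) ∂ρ :=
        integral_mono hnint hsum fun x => norm_le_sum_posPart _
    _ = ∑ j : Fin d, (∫ x, max ⟪g x - T x, EuclideanSpace.single j (1:ℝ)⟫ 0 ∂ρ
          + ∫ x, max ⟪g x - T x, -EuclideanSpace.single j (1:ℝ)⟫ 0 ∂ρ) := by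
        have h0 := integral_finsetSum (μ := ρ) (Finset.univ : Finset (Fin d))
          (f := fun j x => max ⟪g x - T x, EuclideanSpace.single j (1:ℝ)⟫ 0
            + max ⟪g x - T x, -EuclideanSpace.single j (1:ℝ)⟫ 0)
          (fun j _ => (hPint _ (hunit j)).add (hPint _ (hunit' j)))
        rw [h0]
        refine Finset.sum_congr rfl fun j _ => ?_
        rw [integral_add (hPint _ (hunit j)) (hPint _ (hunit' j))]
    _ ≤ ∑ j : Fin d, (B + B) := by
        refine Finset.sum_le_sum fun j _ => ?_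
        have h1 := posPart_le_gap hK w hzL hg hgL hψ hψ1 hψ2 ht htr (hunit j)
        have h2 := posPart_le_gap hK w hzL hg hgL hψ hψ1 hψ2 ht htr (hunit' j)
        exact add_le_add h1 h2
    _ = 2 * d * B := by
        simp only [Finset.sum_const, Finset.card_univ, Fintype.card_fin, nsmul_eq_mul]
        ring

end Crest.Agent.Lib.OTStab
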