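import Crest.Agent.Lib.OTStab.Tele
import Crest.Agent.Lib.OTStab.Slice

/-!
# The stability theorem for atomic targets.
-/

set_option autoImplicit false
set_option linter.unusedSectionVars false
set_option linter.unusedVariables false

open MeasureTheory Set Filter
open scoped ENNReal RealInnerProductSpace Topology
open Crest.AnalysisR.OT

namespace Crest.Agent.Lib.OTStab

variable {d : ℕ} {ι : Type} [Fintype ι] [Nonempty ι]
variable {K : Set (Eu d)} {R r : ℝ} {x0 : Eu d}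

/-- The directional truncation: positive part of `⟪T₀ - T₁, e⟫` on `K ∩ (K - t e)`. -/
noncomputable def dirA (K : Set (Eu d)) (T₀ T₁ : Eu d → Eu d) (e : Eu d) (t : ℝ) (x : Eu d) : ℝ :=
  (K ∩ {x | x + t • e ∈ K}).indicator (fun x => max ⟪T₀ x - T₁ x, e⟫ 0) x

theorem measurableSet_slice (hK : Body K R r x0) (v : Eu d) :
    MeasurableSet (K ∩ {x | x + v ∈ K}) := by
  refine hK.measurableSet.inter ?_
  exact (by fun_prop : Measurable fun x : Eu d => x + v) hK.measurableSet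

theorem dirA_measurable (hK : Body K R r x0) {T₀ T₁ : Eu d → Eu d} (h0 : Measurable T₀)
    (h1 : Measurable T₁) (e : Eu d) (t : ℝ) : Measurable (dirA K T₀ T₁ e t) := by
  unfold dirA
  refine Measurable.indicator ?_ (measurableSet_slice hK _)
  exact (((h0.sub h1).inner measurable_const)).max measurable_const

theorem dirA_nonneg (T₀ T₁ : Eu d → Eu d) (e : Eu d) (t : ℝ) (x : Eu d) :
    0 ≤ dirA K T₀ T₁ e t x := by
  unfold dirA
  exact indicator_nonneg (fun x _ => le_max_right _ _) x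

theorem dirA_le {T₀ T₁ : Eu d → Eu d} {L : ℝ} (hL0 : 0 ≤ L) (h0 : ∀ x, ‖T₀ x‖ ≤ L) (h1 : ∀ x, ‖T₁ x‖ ≤ L)
    {e : Eu d} (he : ‖e‖ = 1) (t : ℝ) (x : Eu d) : dirA K T₀ T₁ e t x ≤ 2 * L := by
  unfold dirA
  by_cases hx : x ∈ K ∩ {x | x + t • e ∈ K}
  · rw [indicator_of_mem hx]
    refine max_le ?_ (by linarith)
    have h2 := real_inner_le_norm (T₀ x - T₁ x) e
    rw [he, mul_one] at h2
    have h3 := norm_sub_le (T₀ x) (T₁ x)
    linarith [h0 x, h1 x]
  · rw [indicator_of_notMem hx]; linarith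

theorem dirA_mem_of_ne {T₀ T₁ : Eu d → Eu d} {e : Eu d} {t : ℝ} {x : Eu d}
    (hx : dirA K T₀ T₁ e t x ≠ 0) : x ∈ K ∧ x + t • e ∈ K := by
  by_contra hcon
  apply hx
  unfold dirA
  exact indicator_of_notMem (s := K ∩ {x | x + t • e ∈ K}) (fun h => hcon ⟨h.1, h.2⟩) _

/-- Translation of functions supported in the slice. -/
theorem integral_translate (hK : Body K R r x0) (v : Eu d) (H : Eu d → ℝ)
    (hH : ∀ x, H x ≠ 0 → x ∈ K ∧ x + v ∈ K) :
    ∫ x, H (x - v) ∂(uniformProbOn K) = ∫ x, H x ∂(uniformProbOn K) := by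
  rw [hK.integral_uniform, hK.integral_uniform]
  congr 1
  have h1 : ∫ x in K, H x = ∫ x, H x := by
    refine setIntegral_eq_integral_of_forall_compl_eq_zero fun x hx => ?_
    by_contra hne
    exact hx (hH x hne).1
  have h2 : ∫ x in K, H (x - v) = ∫ x, H (x - v) := by
    refine setIntegral_eq_integral_of_forall_compl_eq_zero fun x hx => ?_
    by_contra hne
    have := (hH _ hne).2
    rw [sub_add_cancel] at this
    exact hx this
  rw [h1, h2, integral_sub_right_eq_self]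

/-- Boundedness of the potential on the body. -/
theorem abs_pot_le_on (hK : Body K R r x0) (y : ι → Eu d) (w : ι → ℝ) {L : ℝ} (hL0 : 0 ≤ L)
    (hL : ∀ i, ‖y i‖ ≤ L) {x : Eu d} (hx : x ∈ K) : |pot y w x| ≤ |pot y w 0| + L * R := by
  have h1 := abs_pot_le y w hL x
  have h2 : L * ‖x‖ ≤ L * R := mul_le_mul_of_nonneg_left (hK.norm_le hx) hL0
  linarith

/-- The Young gap of the map `T₁` against the competitor weights `w'`. -/
theorem gap_eq (hK : Body K R r x0) {z : ι → Eu d} {m w1 : ι → ℝ}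
    (hw1 : IsOpt (uniformProbOn K) z m w1) (w' : ι → ℝ) :
    Integrable (fun x => w' (sel z w1 x)) (uniformProbOn K) ∧
    Measurable (fun x => w' (sel z w1 x)) ∧
    ∫ x, (pot z w' x + w' (sel z w1 x) - ⟪x, lagMap z w1 x⟫) ∂(uniformProbOn K)
      = dualE (uniformProbOn K) z m w' - dualE (uniformProbOn K) z m w1 := by
  have hsrc := hK.src
  have := hK.isProb
  have hψm : Measurable (fun x => w' (sel z w1 x)) := by
    intro s _
    have : (fun x => w' (sel z w1 x)) ⁻¹' s = ⋃ i ∈ {i | w' i ∈ s}, piece z w1 i := by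
      ext x
      simp [mem_piece]
    rw [this]
    exact MeasurableSet.biUnion (Set.to_countable _) (fun i _ => measurableSet_piece z w1 i)
  have hψi : Integrable (fun x => w' (sel z w1 x)) (uniformProbOn K) := by
    refine hsrc.integrable_of_bound hψm (∑ i, |w' i|) (ae_of_all _ fun x => ?_)
    rw [Real.norm_eq_abs]
    exact Finset.single_le_sum (f := fun i => |w' i|) (fun _ _ => abs_nonneg _) (Finset.mem_univ _)
  refine ⟨hψi, hψm, ?_⟩
  obtain ⟨L, hL0, hL⟩ := exists_norm_bound z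
  have hcorr : Integrable (fun x => ⟪x, lagMap z w1 x⟫) (uniformProbOn K) := by
    refine hsrc.integrable_of_bound ?_ (R * L) ?_
    · exact measurable_id.inner (measurable_lagMap z w1)
    · filter_upwards [hsrc.bdd] with x hx
      rw [Real.norm_eq_abs]
      refine (abs_real_inner_le_norm _ _).trans ?_
      exact mul_le_mul hx (hL _) (norm_nonneg _) ((norm_nonneg _).trans hx)
  have hpot := hsrc.integrable_pot z w'
  have e1 : ∫ x, w' (sel z w1 x) ∂(uniformProbOn K) = ∑ i, m i * w' i := by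
    rw [integral_eq_sum_piece z w1 hψi]
    refine Finset.sum_congr rfl fun i _ => ?_
    have : ∫ x in piece z w1 i, w' (sel z w1 x) ∂(uniformProbOn K)
        = ∫ x in piece z w1 i, w' i ∂(uniformProbOn K) := by
      refine setIntegral_congr_fun (measurableSet_piece z w1 i) fun x hx => ?_
      have hx' : sel z w1 x = i := hx
      simp only [hx']
    rw [this, setIntegral_const, smul_eq_mul, hw1 i]
  have h12 : Integrable (fun x => pot z w' x + w' (sel z w1 x)) (uniformProbOn K) := hpot.add hψi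
  rw [integral_sub h12 hcorr, integral_add hpot hψi, e1,
    hsrc.dualE_eq_corr hw1, hsrc.corr_eq_integral]
  unfold dualE
  ring

/-- One step of the directional inequality, at a fixed perturbation size. -/
theorem dir_step (hK : Body K R r x0) {y z : ι → Eu d} (hy : Function.Injective y)
    (hz : Function.Injective z) {m : ι → ℝ} (hmpos : ∀ i, 0 < m i) (hm : ∑ i, m i = 1)
    {L : ℝ} (hyL : ∀ i, ‖y i‖ ≤ L) (hzL : ∀ i, ‖z i‖ ≤ L) {w0 w1 : ι → ℝ}
    (hw0 : IsOpt (uniformProbOn K) y m w0) (hw1 : IsOpt (uniformProbOn K) z m w1)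
    {e : Eu d} (he : ‖e‖ = 1) {t : ℝ} (ht : 0 < t) (htr : t ≤ r)
    {s : ℝ} (hs0 : 0 < s) (hsB : s * (2 * L) ≤ 1 / 2) (hsr : s ≤ r ^ 2) :
    t * ∫ x, dirA K (lagMap y w0) (lagMap z w1) e t x ^ 2 ∂(uniformProbOn K)
      ≤ 8 * R * Real.sqrt (∫ x, dirA K (lagMap y w0) (lagMap z w1) e t x ^ 2 ∂(uniformProbOn K))
            * Real.sqrt (∑ i, m i * ‖y i - z i‖ ^ 2)
        + 4 * L ^ 2 * d * t ^ 2 / r
        + t * (2 * L) * (2 * d * (4 * L * (d * Real.sqrt s / r)
            + Real.sqrt s * (4 * L * R * (2 * L)))) := by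
  have hsrc := hK.src
  have hprob := hK.isProb
  have hL0 : 0 ≤ L := (norm_nonneg _).trans (hyL (Classical.arbitrary ι))
  have hR0 : 0 ≤ R := hK.R_nonneg
  have hr0 : 0 < r := hK.rpos
  set ρ := uniformProbOn K with hρ
  set T₀ := lagMap y w0 with hT₀
  set T₁ := lagMap z w1 with hT₁
  set a := dirA K T₀ T₁ e t with ha
  set v := t • e with hv
  set τ := Real.sqrt (∑ i, m i * ‖y i - z i‖ ^ 2) with hτ
  have hτ0 : 0 ≤ τ := Real.sqrt_nonneg _
  have hT₀m : Measurable T₀ := measurable_lagMap y w0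
  have hT₁m : Measurable T₁ := measurable_lagMap z w1
  have hT₀L : ∀ x, ‖T₀ x‖ ≤ L := norm_lagMap_le w0 hyL
  have hT₁L : ∀ x, ‖T₁ x‖ ≤ L := norm_lagMap_le w1 hzL
  have ham : Measurable a := dirA_measurable hK hT₀m hT₁m e t
  have ha0 : ∀ x, 0 ≤ a x := dirA_nonneg T₀ T₁ e t
  have ha2 : ∀ x, a x ≤ 2 * L := dirA_le hL0 hT₀L hT₁L he t
  have hasupp : ∀ x, a x ≠ 0 → x ∈ K ∧ x + v ∈ K := fun x hx => dirA_mem_of_ne hx
  have hbd : ∀ (g : Eu d → ℝ), Measurable g → ∀ C : ℝ, (∀ x, |g x| ≤ C) → Integrable g ρ := by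
    intro g hg C hC
    exact hsrc.integrable_of_bound hg C (ae_of_all _ fun x => by simpa [Real.norm_eq_abs] using hC x)
  have hsubv : Measurable fun x : Eu d => x - v := by fun_prop
  have haddv : Measurable fun x : Eu d => x + v := by fun_prop
  have haabs : ∀ x, |a x| ≤ 2 * L := fun x => by rw [abs_of_nonneg (ha0 x)]; exact ha2 x
  have haI : Integrable a ρ := hbd a ham _ haabs
  have haI' : Integrable (fun x => a (x - v)) ρ :=
    hbd _ (ham.comp hsubv) (2 * L) (fun x => haabs _)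
  have ha2I : Integrable (fun x => a x ^ 2) ρ :=
    hbd _ (ham.pow_const 2) ((2 * L) ^ 2) (fun x => by
      rw [abs_pow]; exact pow_le_pow_left₀ (abs_nonneg _) (haabs x) 2)
  have ha2I' : Integrable (fun x => a (x - v) ^ 2) ρ :=
    hbd _ ((ham.comp hsubv).pow_const 2) ((2 * L) ^ 2) (fun x => by
      rw [abs_pow]; exact pow_le_pow_left₀ (abs_nonneg _) (haabs _) 2)
  -- the test function
  set f : Eu d → ℝ := fun x => a (x - v) - a x with hf
  have hfm : Measurable f := (ham.comp hsubv).sub ham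
  have hfB : ∀ x, |f x| ≤ 2 * L := by
    intro x
    rw [abs_le]
    constructor <;> simp only [hf] <;> linarith [ha0 x, ha0 (x - v), ha2 x, ha2 (x - v)]
  have hf0 : ∫ x, f x ∂ρ = 0 := by
    simp only [hf]
    rw [integral_sub haI' haI, integral_translate hK v a hasupp, sub_self]
  have hf2 : ∫ x, f x ^ 2 ∂ρ ≤ 4 * ∫ x, a x ^ 2 ∂ρ := by
    have h1 : ∫ x, a (x - v) ^ 2 ∂ρ = ∫ x, a x ^ 2 ∂ρ := by
      refine integral_translate hK v (fun x => a x ^ 2) fun x hx => hasupp x ?_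
      intro h; apply hx; simp [h]
    have hfI : Integrable (fun x => f x ^ 2) ρ :=
      hbd _ (hfm.pow_const 2) ((2 * L) ^ 2) (fun x => by
        rw [abs_pow]; exact pow_le_pow_left₀ (abs_nonneg _) (hfB x) 2)
    calc ∫ x, f x ^ 2 ∂ρ ≤ ∫ x, (2 * a (x - v) ^ 2 + 2 * a x ^ 2) ∂ρ := by
          refine integral_mono hfI ((ha2I'.const_mul 2).add (ha2I.const_mul 2)) fun x => ?_
          simp only [hf]
          nlinarith [sq_nonneg (a (x - v) + a x)]
      _ = 4 * ∫ x, a x ^ 2 ∂ρ := by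
          rw [integral_add (ha2I'.const_mul 2) (ha2I.const_mul 2), integral_const_mul,
            integral_const_mul, h1]
          ring
  -- star
  have hf'm : Measurable fun x => - f x := hfm.neg
  have hf'B : ∀ x, |(fun x => - f x) x| ≤ 2 * L := fun x => by simpa using hfB x
  have hf'0 : ∫ x, (fun x => - f x) x ∂ρ = 0 := by
    simp only [integral_neg, hf0, neg_zero]
  obtain ⟨w', hstar1, hstar2⟩ := star hK hy hz hmpos hm hzL hf'm hf'B hf'0 hs0 hsB hw0 hw1
  set T' := lagMap z w' with hT'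
  have hT'm : Measurable T' := measurable_lagMap z w'
  have hT'L : ∀ x, ‖T' x‖ ≤ L := norm_lagMap_le w' hzL
  set u : Eu d → ℝ := fun x => pot y w0 x - pot z w' x with hu
  have hum : Measurable u := (measurable_pot y w0).sub (measurable_pot z w')
  set Cu : ℝ := |pot y w0 0| + L * R + (|pot z w' 0| + L * R) with hCu
  have hCu0 : 0 ≤ Cu := by positivity
  have huK : ∀ x, x ∈ K → |u x| ≤ Cu := by
    intro x hx
    have h1 := abs_pot_le_on hK y w0 hL0 hyL hx
    have h2 := abs_pot_le_on hK z w' hL0 hzL hx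
    exact (abs_sub _ _).trans (add_le_add h1 h2)
  have hbd1 : ∀ x, |u (x + v) * a x| ≤ Cu * (2 * L) := by
    intro x
    by_cases hax : a x = 0
    · simp [hax]; positivity
    · rw [abs_mul]
      exact mul_le_mul (huK _ (hasupp x hax).2) (haabs x) (abs_nonneg _) hCu0
  have hbd2 : ∀ x, |u x * a x| ≤ Cu * (2 * L) := by
    intro x
    by_cases hax : a x = 0
    · simp [hax]; positivity
    · rw [abs_mul]
      exact mul_le_mul (huK _ (hasupp x hax).1) (haabs x) (abs_nonneg _) hCu0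
  have hbd3 : ∀ x, |u x * a (x - v)| ≤ Cu * (2 * L) := by
    intro x
    by_cases hax : a (x - v) = 0
    · simp [hax]; positivity
    · rw [abs_mul]
      have := (hasupp _ hax).2
      rw [sub_add_cancel] at this
      exact mul_le_mul (huK _ this) (haabs _) (abs_nonneg _) hCu0
  have hI1 : Integrable (fun x => u (x + v) * a x) ρ :=
    hbd _ ((hum.comp haddv).mul ham) _ hbd1
  have hI2 : Integrable (fun x => u x * a x) ρ := hbd _ (hum.mul ham) _ hbd2
  have hI3 : Integrable (fun x => u x * a (x - v)) ρ :=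
    hbd _ (hum.mul (ham.comp hsubv)) _ hbd3
  have hP : ∫ x, (u (x + v) - u x) * a x ∂ρ ≤ 8 * R * Real.sqrt (∫ x, a x ^ 2 ∂ρ) * τ := by
    have e1 : ∫ x, (u (x + v) - u x) * a x ∂ρ = ∫ x, u x * a (x - v) ∂ρ - ∫ x, u x * a x ∂ρ := by
      have e2 := integral_translate hK v (fun x => u (x + v) * a x) (fun x hx => hasupp x (by
        intro h; apply hx; simp [h]))
      simp only [sub_add_cancel] at e2
      rw [e2, ← integral_sub hI1 hI2]
      refine integral_congr_ae (ae_of_all _ fun x => ?_)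
      simp only
      ring
    rw [e1, ← integral_sub hI3 hI2]
    have e3 : ∫ x, (u x * a (x - v) - u x * a x) ∂ρ
        = ∫ x, (pot z w' x - pot y w0 x) * (fun x => - f x) x ∂ρ := by
      refine integral_congr_ae (ae_of_all _ fun x => ?_)
      simp only [hu, hf]
      ring
    rw [e3]
    refine hstar1.trans ?_
    have e4 : ∫ x, (fun x => - f x) x ^ 2 ∂ρ = ∫ x, f x ^ 2 ∂ρ := by
      refine integral_congr_ae (ae_of_all _ fun x => ?_)
      simp
    rw [e4]
    have e5 : Real.sqrt (∫ x, f x ^ 2 ∂ρ) ≤ 2 * Real.sqrt (∫ x, a x ^ 2 ∂ρ) := by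
      calc Real.sqrt (∫ x, f x ^ 2 ∂ρ) ≤ Real.sqrt (4 * ∫ x, a x ^ 2 ∂ρ) := Real.sqrt_le_sqrt hf2
        _ = 2 * Real.sqrt (∫ x, a x ^ 2 ∂ρ) := by
          rw [Real.sqrt_mul (by norm_num)]
          congr 1
          rw [show (4 : ℝ) = 2 ^ 2 by norm_num, Real.sqrt_sq (by norm_num)]
    calc 4 * R * Real.sqrt (∫ x, f x ^ 2 ∂ρ) * τ
        ≤ 4 * R * (2 * Real.sqrt (∫ x, a x ^ 2 ∂ρ)) * τ := by gcongr
      _ = 8 * R * Real.sqrt (∫ x, a x ^ 2 ∂ρ) * τ := by ring
  -- the monotone term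
  set Mo : Eu d → ℝ := fun x => ⟪T' (x + v) - T' x, e⟫ with hMo
  have hMom : Measurable Mo := ((hT'm.comp haddv).sub hT'm).inner measurable_const
  have hMoB : ∀ x, |Mo x| ≤ 2 * L := by
    intro x
    refine (abs_real_inner_le_norm _ _).trans ?_
    rw [he, mul_one]
    exact (norm_sub_le _ _).trans (by linarith [hT'L (x + v), hT'L x])
  have hMoNN : ∀ x, 0 ≤ Mo x := by
    intro x
    have h1 := lagMap_mono z w' x (x + v)
    rw [add_sub_cancel_left, hv, inner_smul_right] at h1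
    exact nonneg_of_mul_nonneg_right h1 ht
  have hMoI : Integrable Mo ρ := hbd _ hMom _ hMoB
  have hmono : ∫ x in K ∩ {x | x + t • e ∈ K}, Mo x ∂ρ ≤ 2 * L * (d * t / r) :=
    mono_term hK hT'm hT'L he ht htr
  have hQI : Integrable (fun x => a x * Mo x) ρ := by
    refine hbd _ (ham.mul hMom) ((2 * L) * (2 * L)) fun x => ?_
    rw [abs_mul]
    exact mul_le_mul (haabs x) (hMoB x) (abs_nonneg _) (by linarith)
  have hQ : ∫ x, a x * Mo x ∂ρ ≤ 2 * L * (2 * L * (d * t / r)) := by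
    have hS := measurableSet_slice hK (t • e)
    have h1 : ∫ x, a x * Mo x ∂ρ ≤ ∫ x, (K ∩ {x | x + t • e ∈ K}).indicator (fun x => 2 * L * Mo x) x ∂ρ := by
      refine integral_mono hQI ((hMoI.const_mul _).indicator hS) fun x => ?_
      by_cases hx : x ∈ K ∩ {x | x + t • e ∈ K}
      · simp only [indicator_of_mem hx]
        exact mul_le_mul_of_nonneg_right (ha2 x) (hMoNN x)
      · have h0 : a x = 0 := by
          by_contra hne
          exact hx ⟨(hasupp x hne).1, (hasupp x hne).2⟩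
        simp only [indicator_of_notMem hx, h0, zero_mul, le_refl]
    rw [integral_indicator hS, integral_const_mul] at h1
    exact h1.trans (mul_le_mul_of_nonneg_left hmono (by linarith))
  -- the L¹ term
  obtain ⟨hψI, hψm, hgap⟩ := gap_eq hK hw1 w'
  have hsq0 : 0 < Real.sqrt s := Real.sqrt_pos.mpr hs0
  have hsqr : Real.sqrt s ≤ r := by
    rw [show r = Real.sqrt (r ^ 2) from (Real.sqrt_sq hr0.le).symm]
    exact Real.sqrt_le_sqrt hsr
  have hl1 := l1_le_gap hK w' hzL hT₁m (ae_of_all _ hT₁L) hψm hψI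
    (ae_of_all _ fun x x' _ => by
      have := sc_le_pot z w' (sel z w1 x) x'
      simpa [sc, hT₁, lagMap] using this) hsq0 hsqr
  have hgap' : (∫ x, (pot z w' x + w' (sel z w1 x) - ⟪x, T₁ x⟫) ∂ρ) / Real.sqrt s
      ≤ Real.sqrt s * (4 * L * R * (2 * L)) := by
    rw [hgap]
    calc _ ≤ (s * (4 * L * R * (2 * L))) / Real.sqrt s := by
          exact div_le_div_of_nonneg_right hstar2 hsq0.le
      _ = Real.sqrt s * (4 * L * R * (2 * L)) := by
          rw [mul_div_right_comm, Real.div_sqrt]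
  have hd0 : (0 : ℝ) ≤ d := Nat.cast_nonneg d
  have hl1' : ∫ x, ‖T₁ x - T' x‖ ∂ρ ≤ 2 * d * (4 * L * (d * Real.sqrt s / r)
      + Real.sqrt s * (4 * L * R * (2 * L))) := by
    refine hl1.trans ?_
    gcongr
  have hnI : Integrable (fun x => ‖T₁ x - T' x‖) ρ := by
    refine hbd _ (hT₁m.sub hT'm).norm (L + L) fun x => ?_
    rw [abs_of_nonneg (norm_nonneg _)]
    exact (norm_sub_le _ _).trans (add_le_add (hT₁L x) (hT'L x))
  have hRI : Integrable (fun x => a x * ‖T' x - T₁ x‖) ρ := by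
    refine hbd _ (ham.mul (hT'm.sub hT₁m).norm) ((2 * L) * (L + L)) fun x => ?_
    rw [abs_mul, abs_of_nonneg (norm_nonneg _)]
    exact mul_le_mul (haabs x) ((norm_sub_le _ _).trans (add_le_add (hT'L x) (hT₁L x)))
      (norm_nonneg _) (by linarith)
  have hR3 : ∫ x, a x * ‖T' x - T₁ x‖ ∂ρ ≤ 2 * L * ∫ x, ‖T₁ x - T' x‖ ∂ρ := by
    rw [← integral_const_mul]
    refine integral_mono hRI (hnI.const_mul _) fun x => ?_
    simp only
    rw [norm_sub_rev]
    exact mul_le_mul_of_nonneg_right (ha2 x) (norm_nonneg _)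
  -- the pointwise inequality
  have hpt : ∀ x, t * a x ^ 2 ≤ (u (x + v) - u x) * a x + t * (a x * Mo x)
      + t * (a x * ‖T' x - T₁ x‖) := by
    intro x
    by_cases hax : a x = 0
    · simp [hax]
    · have hx := hasupp x hax
      have hval : a x = max ⟪T₀ x - T₁ x, e⟫ 0 := by
        have hS : x ∈ K ∩ {x | x + t • e ∈ K} := ⟨hx.1, hx.2⟩
        simp only [ha, dirA]
        rw [indicator_of_mem hS]
      have hpos : 0 < a x := lt_of_le_of_ne (ha0 x) (Ne.symm hax)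
      have hval2 : a x = ⟪T₀ x - T₁ x, e⟫ := by
        rcases le_total ⟪T₀ x - T₁ x, e⟫ 0 with h | h
        · rw [max_eq_right h] at hval
          exact absurd hval hax
        · rwa [max_eq_left h] at hval
      have h1 := pot_subgrad y w0 x (x + v)
      have h2 := pot_subgrad z w' (x + v) x
      rw [add_sub_cancel_left, hv, real_inner_smul_left] at h1
      have h3 : x - (x + v) = -(t • e) := by rw [hv]; abel
      rw [h3, inner_neg_left, real_inner_smul_left] at h2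
      have h4 : ⟪T' x - T₁ x, e⟫ ≤ ‖T' x - T₁ x‖ := by
        have := real_inner_le_norm (T' x - T₁ x) e
        rwa [he, mul_one] at this
      have h5 : t * a x ≤ u (x + v) - u x + t * Mo x + t * ‖T' x - T₁ x‖ := by
        have e1 : t * a x = t * ⟪e, T₀ x⟫ - t * ⟪T₁ x, e⟫ := by
          rw [hval2, inner_sub_left, real_inner_comm e (T₀ x)]; ring
        have e2 : Mo x = ⟪e, T' (x + v)⟫ - ⟪T' x, e⟫ := by
          simp only [hMo]
          rw [inner_sub_left, real_inner_comm e (T' (x + v))]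
        have e3 : ⟪T' x - T₁ x, e⟫ = ⟪T' x, e⟫ - ⟪T₁ x, e⟫ := inner_sub_left _ _ _
        have h6 : t * ⟪T' x - T₁ x, e⟫ ≤ t * ‖T' x - T₁ x‖ := mul_le_mul_of_nonneg_left h4 ht.le
        simp only [hu]
        rw [e1, e2]
        rw [e3] at h6
        nlinarith
      calc t * a x ^ 2 = (t * a x) * a x := by ring
        _ ≤ (u (x + v) - u x + t * Mo x + t * ‖T' x - T₁ x‖) * a x :=
            mul_le_mul_of_nonneg_right h5 hpos.le
        _ = _ := by ring
  have hPI : Integrable (fun x => (u (x + v) - u x) * a x) ρ := by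
    have : (fun x => (u (x + v) - u x) * a x) = fun x => u (x + v) * a x - u x * a x := by
      funext x; ring
    rw [this]
    exact hI1.sub hI2
  have hsum : t * ∫ x, a x ^ 2 ∂ρ ≤ ∫ x, (u (x + v) - u x) * a x ∂ρ
      + t * ∫ x, a x * Mo x ∂ρ + t * ∫ x, a x * ‖T' x - T₁ x‖ ∂ρ := by
    rw [← integral_const_mul, ← integral_const_mul, ← integral_const_mul]
    have h12 : Integrable (fun x => (u (x + v) - u x) * a x + t * (a x * Mo x)) ρ :=
      hPI.add (hQI.const_mul t)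
    rw [← integral_add hPI (hQI.const_mul t), ← integral_add h12 (hRI.const_mul t)]
    exact integral_mono (ha2I.const_mul t) (h12.add (hRI.const_mul t)) hpt
  have hQ' : t * ∫ x, a x * Mo x ∂ρ ≤ 4 * L ^ 2 * d * t ^ 2 / r := by
    calc t * ∫ x, a x * Mo x ∂ρ ≤ t * (2 * L * (2 * L * (d * t / r))) :=
          mul_le_mul_of_nonneg_left hQ ht.le
      _ = 4 * L ^ 2 * d * t ^ 2 / r := by ring
  have hR' : t * ∫ x, a x * ‖T' x - T₁ x‖ ∂ρ ≤ t * (2 * L) * (2 * d * (4 * L * (d * Real.sqrt s / r)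
      + Real.sqrt s * (4 * L * R * (2 * L)))) := by
    calc t * ∫ x, a x * ‖T' x - T₁ x‖ ∂ρ ≤ t * (2 * L * ∫ x, ‖T₁ x - T' x‖ ∂ρ) :=
          mul_le_mul_of_nonneg_left hR3 ht.le
      _ ≤ t * (2 * L * (2 * d * (4 * L * (d * Real.sqrt s / r)
            + Real.sqrt s * (4 * L * R * (2 * L))))) := by gcongr
      _ = _ := by ring
  linarith

/-- **Directional inequality.** -/
theorem dir_ineq (hK : Body K R r x0) {y z : ι → Eu d} (hy : Function.Injective y)
    (hz : Function.Injective z) {m : ι → ℝ} (hmpos : ∀ i, 0 < m i) (hm : ∑ i, m i = 1)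
    {L : ℝ} (hyL : ∀ i, ‖y i‖ ≤ L) (hzL : ∀ i, ‖z i‖ ≤ L) {w0 w1 : ι → ℝ}
    (hw0 : IsOpt (uniformProbOn K) y m w0) (hw1 : IsOpt (uniformProbOn K) z m w1)
    {e : Eu d} (he : ‖e‖ = 1) {t : ℝ} (ht : 0 < t) (htr : t ≤ r) :
    t * ∫ x, dirA K (lagMap y w0) (lagMap z w1) e t x ^ 2 ∂(uniformProbOn K)
      ≤ 8 * R * Real.sqrt (∫ x, dirA K (lagMap y w0) (lagMap z w1) e t x ^ 2 ∂(uniformProbOn K))
            * Real.sqrt (∑ i, m i * ‖y i - z i‖ ^ 2)
        + 4 * L ^ 2 * d * t ^ 2 / r := by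
  have hL0 : 0 ≤ L := (norm_nonneg _).trans (hyL (Classical.arbitrary ι))
  have hr0 : 0 < r := hK.rpos
  set X := t * ∫ x, dirA K (lagMap y w0) (lagMap z w1) e t x ^ 2 ∂(uniformProbOn K) with hX
  set Y := 8 * R * Real.sqrt (∫ x, dirA K (lagMap y w0) (lagMap z w1) e t x ^ 2 ∂(uniformProbOn K))
            * Real.sqrt (∑ i, m i * ‖y i - z i‖ ^ 2)
        + 4 * L ^ 2 * d * t ^ 2 / r with hY
  set C := t * (2 * L) * (2 * d * (4 * L * (d / r) + (4 * L * R * (2 * L)))) with hC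
  have hlim : Tendsto (fun s : ℝ => Y + C * Real.sqrt s) (𝓝[>] 0) (𝓝 (Y + C * Real.sqrt 0)) := by
    have : Continuous (fun s : ℝ => Y + C * Real.sqrt s) := by fun_prop
    exact (this.tendsto 0).mono_left nhdsWithin_le_nhds
  simp only [Real.sqrt_zero, mul_zero, add_zero] at hlim
  refine ge_of_tendsto hlim ?_
  have hs₀ : 0 < min (r ^ 2) (1 / (4 * L + 1)) := lt_min (by positivity) (by positivity)
  filter_upwards [Ioo_mem_nhdsGT hs₀] with s hs
  have hs1 : s ≤ r ^ 2 := hs.2.le.trans (min_le_left _ _)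
  have hs2 : s ≤ 1 / (4 * L + 1) := hs.2.le.trans (min_le_right _ _)
  have hsB : s * (2 * L) ≤ 1 / 2 := by
    have h1 : s * (4 * L + 1) ≤ 1 := by
      rwa [le_div_iff₀ (by positivity)] at hs2
    nlinarith [hs.1]
  have := dir_step hK hy hz hmpos hm hyL hzL hw0 hw1 he ht htr hs.1 hsB hs1
  refine this.trans (le_of_eq ?_)
  simp only [hY, hC]
  field_simp

/-- Untruncated directional part. -/
theorem dir_B_le (hK : Body K R r x0) {T₀ T₁ : Eu d → Eu d} (h0m : Measurable T₀) (h1m : Measurable T₁)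
    {L : ℝ} (hL0 : 0 ≤ L) (h0 : ∀ x, ‖T₀ x‖ ≤ L) (h1 : ∀ x, ‖T₁ x‖ ≤ L)
    {e : Eu d} (he : ‖e‖ = 1) {t : ℝ} (ht : 0 < t) (htr : t ≤ r) :
    (∫ x, dirA K T₀ T₁ e t x ^ 2 ∂(uniformProbOn K)
        ≤ ∫ x, (max ⟪T₀ x - T₁ x, e⟫ 0) ^ 2 ∂(uniformProbOn K)) ∧
    (∫ x, (max ⟪T₀ x - T₁ x, e⟫ 0) ^ 2 ∂(uniformProbOn K)
        ≤ ∫ x, dirA K T₀ T₁ e t x ^ 2 ∂(uniformProbOn K) + 4 * L ^ 2 * (d * t / r)) := by
  have hsrc := hK.src
  have hprob := hK.isProb
  have hr0 : 0 < r := hK.rpos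
  set ρ := uniformProbOn K with hρ
  have hbd : ∀ (g : Eu d → ℝ), Measurable g → ∀ C : ℝ, (∀ x, |g x| ≤ C) → Integrable g ρ := by
    intro g hg C hC
    exact hsrc.integrable_of_bound hg C (ae_of_all _ fun x => by simpa [Real.norm_eq_abs] using hC x)
  set a := dirA K T₀ T₁ e t with ha
  set b : Eu d → ℝ := fun x => max ⟪T₀ x - T₁ x, e⟫ 0 with hb
  have ham : Measurable a := dirA_measurable hK h0m h1m e t
  have hbm : Measurable b := (((h0m.sub h1m).inner measurable_const)).max measurable_const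
  have ha0 : ∀ x, 0 ≤ a x := dirA_nonneg T₀ T₁ e t
  have ha2 : ∀ x, a x ≤ 2 * L := dirA_le hL0 h0 h1 he t
  have hb0 : ∀ x, 0 ≤ b x := fun x => le_max_right _ _
  have hb2 : ∀ x, b x ≤ 2 * L := by
    intro x
    refine max_le ?_ (by linarith)
    have h2 := real_inner_le_norm (T₀ x - T₁ x) e
    rw [he, mul_one] at h2
    have h3 := norm_sub_le (T₀ x) (T₁ x)
    linarith [h0 x, h1 x]
  have hS := measurableSet_slice hK (t • e)
  have hab : ∀ x, a x = (K ∩ {x | x + t • e ∈ K}).indicator b x := fun x => rfl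
  have haI : Integrable (fun x => a x ^ 2) ρ :=
    hbd _ (ham.pow_const 2) ((2 * L) ^ 2) (fun x => by
      rw [abs_pow, abs_of_nonneg (ha0 x)]; exact pow_le_pow_left₀ (ha0 x) (ha2 x) 2)
  have hbI : Integrable (fun x => b x ^ 2) ρ :=
    hbd _ (hbm.pow_const 2) ((2 * L) ^ 2) (fun x => by
      rw [abs_pow, abs_of_nonneg (hb0 x)]; exact pow_le_pow_left₀ (hb0 x) (hb2 x) 2)
  constructor
  · refine integral_mono haI hbI fun x => ?_
    simp only [hab]
    by_cases hx : x ∈ K ∩ {x | x + t • e ∈ K}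
    · rw [indicator_of_mem hx]
    · rw [indicator_of_notMem hx]
      simp only [ne_eq, OfNat.ofNat_ne_zero, not_false_eq_true, zero_pow]
      exact sq_nonneg _
  · set D : Set (Eu d) := K \ {x | x + t • e ∈ K} with hD
    have hDm : MeasurableSet D := by
      refine hK.measurableSet.diff ?_
      exact (by fun_prop : Measurable fun x : Eu d => x + t • e) hK.measurableSet
    have hv : ‖t • e‖ = t := by rw [norm_smul, he, mul_one, Real.norm_of_nonneg ht.le]
    have hDρ : ρ.real D ≤ d * t / r := by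
      have h1 := vol_sdiff_translate hK (v := t • e) (by rw [hv]; exact htr)
      rw [hv] at h1
      have hnn : 0 ≤ d * t / r := by positivity
      exact ENNReal.toReal_le_of_le_ofReal hnn h1
    have hIm : Integrable (fun x => D.indicator (fun _ => 4 * L ^ 2) x) ρ :=
      (integrable_const _).indicator hDm
    have hpt : ∀ᵐ x ∂ρ, b x ^ 2 ≤ a x ^ 2 + D.indicator (fun _ => 4 * L ^ 2) x := by
      filter_upwards [hK.ae_mem] with x hxK
      by_cases hx : x + t • e ∈ K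
      · have hxS : x ∈ K ∩ {x | x + t • e ∈ K} := ⟨hxK, hx⟩
        have hxD : x ∉ D := fun h => h.2 hx
        rw [hab, indicator_of_mem hxS, indicator_of_notMem hxD, add_zero]
      · have hxD : x ∈ D := ⟨hxK, hx⟩
        rw [indicator_of_mem hxD]
        have : b x ^ 2 ≤ (2 * L) ^ 2 := pow_le_pow_left₀ (hb0 x) (hb2 x) 2
        nlinarith [sq_nonneg (a x)]
    calc ∫ x, b x ^ 2 ∂ρ ≤ ∫ x, (a x ^ 2 + D.indicator (fun _ => 4 * L ^ 2) x) ∂ρ :=
          integral_mono_ae hbI (haI.add hIm) hpt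
      _ = ∫ x, a x ^ 2 ∂ρ + ∫ x, D.indicator (fun _ => 4 * L ^ 2) x ∂ρ := integral_add haI hIm
      _ ≤ ∫ x, a x ^ 2 ∂ρ + 4 * L ^ 2 * (d * t / r) := by
          gcongr
          rw [integral_indicator hDm, setIntegral_const, smul_eq_mul, mul_comm]
          exact mul_le_mul_of_nonneg_left hDρ (by positivity)

/-- Decomposition of the square norm into directional positive parts. -/
theorem norm_sq_eq_sum_dir (v : Eu d) :
    ‖v‖ ^ 2 = ∑ j : Fin d, ((max ⟪v, EuclideanSpace.single j (1 : ℝ)⟫ 0) ^ 2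
      + (max ⟪v, -EuclideanSpace.single j (1 : ℝ)⟫ 0) ^ 2) := by
  rw [EuclideanSpace.real_norm_sq_eq]
  refine Finset.sum_congr rfl fun j _ => ?_
  rw [inner_neg_right, EuclideanSpace.inner_single_right]
  simp only [one_mul, map_one, conj_trivial]
  rcases le_total (v j) 0 with h | h
  · rw [max_eq_right h, max_eq_left (by linarith)]; ring
  · rw [max_eq_left h, max_eq_right (by linarith)]; ring

/-- **Atomic stability.** -/
theorem atomic (hd : 1 ≤ d) (hK : Body K R r x0) {y z : ι → Eu d} (hy : Function.Injective y)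
    (hz : Function.Injective z) {m : ι → ℝ} (hmpos : ∀ i, 0 < m i) (hm : ∑ i, m i = 1)
    {L : ℝ} (hyL : ∀ i, ‖y i‖ ≤ L) (hzL : ∀ i, ‖z i‖ ≤ L) {w0 w1 : ι → ℝ}
    (hw0 : IsOpt (uniformProbOn K) y m w0) (hw1 : IsOpt (uniformProbOn K) z m w1) :
    (∫ x, ‖lagMap y w0 x - lagMap z w1 x‖ ^ 2 ∂(uniformProbOn K)) ^ 3
      ≤ (2 ^ 19 * R ^ 2 * d ^ 5 * L ^ 4 / r ^ 2) * ∑ i, m i * ‖y i - z i‖ ^ 2 := by
  have hsrc := hK.src
  have hprob := hK.isProb
  have hL0 : 0 ≤ L := (norm_nonneg _).trans (hyL (Classical.arbitrary ι))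
  have hR0 : 0 ≤ R := hK.R_nonneg
  have hr0 : 0 < r := hK.rpos
  have hd0 : (1 : ℝ) ≤ d := by exact_mod_cast hd
  set ρ := uniformProbOn K with hρ
  set T₀ := lagMap y w0 with hT₀
  set T₁ := lagMap z w1 with hT₁
  have h0m : Measurable T₀ := measurable_lagMap y w0
  have h1m : Measurable T₁ := measurable_lagMap z w1
  have h0L : ∀ x, ‖T₀ x‖ ≤ L := norm_lagMap_le w0 hyL
  have h1L : ∀ x, ‖T₁ x‖ ≤ L := norm_lagMap_le w1 hzL
  set τ2 : ℝ := ∑ i, m i * ‖y i - z i‖ ^ 2 with hτ2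
  have hτ20 : 0 ≤ τ2 := Finset.sum_nonneg fun i _ => mul_nonneg (hmpos i).le (by positivity)
  set Δ : ℝ := ∫ x, ‖T₀ x - T₁ x‖ ^ 2 ∂ρ with hΔ
  have hbd : ∀ (g : Eu d → ℝ), Measurable g → ∀ C : ℝ, (∀ x, |g x| ≤ C) → Integrable g ρ := by
    intro g hg C hC
    exact hsrc.integrable_of_bound hg C (ae_of_all _ fun x => by simpa [Real.norm_eq_abs] using hC x)
  have hnb : ∀ x, ‖T₀ x - T₁ x‖ ≤ 2 * L := fun x =>
    (norm_sub_le _ _).trans (by linarith [h0L x, h1L x])
  have hΔ0 : 0 ≤ Δ := integral_nonneg fun x => by positivity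
  have hΔle : Δ ≤ 4 * L ^ 2 := by
    have h1 : Δ ≤ ∫ _x, (2 * L) ^ 2 ∂ρ := by
      refine integral_mono (hbd _ ((h0m.sub h1m).norm.pow_const 2) ((2 * L) ^ 2) fun x => ?_)
        (integrable_const _) fun x => ?_
      · rw [abs_of_nonneg (by positivity)]
        exact pow_le_pow_left₀ (norm_nonneg _) (hnb x) 2
      · exact pow_le_pow_left₀ (norm_nonneg _) (hnb x) 2
    simp only [integral_const, probReal_univ, one_smul] at h1
    linarith
  rcases hΔ0.eq_or_lt with hz0 | hΔpos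
  · rw [← hz0]
    have : (0 : ℝ) ^ 3 = 0 := by norm_num
    rw [this]
    positivity
  have hLpos : 0 < L := by
    rcases hL0.eq_or_lt with h | h
    · rw [← h] at hΔle
      norm_num at hΔle
      linarith
    · exact h
  -- the directional integrals
  let eP : Fin d → Eu d := fun j => EuclideanSpace.single j (1 : ℝ)
  let eN : Fin d → Eu d := fun j => -EuclideanSpace.single j (1 : ℝ)
  have heP : ∀ j, ‖eP j‖ = 1 := fun j => by simp [eP]
  have heN : ∀ j, ‖eN j‖ = 1 := fun j => by simp [eN]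
  set Q : ℝ := 16 * d ^ 2 * L ^ 2 / r with hQ
  have hQpos : 0 < Q := by positivity
  -- main inequality for all t
  have key : ∀ t : ℝ, 0 < t → t ≤ r →
      t * Δ ≤ 8 * R * Real.sqrt (2 * d * Δ) * Real.sqrt τ2 + Q * t ^ 2 := by
    intro t ht htr
    let AP : Fin d → ℝ := fun j => ∫ x, dirA K T₀ T₁ (eP j) t x ^ 2 ∂ρ
    let AN : Fin d → ℝ := fun j => ∫ x, dirA K T₀ T₁ (eN j) t x ^ 2 ∂ρ
    let BP : Fin d → ℝ := fun j => ∫ x, (max ⟪T₀ x - T₁ x, eP j⟫ 0) ^ 2 ∂ρ
    let BN : Fin d → ℝ := fun j => ∫ x, (max ⟪T₀ x - T₁ x, eN j⟫ 0) ^ 2 ∂ρ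
    have hBI : ∀ e : Eu d, ‖e‖ = 1 → Integrable (fun x => (max ⟪T₀ x - T₁ x, e⟫ 0) ^ 2) ρ := by
      intro e he
      refine hbd _ ((((h0m.sub h1m).inner measurable_const)).max measurable_const |>.pow_const 2)
        ((2 * L) ^ 2) fun x => ?_
      rw [abs_of_nonneg (by positivity)]
      refine pow_le_pow_left₀ (le_max_right _ _) (max_le ?_ (by linarith)) 2
      have h2 := real_inner_le_norm (T₀ x - T₁ x) e
      rw [he, mul_one] at h2
      linarith [hnb x]
    have hΔsum : Δ = ∑ j, (BP j + BN j) := by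
      simp only [hΔ, BP, BN]
      have : ∀ x, ‖T₀ x - T₁ x‖ ^ 2 = ∑ j : Fin d, ((max ⟪T₀ x - T₁ x, eP j⟫ 0) ^ 2
          + (max ⟪T₀ x - T₁ x, eN j⟫ 0) ^ 2) := fun x => norm_sq_eq_sum_dir _
      simp_rw [this]
      have hI : ∀ j ∈ (Finset.univ : Finset (Fin d)), Integrable (fun x => (max ⟪T₀ x - T₁ x, eP j⟫ 0) ^ 2
          + (max ⟪T₀ x - T₁ x, eN j⟫ 0) ^ 2) ρ := fun j _ => (hBI _ (heP j)).add (hBI _ (heN j))
      rw [integral_finset_sum _ hI]
      refine Finset.sum_congr rfl fun j _ => ?_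
      rw [integral_add (hBI _ (heP j)) (hBI _ (heN j))]
    have hABP := fun j => dir_B_le hK h0m h1m hL0 h0L h1L (heP j) ht htr
    have hABN := fun j => dir_B_le hK h0m h1m hL0 h0L h1L (heN j) ht htr
    have hdirP : ∀ j, t * AP j ≤ 8 * R * Real.sqrt (AP j) * Real.sqrt τ2 + 4 * L ^ 2 * d * t ^ 2 / r :=
      fun j => dir_ineq hK hy hz hmpos hm hyL hzL hw0 hw1 (heP j) ht htr
    have hdirN : ∀ j, t * AN j ≤ 8 * R * Real.sqrt (AN j) * Real.sqrt τ2 + 4 * L ^ 2 * d * t ^ 2 / r :=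
      fun j => dir_ineq hK hy hz hmpos hm hyL hzL hw0 hw1 (heN j) ht htr
    have hAP0 : ∀ j, 0 ≤ AP j := fun j => integral_nonneg fun x => by positivity
    have hAN0 : ∀ j, 0 ≤ AN j := fun j => integral_nonneg fun x => by positivity
    set SA : ℝ := ∑ j, (AP j + AN j) with hSA
    have hSA0 : 0 ≤ SA := Finset.sum_nonneg fun j _ => add_nonneg (hAP0 j) (hAN0 j)
    have hSAΔ : SA ≤ Δ := by
      rw [hΔsum]
      exact Finset.sum_le_sum fun j _ => add_le_add (hABP j).1 (hABN j).1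
    have hΔSA : Δ ≤ SA + d * (2 * (4 * L ^ 2 * (d * t / r))) := by
      rw [hΔsum, hSA]
      have : ∑ j : Fin d, (BP j + BN j) ≤ ∑ j : Fin d, (AP j + AN j + 2 * (4 * L ^ 2 * (d * t / r))) :=
        Finset.sum_le_sum fun j _ => by linarith [(hABP j).2, (hABN j).2]
      refine this.trans (le_of_eq ?_)
      rw [Finset.sum_add_distrib]
      simp
    -- Cauchy-Schwarz
    set Sq : ℝ := ∑ j, (Real.sqrt (AP j) + Real.sqrt (AN j)) with hSq
    have hSq0 : 0 ≤ Sq := Finset.sum_nonneg fun j _ => by positivity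
    have hCS : Sq ≤ Real.sqrt (2 * d * Δ) := by
      refine Real.le_sqrt_of_sq_le ?_
      have h1 : Sq ^ 2 ≤ (Finset.univ : Finset (Fin d)).card *
          ∑ j, (Real.sqrt (AP j) + Real.sqrt (AN j)) ^ 2 := sq_sum_le_card_mul_sum_sq
      have h2 : ∑ j, (Real.sqrt (AP j) + Real.sqrt (AN j)) ^ 2 ≤ ∑ j, 2 * (AP j + AN j) := by
        refine Finset.sum_le_sum fun j _ => ?_
        have e1 := Real.sq_sqrt (hAP0 j)
        have e2 := Real.sq_sqrt (hAN0 j)
        nlinarith [sq_nonneg (Real.sqrt (AP j) - Real.sqrt (AN j))]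
      rw [← Finset.mul_sum] at h2
      simp only [Finset.card_univ, Fintype.card_fin] at h1
      have h3 : (d : ℝ) * ∑ j, (Real.sqrt (AP j) + Real.sqrt (AN j)) ^ 2 ≤ d * (2 * SA) :=
        mul_le_mul_of_nonneg_left h2 (by positivity)
      have h4 : (d : ℝ) * (2 * SA) ≤ d * (2 * Δ) := by gcongr
      nlinarith
    have hsum : t * SA ≤ 8 * R * Sq * Real.sqrt τ2 + d * (2 * (4 * L ^ 2 * d * t ^ 2 / r)) := by
      rw [hSA, Finset.mul_sum, hSq, Finset.mul_sum, Finset.sum_mul]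
      have : ∑ j : Fin d, t * (AP j + AN j) ≤ ∑ j : Fin d, (8 * R * (Real.sqrt (AP j) + Real.sqrt (AN j)) * Real.sqrt τ2
          + 2 * (4 * L ^ 2 * d * t ^ 2 / r)) := by
        refine Finset.sum_le_sum fun j _ => ?_
        have := hdirP j
        have := hdirN j
        nlinarith
      refine this.trans (le_of_eq ?_)
      rw [Finset.sum_add_distrib]
      simp
    have hfin : t * Δ ≤ t * SA + t * (d * (2 * (4 * L ^ 2 * (d * t / r)))) := by
      rw [← mul_add]; exact mul_le_mul_of_nonneg_left hΔSA ht.le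
    have hfin2 : 8 * R * Sq * Real.sqrt τ2 ≤ 8 * R * Real.sqrt (2 * d * Δ) * Real.sqrt τ2 := by
      gcongr
    have e : t * (d * (2 * (4 * L ^ 2 * (d * t / r)))) + d * (2 * (4 * L ^ 2 * d * t ^ 2 / r)) = Q * t ^ 2 := by
      simp only [hQ]; field_simp; ring
    linarith
  -- optimise
  set t : ℝ := Δ / (2 * Q) with ht
  have htpos : 0 < t := by positivity
  have htr : t ≤ r := by
    have h1 : t = Δ * r / (32 * d ^ 2 * L ^ 2) := by
      simp only [ht, hQ]; field_simp; ring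
    rw [h1, div_le_iff₀ (by positivity)]
    have hd2 : (1 : ℝ) ≤ d ^ 2 := by nlinarith
    have : Δ * r ≤ 4 * L ^ 2 * r := by gcongr
    have h3 : 4 * L ^ 2 * r ≤ r * (32 * d ^ 2 * L ^ 2) := by
      have : 0 < L ^ 2 * r := by positivity
      nlinarith
    linarith
  have hk := key t htpos htr
  have e1 : t * Δ - Q * t ^ 2 = Δ ^ 2 / (4 * Q) := by
    simp only [ht]; field_simp; ring
  have h2 : Δ ^ 2 / (4 * Q) ≤ 8 * R * Real.sqrt (2 * d * Δ) * Real.sqrt τ2 := by linarith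
  have h3 : (Δ ^ 2 / (4 * Q)) ^ 2 ≤ (8 * R * Real.sqrt (2 * d * Δ) * Real.sqrt τ2) ^ 2 :=
    pow_le_pow_left₀ (by positivity) h2 2
  have e2 : (8 * R * Real.sqrt (2 * d * Δ) * Real.sqrt τ2) ^ 2 = 64 * R ^ 2 * (2 * d * Δ) * τ2 := by
    rw [mul_pow, mul_pow, mul_pow, Real.sq_sqrt (by positivity), Real.sq_sqrt hτ20]
    ring
  rw [e2, div_pow] at h3
  have h4 : Δ ^ 4 ≤ 64 * R ^ 2 * (2 * d * Δ) * τ2 * (4 * Q) ^ 2 := by
    rw [div_le_iff₀ (by positivity)] at h3
    calc Δ ^ 4 = (Δ ^ 2) ^ 2 := by ring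
      _ ≤ _ := h3
  have h5 : Δ * Δ ^ 3 ≤ Δ * (64 * R ^ 2 * (2 * d) * τ2 * (4 * Q) ^ 2) := by
    calc Δ * Δ ^ 3 = Δ ^ 4 := by ring
      _ ≤ _ := h4
      _ = _ := by ring
  have h6 : Δ ^ 3 ≤ 64 * R ^ 2 * (2 * d) * τ2 * (4 * Q) ^ 2 := le_of_mul_le_mul_left h5 hΔpos
  refine h6.trans (le_of_eq ?_)
  simp only [hQ]
  field_simp
  ring

end Crest.Agent.Lib.OTStab
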