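import Mathlib

/-!
# Laguerre cells: definitions for the semi-discrete optimal transport used in S0109.

`ι` is a finite index set, `y : ι → Eu d` the sites and `w : ι → ℝ` the weights.
`sc y w i x = ⟪x, y i⟫ - w i`, the potential `pot y w` is the maximum of the `sc y w i`,
`sel y w x` is a measurable selection of a maximiser, `piece y w i = sel y w ⁻¹' {i}`, a true
partition of the space, and `lagMap y w x = y (sel y w x)`.
-/

set_option autoImplicit false
set_option linter.unusedSectionVars false
set_option linter.unusedVariables false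

open MeasureTheory Set Filter
open scoped ENNReal RealInnerProductSpace

namespace Crest.Agent.Lib.OTStab

/-- The ambient Euclidean space. -/
abbrev Eu (d : ℕ) := EuclideanSpace ℝ (Fin d)

variable {d : ℕ} {ι : Type} [Fintype ι]

/-- The affine function attached to site `i`. -/
noncomputable def sc (y : ι → Eu d) (w : ι → ℝ) (i : ι) (x : Eu d) : ℝ := ⟪x, y i⟫ - w i

/-- The Laguerre potential. -/
noncomputable def pot (y : ι → Eu d) (w : ι → ℝ) (x : Eu d) : ℝ := ⨆ i, sc y w i x

theorem continuous_sc (y : ι → Eu d) (w : ι → ℝ) (i : ι) : Continuous (sc y w i) := by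
  unfold sc; fun_prop

theorem sc_le_pot (y : ι → Eu d) (w : ι → ℝ) (i : ι) (x : Eu d) : sc y w i x ≤ pot y w x :=
  le_ciSup (f := fun i => sc y w i x) (Set.finite_range _).bddAbove i

theorem exists_sc_eq_pot [Nonempty ι] (y : ι → Eu d) (w : ι → ℝ) (x : Eu d) :
    ∃ i, sc y w i x = pot y w x :=
  exists_eq_ciSup_of_finite (f := fun i => sc y w i x)

theorem measurable_pot (y : ι → Eu d) (w : ι → ℝ) : Measurable (pot y w) := by
  unfold pot
  exact Measurable.iSup (fun i => (continuous_sc y w i).measurable)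

/-- Existence of a measurable selection of maximisers. -/
theorem exists_sel [Nonempty ι] (y : ι → Eu d) (w : ι → ℝ) :
    ∃ s : Eu d → ι, (∀ x, sc y w (s x) x = pot y w x) ∧ ∀ i, MeasurableSet (s ⁻¹' {i}) := by
  classical
  -- order `ι` via an equivalence with `Fin n`
  let e := Fintype.equivFin ι
  have hne : ∀ x, (Finset.univ.filter (fun i : ι => sc y w i x = pot y w x)).Nonempty := by
    intro x
    obtain ⟨i, hi⟩ := exists_sc_eq_pot y w x
    exact ⟨i, by simp [hi]⟩
  let s : Eu d → ι := fun x =>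
    Classical.choose (Finset.exists_min_image _ e (hne x))
  have hs : ∀ x, s x ∈ Finset.univ.filter (fun i : ι => sc y w i x = pot y w x) ∧
      ∀ j ∈ Finset.univ.filter (fun i : ι => sc y w i x = pot y w x), e (s x) ≤ e j := fun x =>
    Classical.choose_spec (Finset.exists_min_image _ e (hne x))
  refine ⟨s, fun x => by simpa using (hs x).1, fun i => ?_⟩
  have hset : s ⁻¹' {i} = {x | sc y w i x = pot y w x} ∩
      ⋂ j : ι, ⋂ _ : e j < e i, {x | sc y w j x ≠ pot y w x} := by
    ext x
    simp only [mem_preimage, mem_singleton_iff, mem_inter_iff, mem_ofPred_eq, mem_iInter]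
    constructor
    · rintro rfl
      refine ⟨by simpa using (hs x).1, fun j hj hjx => ?_⟩
      have := (hs x).2 j (by simp [hjx])
      exact absurd hj (not_lt.mpr this)
    · rintro ⟨h1, h2⟩
      have hmin := (hs x).2 i (by simp [h1])
      by_contra hne'
      have hlt : e (s x) < e i := lt_of_le_of_ne hmin (fun h => hne' (e.injective h))
      exact h2 (s x) hlt (by simpa using (hs x).1)
  rw [hset]
  refine MeasurableSet.inter ?_ ?_
  · exact measurableSet_eq_fun (continuous_sc y w i).measurable (measurable_pot y w)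
  · refine MeasurableSet.iInter fun j => MeasurableSet.iInter fun _ => ?_
    exact (measurableSet_eq_fun (continuous_sc y w j).measurable (measurable_pot y w)).compl

/-- The measurable selection. -/
noncomputable def sel [Nonempty ι] (y : ι → Eu d) (w : ι → ℝ) : Eu d → ι :=
  Classical.choose (exists_sel y w)

theorem sc_sel [Nonempty ι] (y : ι → Eu d) (w : ι → ℝ) (x : Eu d) :
    sc y w (sel y w x) x = pot y w x :=
  (Classical.choose_spec (exists_sel y w)).1 x

/-- The Laguerre pieces: a true partition of the space. -/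
def piece [Nonempty ι] (y : ι → Eu d) (w : ι → ℝ) (i : ι) : Set (Eu d) := sel y w ⁻¹' {i}

theorem measurableSet_piece [Nonempty ι] (y : ι → Eu d) (w : ι → ℝ) (i : ι) :
    MeasurableSet (piece y w i) :=
  (Classical.choose_spec (exists_sel y w)).2 i

theorem mem_piece [Nonempty ι] {y : ι → Eu d} {w : ι → ℝ} {i : ι} {x : Eu d} :
    x ∈ piece y w i ↔ sel y w x = i := Iff.rfl

theorem pairwise_disjoint_piece [Nonempty ι] (y : ι → Eu d) (w : ι → ℝ) :
    Pairwise (fun i j => Disjoint (piece y w i) (piece y w j)) := by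
  intro i j hij
  rw [Set.disjoint_left]
  intro x hx hx'
  rw [mem_piece] at hx hx'
  exact hij (hx.symm.trans hx')

theorem iUnion_piece [Nonempty ι] (y : ι → Eu d) (w : ι → ℝ) :
    ⋃ i, piece y w i = univ := by
  ext x
  simp [mem_piece]

/-- On a piece, the site is a maximiser. -/
theorem sc_eq_pot_of_mem_piece [Nonempty ι] {y : ι → Eu d} {w : ι → ℝ} {i : ι} {x : Eu d}
    (hx : x ∈ piece y w i) : sc y w i x = pot y w x := by
  rw [mem_piece] at hx
  rw [← hx, sc_sel]

/-- Membership in the closed Laguerre cell. -/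
theorem sc_le_of_mem_piece [Nonempty ι] {y : ι → Eu d} {w : ι → ℝ} {i : ι} {x : Eu d}
    (hx : x ∈ piece y w i) (k : ι) : sc y w k x ≤ sc y w i x := by
  rw [sc_eq_pot_of_mem_piece hx]
  exact sc_le_pot y w k x

/-- The Laguerre map. -/
noncomputable def lagMap [Nonempty ι] (y : ι → Eu d) (w : ι → ℝ) (x : Eu d) : Eu d :=
  y (sel y w x)

theorem measurable_sel [Nonempty ι] (y : ι → Eu d) (w : ι → ℝ) :
    @Measurable _ _ _ ⊤ (sel y w) := by
  intro s _
  have : sel y w ⁻¹' s = ⋃ i ∈ s, piece y w i := by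
    ext x
    simp [mem_piece]
  rw [this]
  exact MeasurableSet.biUnion (Set.to_countable _) (fun i _ => measurableSet_piece y w i)

theorem measurable_lagMap [Nonempty ι] (y : ι → Eu d) (w : ι → ℝ) :
    Measurable (lagMap y w) := by
  intro s _
  have : lagMap y w ⁻¹' s = ⋃ i ∈ {i | y i ∈ s}, piece y w i := by
    ext x
    simp [lagMap, mem_piece]
  rw [this]
  exact MeasurableSet.biUnion (Set.to_countable _) (fun i _ => measurableSet_piece y w i)

theorem lagMap_of_mem_piece [Nonempty ι] {y : ι → Eu d} {w : ι → ℝ} {i : ι} {x : Eu d}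
    (hx : x ∈ piece y w i) : lagMap y w x = y i := by
  rw [mem_piece] at hx
  simp [lagMap, hx]

theorem norm_lagMap_le [Nonempty ι] {y : ι → Eu d} (w : ι → ℝ) {L : ℝ} (hL : ∀ i, ‖y i‖ ≤ L)
    (x : Eu d) : ‖lagMap y w x‖ ≤ L := hL _

/-- The pot value in terms of the selection. -/
theorem pot_eq [Nonempty ι] (y : ι → Eu d) (w : ι → ℝ) (x : Eu d) :
    pot y w x = ⟪x, lagMap y w x⟫ - w (sel y w x) := by
  rw [← sc_sel y w x]; rfl

/-- Subgradient inequality. -/
theorem pot_subgrad [Nonempty ι] (y : ι → Eu d) (w : ι → ℝ) (x x' : Eu d) :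
    pot y w x + ⟪x' - x, lagMap y w x⟫ ≤ pot y w x' := by
  have h := sc_le_pot y w (sel y w x) x'
  rw [pot_eq y w x]
  unfold sc at h
  simp only [lagMap, inner_sub_left] at *
  linarith

/-- Cyclical monotonicity (two points). -/
theorem lagMap_mono [Nonempty ι] (y : ι → Eu d) (w : ι → ℝ) (x x' : Eu d) :
    0 ≤ ⟪lagMap y w x' - lagMap y w x, x' - x⟫ := by
  have h1 := pot_subgrad y w x x'
  have h2 := pot_subgrad y w x' x
  have h3 : ⟪x - x', lagMap y w x'⟫ = -⟪x' - x, lagMap y w x'⟫ := by
    rw [← inner_neg_left, neg_sub]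
  rw [h3] at h2
  rw [inner_sub_left, real_inner_comm, real_inner_comm (x' - x) (lagMap y w x)]
  linarith

/-- A Lipschitz bound for the potential. -/
theorem pot_sub_le [Nonempty ι] (y : ι → Eu d) (w : ι → ℝ) {L : ℝ} (hL : ∀ i, ‖y i‖ ≤ L)
    (x x' : Eu d) : pot y w x - pot y w x' ≤ L * ‖x - x'‖ := by
  have h1 := pot_subgrad y w x' x
  have h2 : pot y w x ≤ pot y w x' + ⟪x - x', lagMap y w x⟫ := by
    have h := pot_subgrad y w x x'
    have h3 : ⟪x' - x, lagMap y w x⟫ = -⟪x - x', lagMap y w x⟫ := by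
      rw [← inner_neg_left, neg_sub]
    rw [h3] at h
    linarith
  have h4 : ⟪x - x', lagMap y w x⟫ ≤ L * ‖x - x'‖ := by
    have h5 := real_inner_le_norm (x - x') (lagMap y w x)
    have h6 := norm_lagMap_le w hL x
    nlinarith [norm_nonneg (x - x')]
  linarith

theorem continuous_pot [Nonempty ι] (y : ι → Eu d) (w : ι → ℝ) : Continuous (pot y w) := by
  obtain ⟨L, hL⟩ : ∃ L, ∀ i, ‖y i‖ ≤ L :=
    ⟨∑ i, ‖y i‖, fun i => Finset.single_le_sum (f := fun i => ‖y i‖)
      (fun _ _ => norm_nonneg _) (Finset.mem_univ i)⟩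
  have hL0 : 0 ≤ L := (norm_nonneg _).trans (hL (Classical.arbitrary ι))
  refine (LipschitzWith.of_dist_le_mul (K := L.toNNReal) fun x x' => ?_).continuous
  rw [Real.dist_eq, dist_eq_norm, abs_le, Real.coe_toNNReal _ hL0]
  have h1 := pot_sub_le y w hL x x'
  have h2 := pot_sub_le y w hL x' x
  rw [norm_sub_rev] at h2
  constructor <;> linarith

end Crest.Agent.Lib.OTStab
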