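import Crest.Agent.Lib.OTStab.SD
import Crest.Prelude.Def_QuadraticTransport

/-!
# The convex body, the uniform source and its bounded perturbations.
-/

set_option autoImplicit false
set_option linter.unusedSectionVars false
set_option linter.unusedVariables false

open MeasureTheory Set Filter
open scoped ENNReal RealInnerProductSpace Topology
open Crest.AnalysisR.OT

namespace Crest.Agent.Lib.OTStab

variable {d : ℕ}

/-- A convex body with an inscribed ball and an enclosing ball around the origin. -/
structure Body (K : Set (Eu d)) (R r : ℝ) (x0 : Eu d) : Prop where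
  compact : IsCompact K
  convex : Convex ℝ K
  rpos : 0 < r
  ball : Metric.closedBall x0 r ⊆ K
  sub : K ⊆ Metric.closedBall 0 R

/-- The perturbed source with density `1 + s f` with respect to `ρ`. -/
noncomputable def pert (ρ : Measure (Eu d)) (s : ℝ) (f : Eu d → ℝ) : Measure (Eu d) :=
  ρ.withDensity (fun x => ENNReal.ofReal (1 + s * f x))

variable {K : Set (Eu d)} {R r : ℝ} {x0 : Eu d}

theorem Body.measurableSet (hK : Body K R r x0) : MeasurableSet K := hK.compact.measurableSet

theorem Body.vol_pos (hK : Body K R r x0) : 0 < volume K :=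
  lt_of_lt_of_le (Metric.measure_closedBall_pos volume x0 hK.rpos) (measure_mono hK.ball)

theorem Body.vol_ne_top (hK : Body K R r x0) : volume K ≠ ⊤ := hK.compact.measure_lt_top.ne

theorem Body.R_nonneg (hK : Body K R r x0) : 0 ≤ R := by
  have h : x0 ∈ K := hK.ball (Metric.mem_closedBall_self hK.rpos.le)
  have := hK.sub h
  rw [mem_closedBall_zero_iff] at this
  exact (norm_nonneg _).trans this

theorem Body.norm_le (hK : Body K R r x0) {x : Eu d} (hx : x ∈ K) : ‖x‖ ≤ R := by
  simpa [mem_closedBall_zero_iff] using hK.sub hx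

theorem Body.isProb (hK : Body K R r x0) : IsProbabilityMeasure (uniformProbOn K) := by
  constructor
  unfold uniformProbOn
  simp only [Measure.smul_apply, Measure.restrict_apply_univ, smul_eq_mul]
  exact ENNReal.inv_mul_cancel hK.vol_pos.ne' hK.vol_ne_top

theorem Body.ae_mem (hK : Body K R r x0) : ∀ᵐ x ∂(uniformProbOn K), x ∈ K := by
  unfold uniformProbOn
  refine Measure.ae_smul_measure ?_ _
  exact ae_restrict_mem hK.measurableSet

/-- Integrals against the uniform measure. -/
theorem Body.integral_uniform (hK : Body K R r x0) {F : Type*} [NormedAddCommGroup F]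
    [NormedSpace ℝ F] (g : Eu d → F) :
    ∫ x, g x ∂(uniformProbOn K) = (volume.real K)⁻¹ • ∫ x in K, g x := by
  unfold uniformProbOn
  rw [integral_smul_measure, ENNReal.toReal_inv]
  rfl

theorem hyperplane_null (a : Eu d) (ha : a ≠ 0) (c : ℝ) : volume {x : Eu d | ⟪x, a⟫ = c} = 0 := by
  set S : Submodule ℝ (Eu d) := (ℝ ∙ a)ᗮ with hS
  have hSne : S ≠ ⊤ := by
    intro h
    have h1 : a ∈ S := by rw [h]; trivial
    rw [hS, Submodule.mem_orthogonal_singleton_iff_inner_right] at h1
    exact ha (inner_self_eq_zero.mp h1)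
  have h0 : volume (S : Set (Eu d)) = 0 := Measure.addHaar_submodule volume S hSne
  have hne : ⟪a, a⟫ ≠ 0 := fun h => ha (inner_self_eq_zero.mp h)
  set x1 : Eu d := (c / ⟪a, a⟫) • a with hx1
  have hset : {x : Eu d | ⟪x, a⟫ = c} = (fun x => x + (-x1)) ⁻¹' (S : Set (Eu d)) := by
    ext x
    simp only [mem_ofPred_eq, mem_preimage, SetLike.mem_coe]
    rw [hS, Submodule.mem_orthogonal_singleton_iff_inner_left, inner_add_left, inner_neg_left, hx1,
      real_inner_smul_left, div_mul_cancel₀ _ hne]
    constructor
    · intro h; rw [h]; ring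
    · intro h; linarith
  rw [hset, measure_preimage_add_right]
  exact h0

theorem Body.src (hK : Body K R r x0) : Src (uniformProbOn K) R := by
  refine ⟨hK.isProb, ?_, ?_⟩
  · filter_upwards [hK.ae_mem] with x hx using hK.norm_le hx
  · intro a ha c
    have h1 : (uniformProbOn K) ≪ volume := by
      unfold uniformProbOn
      exact (Measure.smul_absolutelyContinuous).trans Measure.restrict_le_self.absolutelyContinuous
    exact h1 (hyperplane_null a ha c)

/-- The perturbed measure integrates with the density. -/
theorem integral_pert {ρ : Measure (Eu d)} {s : ℝ} {f : Eu d → ℝ} (hf : Measurable f)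
    (h1 : ∀ x, 0 ≤ 1 + s * f x) {F : Type*} [NormedAddCommGroup F] [NormedSpace ℝ F]
    (g : Eu d → F) (A : Set (Eu d)) (hA : MeasurableSet A) :
    ∫ x in A, g x ∂(pert ρ s f) = ∫ x in A, (1 + s * f x) • g x ∂ρ := by
  unfold pert
  have hm : Measurable (fun x => ENNReal.ofReal (1 + s * f x)) :=
    ENNReal.measurable_ofReal.comp (measurable_const.add (measurable_const.mul hf))
  rw [setIntegral_withDensity_eq_setIntegral_toReal_smul hm
    (ae_of_all _ fun x => ENNReal.ofReal_lt_top) _ hA]
  refine setIntegral_congr_fun hA fun x _ => ?_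
  simp only [ENNReal.toReal_ofReal (h1 x)]

/-- `pert` is a source for bounded mean-zero `f` and small `s`. -/
theorem Src.src_pert {ρ : Measure (Eu d)} (h : Src ρ R) {s B : ℝ} {f : Eu d → ℝ} (hf : Measurable f)
    (hB : ∀ x, |f x| ≤ B) (hf0 : ∫ x, f x ∂ρ = 0) (hs0 : 0 ≤ s) (hs : s * B ≤ 1 / 2) :
    Src (pert ρ s f) R := by
  have := h.prob
  have hpos : ∀ x, 0 ≤ 1 + s * f x := by
    intro x
    have h1 : |s * f x| ≤ s * B := by
      rw [abs_mul, abs_of_nonneg hs0]
      exact mul_le_mul_of_nonneg_left (hB x) hs0
    have h2 := (abs_le.mp h1).1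
    linarith
  have hac : pert ρ s f ≪ ρ := withDensity_absolutelyContinuous _ _
  refine ⟨⟨?_⟩, hac.ae_le h.bdd, fun a ha c => hac (h.null a ha c)⟩
  have hint : Integrable (fun x => 1 + s * f x) ρ :=
    (integrable_const _).add ((h.integrable_of_bound hf B (by
      filter_upwards with x
      simpa [Real.norm_eq_abs] using hB x)).const_mul s)
  unfold pert
  rw [withDensity_apply _ MeasurableSet.univ, Measure.restrict_univ,
    ← ofReal_integral_eq_lintegral_ofReal hint (ae_of_all _ hpos),
    integral_add (integrable_const _) ((h.integrable_of_bound hf B (by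
      filter_upwards with x
      simpa [Real.norm_eq_abs] using hB x)).const_mul s), integral_const_mul, hf0]
  simp

end Crest.Agent.Lib.OTStab
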