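import Crest.Agent.Lib.OTStab.PerCell
import Crest.Agent.Lib.OTStab.Body

/-!
# The comparison inequality for two weight vectors, and Claim D (perturbed sources).
-/

set_option autoImplicit false
set_option linter.unusedSectionVars false
set_option linter.unusedVariables false

open MeasureTheory Set Filter
open scoped ENNReal RealInnerProductSpace Topology
open Crest.AnalysisR.OT

namespace Crest.Agent.Lib.OTStab

variable {d : ℕ} {ι : Type} [Fintype ι] [Nonempty ι]
variable {K : Set (Eu d)} {R r : ℝ} {x0 : Eu d}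

/-- Volume of a piece in `K`. -/
noncomputable def vv (K : Set (Eu d)) (y : ι → Eu d) (w : ι → ℝ) (i : ι) : ℝ :=
  volume.real (K ∩ piece y w i)

/-- Vector moment of a piece in `K`. -/
noncomputable def vm (K : Set (Eu d)) (y : ι → Eu d) (w : ι → ℝ) (i : ι) : Eu d :=
  ∫ x in K ∩ piece y w i, x

/-- Integrals over `K` split over the pieces. -/
theorem sum_setIntegral_piece (hK : Body K R r x0) (y : ι → Eu d) (u : ι → ℝ) {g : Eu d → ℝ}
    (hg : IntegrableOn g K volume) :
    ∑ i, ∫ x in K ∩ piece y u i, g x = ∫ x in K, g x := by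
  have h1 := integral_eq_sum_piece (lam := volume.restrict K) y u (g := g) hg
  rw [h1]
  refine Finset.sum_congr rfl fun i _ => ?_
  rw [Measure.restrict_restrict (measurableSet_piece y u i), inter_comm]

/-- The closed Laguerre cell inside `K` agrees a.e. with the piece (for injective sites). -/
theorem closedCell_ae_eq (hK : Body K R r x0) {y : ι → Eu d} (hy : Function.Injective y)
    (u : ι → ℝ) (i : ι) :
    volume ((K ∩ {x | ∀ k, sc y u k x ≤ sc y u i x}) \ (K ∩ piece y u i)) = 0 ∧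
      volume ((K ∩ piece y u i) \ (K ∩ {x | ∀ k, sc y u k x ≤ sc y u i x})) = 0 := by
  constructor
  · set Z : Set (Eu d) := ⋃ k, ⋃ _ : k ≠ i, {x | ⟪x, y i - y k⟫ = u i - u k} with hZ
    have hZ0 : volume Z = 0 := by
      refine (measure_iUnion_null_iff).2 fun k => (measure_iUnion_null_iff).2 fun hk => ?_
      exact hyperplane_null _ (sub_ne_zero.mpr fun e => hk (hy e).symm) _
    refine measure_mono_null ?_ hZ0
    rintro x ⟨⟨hxK, hx⟩, hn⟩
    have hne : sel y u x ≠ i := fun h => hn ⟨hxK, h⟩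
    refine mem_iUnion.2 ⟨sel y u x, mem_iUnion.2 ⟨hne, ?_⟩⟩
    have h1 := hx (sel y u x)
    have h2 : sc y u i x ≤ sc y u (sel y u x) x := by
      rw [sc_sel]; exact sc_le_pot y u i x
    have h3 : sc y u (sel y u x) x = sc y u i x := le_antisymm h1 h2
    simp only [mem_ofPred_eq, inner_sub_right]
    unfold sc at h3
    linarith
  · have : (K ∩ piece y u i) \ (K ∩ {x | ∀ k, sc y u k x ≤ sc y u i x}) = ∅ := by
      ext x
      constructor
      · rintro ⟨⟨hxK, hx⟩, hn⟩
        exact hn ⟨hxK, fun k => sc_le_of_mem_piece hx k⟩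
      · intro h
        exact absurd h (notMem_empty x)
    rw [this, measure_empty]

/-- **CD**: for injective sites and two arbitrary weight vectors,
`∑ ‖Mᵢ - Mᵢ'‖²/(vᵢ + vᵢ') ≤ R² ∑ (vᵢ - vᵢ')²/(vᵢ + vᵢ')`. Sum the per-cell inequality with
`z = R²/2`, `A = K ∩ piece y w i`, `B = K ∩ piece y w' i`, `C = K ∩ piece y ((w+w')/2) i ∪` (null set):
the mid-point of the closed cells lies in the closed cell of `(w+w')/2`; closed cells differ from
pieces by subsets of hyperplanes (`hyperplane_null`, injectivity of `y`). -/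
theorem cd (hK : Body K R r x0) {y : ι → Eu d} (hy : Function.Injective y) (w w' : ι → ℝ) :
    ∑ i, ‖vm K y w i - vm K y w' i‖ ^ 2 / (vv K y w i + vv K y w' i)
      ≤ R ^ 2 * ∑ i, (vv K y w i - vv K y w' i) ^ 2 / (vv K y w i + vv K y w' i) := by
  classical
  have hKm := hK.measurableSet
  have hR0 := hK.R_nonneg
  set z : ℝ := R ^ 2 / 2 with hz
  set g : Eu d → ℝ := fun x => z - ‖x‖ ^ 2 / 2 with hg
  set w'' : ι → ℝ := fun i => (w i + w' i) / 2 with hw''
  set C : ι → Set (Eu d) := fun i => K ∩ {x | ∀ k, sc y w'' k x ≤ sc y w'' i x} with hC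
  have hgc : Continuous g := by simp only [hg]; fun_prop
  have hgI : IntegrableOn g K volume := hgc.continuousOn.integrableOn_compact hK.compact
  have hCeq : ∀ i, ∫ x in C i, g x = ∫ x in K ∩ piece y w'' i, g x := fun i =>
    setIntegral_congr_set (ae_eq_set.mpr (closedCell_ae_eq hK hy w'' i))
  have hCm : ∀ i, MeasurableSet (C i) := by
    intro i
    have h1 : {x | ∀ k, sc y w'' k x ≤ sc y w'' i x} = ⋂ k, {x | sc y w'' k x ≤ sc y w'' i x} := by
      ext x; simp
    simp only [hC]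
    rw [h1]
    refine hKm.inter (MeasurableSet.iInter fun k => ?_)
    exact measurableSet_le (continuous_sc y w'' k).measurable (continuous_sc y w'' i).measurable
  have hKball : K ⊆ Metric.closedBall 0 R := hK.sub
  have hcell : ∀ i, (1 / 2) * (∫ x in K ∩ piece y w i, g x) + (1 / 2) * (∫ x in K ∩ piece y w' i, g x)
      + ‖vm K y w i - vm K y w' i‖ ^ 2 / (4 * (vv K y w i + vv K y w' i))
      - z * (vv K y w i - vv K y w' i) ^ 2 / (2 * (vv K y w i + vv K y w' i))
      ≤ ∫ x in K ∩ piece y w'' i, g x := by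
    intro i
    rw [← hCeq i]
    refine per_cell (hKm.inter (measurableSet_piece y w i)) (hKm.inter (measurableSet_piece y w' i))
      (hCm i) (R := R) (inter_subset_left.trans hKball) (inter_subset_left.trans hKball)
      (inter_subset_left.trans hKball) ?_ ?_
    · rintro x ⟨hxK, hx⟩ x' ⟨hx'K, hx'⟩
      refine ⟨?_, fun k => ?_⟩
      · have := hK.convex hxK hx'K (a := 1 / 2) (b := 1 / 2) (by norm_num) (by norm_num)
          (by norm_num)
        rwa [← smul_add] at this
      · have h1 := sc_le_of_mem_piece hx k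
        have h2 := sc_le_of_mem_piece hx' k
        unfold sc at h1 h2 ⊢
        simp only [hw'', real_inner_smul_left, inner_add_left]
        linarith
    · rintro x ⟨hxK, -⟩
      have h1 := hK.norm_le hxK
      have h2 : ‖x‖ ^ 2 ≤ R ^ 2 := pow_le_pow_left₀ (norm_nonneg _) h1 2
      simp only [hz]
      linarith
  have hs1 := sum_setIntegral_piece hK y w hgI
  have hs2 := sum_setIntegral_piece hK y w' hgI
  have hs3 := sum_setIntegral_piece hK y w'' hgI
  have hsum := Finset.sum_le_sum (s := Finset.univ) fun i (_ : i ∈ Finset.univ) => hcell i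
  rw [hs3, Finset.sum_sub_distrib, Finset.sum_add_distrib, Finset.sum_add_distrib,
    ← Finset.mul_sum, ← Finset.mul_sum, hs1, hs2] at hsum
  have h4 : ∑ i, ‖vm K y w i - vm K y w' i‖ ^ 2 / (4 * (vv K y w i + vv K y w' i))
      = (1 / 4) * ∑ i, ‖vm K y w i - vm K y w' i‖ ^ 2 / (vv K y w i + vv K y w' i) := by
    rw [Finset.mul_sum]
    refine Finset.sum_congr rfl fun i _ => ?_
    rw [mul_comm (4 : ℝ), ← div_div, div_eq_mul_inv _ (4 : ℝ)]
    ring
  have h5 : ∑ i, z * (vv K y w i - vv K y w' i) ^ 2 / (2 * (vv K y w i + vv K y w' i))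
      = (R ^ 2 / 4) * ∑ i, (vv K y w i - vv K y w' i) ^ 2 / (vv K y w i + vv K y w' i) := by
    rw [Finset.mul_sum]
    refine Finset.sum_congr rfl fun i _ => ?_
    simp only [hz]
    rw [mul_comm (2 : ℝ), ← div_div]
    ring
  rw [h4, h5] at hsum
  linarith

/-- The mass of a piece for the uniform measure. -/
theorem uniform_real_piece (hK : Body K R r x0) (y : ι → Eu d) (w : ι → ℝ) (i : ι) :
    (uniformProbOn K).real (piece y w i) = (volume.real K)⁻¹ * vv K y w i := by
  unfold uniformProbOn vv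
  rw [Measure.real, Measure.smul_apply, Measure.restrict_apply (measurableSet_piece y w i),
    smul_eq_mul, ENNReal.toReal_mul, ENNReal.toReal_inv, inter_comm]
  rfl

/-- The moment of a piece for the uniform measure. -/
theorem uniform_momt_piece (hK : Body K R r x0) (y : ι → Eu d) (w : ι → ℝ) (i : ι) :
    momt (uniformProbOn K) y w i = (volume.real K)⁻¹ • vm K y w i := by
  unfold uniformProbOn vm momt
  rw [Measure.restrict_smul, Measure.restrict_restrict (measurableSet_piece y w i),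
    integral_smul_measure, ENNReal.toReal_inv, inter_comm]
  rfl

/-- CD at the level of the uniform probability measure (just scaling by the volume of `K`). -/
theorem cd_uniform (hK : Body K R r x0) {y : ι → Eu d} (hy : Function.Injective y) (w w' : ι → ℝ) :
    ∑ i, ‖momt (uniformProbOn K) y w i - momt (uniformProbOn K) y w' i‖ ^ 2 /
        ((uniformProbOn K).real (piece y w i) + (uniformProbOn K).real (piece y w' i))
      ≤ R ^ 2 * ∑ i, ((uniformProbOn K).real (piece y w i) - (uniformProbOn K).real (piece y w' i)) ^ 2 /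
        ((uniformProbOn K).real (piece y w i) + (uniformProbOn K).real (piece y w' i)) := by
  have hV : 0 < volume.real K := by
    rw [Measure.real]
    exact ENNReal.toReal_pos hK.vol_pos.ne' hK.vol_ne_top
  simp only [uniform_real_piece hK, uniform_momt_piece hK]
  set V := volume.real K with hVdef
  have hc := cd hK hy w w'
  have h1 : ∀ i, ‖V⁻¹ • vm K y w i - V⁻¹ • vm K y w' i‖ ^ 2 /
      (V⁻¹ * vv K y w i + V⁻¹ * vv K y w' i)
      = V⁻¹ * (‖vm K y w i - vm K y w' i‖ ^ 2 / (vv K y w i + vv K y w' i)) := by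
    intro i
    rw [← smul_sub, norm_smul, norm_inv, Real.norm_of_nonneg hV.le, mul_pow, ← mul_add]
    by_cases h0 : vv K y w i + vv K y w' i = 0
    · simp [h0]
    · field_simp
  have h2 : ∀ i, (V⁻¹ * vv K y w i - V⁻¹ * vv K y w' i) ^ 2 /
      (V⁻¹ * vv K y w i + V⁻¹ * vv K y w' i)
      = V⁻¹ * ((vv K y w i - vv K y w' i) ^ 2 / (vv K y w i + vv K y w' i)) := by
    intro i
    rw [← mul_sub, mul_pow, ← mul_add]
    by_cases h0 : vv K y w i + vv K y w' i = 0
    · simp [h0]
    · field_simp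
  simp only [h1, h2]
  rw [← Finset.mul_sum, ← Finset.mul_sum]
  have h3 := mul_le_mul_of_nonneg_left hc (inv_pos.mpr hV).le
  have h4 : V⁻¹ * (R ^ 2 * ∑ i, (vv K y w i - vv K y w' i) ^ 2 / (vv K y w i + vv K y w' i))
      = R ^ 2 * (V⁻¹ * ∑ i, (vv K y w i - vv K y w' i) ^ 2 / (vv K y w i + vv K y w' i)) := by
    ring
  rwa [h4] at h3

/-- Cauchy-Schwarz on a set, in elementary form. -/
theorem sq_setIntegral_le {μ : Measure (Eu d)} [IsFiniteMeasure μ] {g : Eu d → ℝ}
    (hg : Integrable g μ) (hg2 : Integrable (fun x => g x ^ 2) μ) (A : Set (Eu d)) :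
    (∫ x in A, g x ∂μ) ^ 2 ≤ μ.real A * ∫ x in A, g x ^ 2 ∂μ := by
  by_cases hv : μ A = 0
  · have h0 : μ.restrict A = 0 := Measure.restrict_eq_zero.mpr hv
    simp [h0]
  have hvpos : 0 < μ.real A := by
    rw [Measure.real]
    exact ENNReal.toReal_pos hv (measure_lt_top _ _).ne
  set v := μ.real A with hvdef
  set I := ∫ x in A, g x ∂μ with hI
  set J := ∫ x in A, g x ^ 2 ∂μ with hJ
  have hc : 0 ≤ ∫ x in A, (g x - I / v) ^ 2 ∂μ := integral_nonneg fun x => sq_nonneg _
  have hexp : ∀ x, (g x - I / v) ^ 2 = g x ^ 2 - (2 * (I / v)) * g x + (I / v) ^ 2 := by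
    intro x; ring
  simp only [hexp] at hc
  have h1 : Integrable (fun x => g x ^ 2 - (2 * (I / v)) * g x) μ := hg2.sub (hg.const_mul _)
  rw [integral_add h1.integrableOn (integrable_const _).integrableOn,
    integral_sub hg2.integrableOn (hg.const_mul _).integrableOn, integral_const_mul,
    setIntegral_const, smul_eq_mul, ← hI, ← hJ, ← hvdef] at hc
  have h2 : J - 2 * (I / v) * I + v * (I / v) ^ 2 = J - I ^ 2 / v := by
    field_simp
    ring
  rw [h2] at hc
  have h3 : I ^ 2 / v ≤ J := by linarith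
  rw [div_le_iff₀ hvpos] at h3
  linarith

/-- **Claim D**: comparison of the moments of the solutions for the uniform source and the source
perturbed by `1 + s f`, with the same atoms. -/
theorem claimD (hK : Body K R r x0) {y : ι → Eu d} (hy : Function.Injective y) {m : ι → ℝ}
    (hmpos : ∀ i, 0 < m i) {s B : ℝ} {f : Eu d → ℝ} (hf : Measurable f) (hB : ∀ x, |f x| ≤ B)
    (hf0 : ∫ x, f x ∂(uniformProbOn K) = 0) (hs0 : 0 ≤ s) (hs : s * B ≤ 1 / 2) {w w' : ι → ℝ}
    (hw : IsOpt (uniformProbOn K) y m w) (hw' : IsOpt (pert (uniformProbOn K) s f) y m w') :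
    ∑ i, ‖momt (uniformProbOn K) y w i - momt (pert (uniformProbOn K) s f) y w' i‖ ^ 2 / m i
      ≤ 16 * R ^ 2 * s ^ 2 * ∫ x, f x ^ 2 ∂(uniformProbOn K) := by
  have hρ := hK.src
  have := hK.isProb
  have hR0 := hK.R_nonneg
  have hσ := hρ.src_pert hf hB hf0 hs0 hs
  have hcd := cd_uniform hK hy w w'
  set ρ := uniformProbOn K with hρdef
  set σ := pert ρ s f with hσdef
  have hB0 : 0 ≤ B := (abs_nonneg _).trans (hB 0)
  have hhalf : ∀ x, 1 / 2 ≤ 1 + s * f x := by
    intro x
    have h1 : |s * f x| ≤ s * B := by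
      rw [abs_mul, abs_of_nonneg hs0]
      exact mul_le_mul_of_nonneg_left (hB x) hs0
    have h2 := (abs_le.mp h1).1
    linarith
  have hnn : ∀ x, 0 ≤ 1 + s * f x := fun x => by linarith [hhalf x]
  have hfint : Integrable f ρ :=
    hρ.integrable_of_bound hf B (ae_of_all _ fun x => by simpa [Real.norm_eq_abs] using hB x)
  have hf2int : Integrable (fun x => f x ^ 2) ρ := by
    refine hρ.integrable_of_bound (hf.pow_const 2) (B ^ 2) (ae_of_all _ fun x => ?_)
    rw [Real.norm_eq_abs, abs_pow]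
    exact pow_le_pow_left₀ (abs_nonneg _) (hB x) 2
  have hfxint : Integrable (fun x : Eu d => f x • x) ρ := by
    refine hρ.integrable_of_bound (hf.smul measurable_id) (B * R) ?_
    filter_upwards [hρ.bdd] with x hx
    rw [norm_smul, Real.norm_eq_abs]
    exact mul_le_mul (hB x) hx (norm_nonneg _) hB0
  set v' : ι → ℝ := fun i => ρ.real (piece y w' i) with hv'
  have hv'0 : ∀ i, 0 ≤ v' i := fun i => measureReal_nonneg
  set J : ι → ℝ := fun i => ∫ x in piece y w' i, f x ^ 2 ∂ρ with hJ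
  have hJ0 : ∀ i, 0 ≤ J i := fun i => integral_nonneg fun x => sq_nonneg _
  have hJsum : ∑ i, J i = ∫ x, f x ^ 2 ∂ρ := (integral_eq_sum_piece y w' hf2int).symm
  set V : ι → Eu d := fun i => ∫ x in piece y w' i, f x • x ∂ρ with hV
  -- mass identity
  have hmass : ∀ i, m i = v' i + s * ∫ x in piece y w' i, f x ∂ρ := by
    intro i
    have h1 := integral_pert (ρ := ρ) hf hnn (fun _ => (1 : ℝ)) (piece y w' i)
      (measurableSet_piece y w' i)
    rw [setIntegral_const, smul_eq_mul, mul_one, hw' i] at h1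
    rw [h1]
    simp only [smul_eq_mul, mul_one]
    rw [integral_add (integrable_const _).integrableOn (hfint.const_mul s).integrableOn,
      setIntegral_const, integral_const_mul, smul_eq_mul, mul_one]
  -- moment identity
  have hmomt : ∀ i, momt σ y w' i = momt ρ y w' i + s • V i := by
    intro i
    unfold momt
    rw [hσdef, integral_pert hf hnn (fun x => x) (piece y w' i) (measurableSet_piece y w' i)]
    have h1 : ∀ x : Eu d, (1 + s * f x) • x = x + s • (f x • x) := by
      intro x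
      rw [add_smul, one_smul, mul_smul]
    simp only [h1]
    have h2 : Integrable (fun x : Eu d => s • (f x • x)) ρ := hfxint.smul s
    rw [integral_add hρ.integrable_id.integrableOn h2.integrableOn,
      integral_smul]
  -- bounds
  have hvle : ∀ i, v' i ≤ 2 * m i := by
    intro i
    have h1 : (1 / 2 : ℝ) * v' i ≤ m i := by
      rw [hmass i]
      have h2 : (1 / 2 : ℝ) * v' i ≤ ∫ x in piece y w' i, (1 + s * f x) ∂ρ := by
        have h3 : ∫ x in piece y w' i, (1 / 2 : ℝ) ∂ρ ≤ ∫ x in piece y w' i, (1 + s * f x) ∂ρ :=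
          setIntegral_mono (integrable_const _).integrableOn
            ((integrable_const _).add (hfint.const_mul s)).integrableOn hhalf
        rwa [setIntegral_const, smul_eq_mul, mul_comm] at h3
      rw [integral_add (integrable_const _).integrableOn (hfint.const_mul s).integrableOn,
        setIntegral_const, integral_const_mul, smul_eq_mul, mul_one] at h2
      exact h2
    linarith
  have hmsq : ∀ i, (m i - v' i) ^ 2 ≤ s ^ 2 * (v' i * J i) := by
    intro i
    have h1 := sq_setIntegral_le hfint hf2int (piece y w' i)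
    have h2 : m i - v' i = s * ∫ x in piece y w' i, f x ∂ρ := by rw [hmass i]; ring
    rw [h2, mul_pow]
    exact mul_le_mul_of_nonneg_left h1 (sq_nonneg _)
  have hVsq : ∀ i, ‖V i‖ ^ 2 ≤ R ^ 2 * (v' i * J i) := by
    intro i
    have h1 : ‖V i‖ ≤ ∫ x in piece y w' i, |f x| * R ∂ρ := by
      refine norm_integral_le_of_norm_le (hfint.abs.mul_const R).integrableOn ?_
      refine ae_restrict_of_ae ?_
      filter_upwards [hρ.bdd] with x hx
      rw [norm_smul, Real.norm_eq_abs]
      exact mul_le_mul_of_nonneg_left hx (abs_nonneg _)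
    rw [integral_mul_const] at h1
    have h2 := sq_setIntegral_le (g := fun x => |f x|) hfint.abs (by
      simpa only [sq_abs] using hf2int) (piece y w' i)
    simp only [sq_abs] at h2
    have h3 : ‖V i‖ ^ 2 ≤ ((∫ x in piece y w' i, |f x| ∂ρ) * R) ^ 2 :=
      pow_le_pow_left₀ (norm_nonneg _) h1 2
    rw [mul_pow] at h3
    refine h3.trans ?_
    rw [mul_comm]
    exact mul_le_mul_of_nonneg_left h2 (sq_nonneg _)
  -- the first sum
  have hsum1 : ∑ i, ‖momt ρ y w i - momt ρ y w' i‖ ^ 2 / m i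
      ≤ 3 * (R ^ 2 * s ^ 2 * ∑ i, J i) := by
    have hcd' : ∑ i, ‖momt ρ y w i - momt ρ y w' i‖ ^ 2 / (m i + v' i)
        ≤ R ^ 2 * ∑ i, (m i - v' i) ^ 2 / (m i + v' i) := by
      simpa only [hw _] using hcd
    have h1 : ∀ i, (m i - v' i) ^ 2 / (m i + v' i) ≤ s ^ 2 * J i := by
      intro i
      have hp : 0 < m i + v' i := add_pos_of_pos_of_nonneg (hmpos i) (hv'0 i)
      rw [div_le_iff₀ hp]
      have h2 := hmsq i
      have h3 : 0 ≤ s ^ 2 * J i * m i := mul_nonneg (mul_nonneg (sq_nonneg _) (hJ0 i)) (hmpos i).le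
      nlinarith
    have h2 : ∑ i, (m i - v' i) ^ 2 / (m i + v' i) ≤ s ^ 2 * ∑ i, J i := by
      rw [Finset.mul_sum]
      exact Finset.sum_le_sum fun i _ => h1 i
    have h3 : ∀ i, ‖momt ρ y w i - momt ρ y w' i‖ ^ 2 / m i
        ≤ 3 * (‖momt ρ y w i - momt ρ y w' i‖ ^ 2 / (m i + v' i)) := by
      intro i
      have hp : 0 < m i + v' i := add_pos_of_pos_of_nonneg (hmpos i) (hv'0 i)
      rw [← mul_div_assoc, div_le_div_iff₀ (hmpos i) hp]
      have h4 := hvle i
      have h5 : 0 ≤ ‖momt ρ y w i - momt ρ y w' i‖ ^ 2 := sq_nonneg _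
      nlinarith
    calc ∑ i, ‖momt ρ y w i - momt ρ y w' i‖ ^ 2 / m i
        ≤ ∑ i, 3 * (‖momt ρ y w i - momt ρ y w' i‖ ^ 2 / (m i + v' i)) :=
          Finset.sum_le_sum fun i _ => h3 i
      _ = 3 * ∑ i, ‖momt ρ y w i - momt ρ y w' i‖ ^ 2 / (m i + v' i) := by rw [Finset.mul_sum]
      _ ≤ 3 * (R ^ 2 * (s ^ 2 * ∑ i, J i)) := by
          gcongr
          exact hcd'.trans (mul_le_mul_of_nonneg_left h2 (sq_nonneg _))
      _ = 3 * (R ^ 2 * s ^ 2 * ∑ i, J i) := by ring
  -- the second sum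
  have hsum2 : ∑ i, ‖momt ρ y w' i - momt σ y w' i‖ ^ 2 / m i
      ≤ 2 * (R ^ 2 * s ^ 2 * ∑ i, J i) := by
    have h1 : ∀ i, ‖momt ρ y w' i - momt σ y w' i‖ ^ 2 / m i ≤ 2 * (R ^ 2 * s ^ 2) * J i := by
      intro i
      rw [div_le_iff₀ (hmpos i), hmomt i]
      have h2 : momt ρ y w' i - (momt ρ y w' i + s • V i) = - (s • V i) := by abel
      rw [h2, norm_neg, norm_smul, Real.norm_of_nonneg hs0, mul_pow]
      have h3 := mul_le_mul_of_nonneg_left (hVsq i) (sq_nonneg s)
      have h4 := hvle i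
      have h5 : 0 ≤ s ^ 2 * R ^ 2 * J i :=
        mul_nonneg (mul_nonneg (sq_nonneg _) (sq_nonneg _)) (hJ0 i)
      nlinarith
    calc ∑ i, ‖momt ρ y w' i - momt σ y w' i‖ ^ 2 / m i
        ≤ ∑ i, 2 * (R ^ 2 * s ^ 2) * J i := Finset.sum_le_sum fun i _ => h1 i
      _ = 2 * (R ^ 2 * s ^ 2 * ∑ i, J i) := by rw [← Finset.mul_sum]; ring
  have hsplit : ∀ i, ‖momt ρ y w i - momt σ y w' i‖ ^ 2 / m i
      ≤ 2 * (‖momt ρ y w i - momt ρ y w' i‖ ^ 2 / m i)
        + 2 * (‖momt ρ y w' i - momt σ y w' i‖ ^ 2 / m i) := by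
    intro i
    have h1 : ‖momt ρ y w i - momt σ y w' i‖
        ≤ ‖momt ρ y w i - momt ρ y w' i‖ + ‖momt ρ y w' i - momt σ y w' i‖ := norm_sub_le_norm_sub_add_norm_sub _ _ _
    have h2 : ‖momt ρ y w i - momt σ y w' i‖ ^ 2
        ≤ 2 * ‖momt ρ y w i - momt ρ y w' i‖ ^ 2 + 2 * ‖momt ρ y w' i - momt σ y w' i‖ ^ 2 := by
      have h3 := pow_le_pow_left₀ (norm_nonneg _) h1 2
      nlinarith [sq_nonneg (‖momt ρ y w i - momt ρ y w' i‖ - ‖momt ρ y w' i - momt σ y w' i‖)]
    rw [← mul_div_assoc, ← mul_div_assoc, ← add_div]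
    exact div_le_div_of_nonneg_right h2 (hmpos i).le
  have hJs0 : 0 ≤ ∑ i, J i := Finset.sum_nonneg fun i _ => hJ0 i
  calc ∑ i, ‖momt ρ y w i - momt σ y w' i‖ ^ 2 / m i
      ≤ ∑ i, (2 * (‖momt ρ y w i - momt ρ y w' i‖ ^ 2 / m i)
        + 2 * (‖momt ρ y w' i - momt σ y w' i‖ ^ 2 / m i)) := Finset.sum_le_sum fun i _ => hsplit i
    _ = 2 * ∑ i, ‖momt ρ y w i - momt ρ y w' i‖ ^ 2 / m i
        + 2 * ∑ i, ‖momt ρ y w' i - momt σ y w' i‖ ^ 2 / m i := by
        rw [Finset.sum_add_distrib, Finset.mul_sum, Finset.mul_sum]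
    _ ≤ 2 * (3 * (R ^ 2 * s ^ 2 * ∑ i, J i)) + 2 * (2 * (R ^ 2 * s ^ 2 * ∑ i, J i)) := by
        gcongr
    _ ≤ 16 * R ^ 2 * s ^ 2 * ∫ x, f x ^ 2 ∂ρ := by
        rw [← hJsum]
        have h0 : 0 ≤ R ^ 2 * s ^ 2 * ∑ i, J i := by positivity
        nlinarith

end Crest.Agent.Lib.OTStab
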