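/-
Prékopa–Leindler inequality (midpoint form) for `ENNReal`-valued measurable functions on `Fin n → ℝ` and on
`EuclideanSpace ℝ (Fin n)`.  Module M1 of the `OTStab` library (S0109).
-/
import Mathlib

set_option autoImplicit false

namespace Crest.Agent.Lib.OTStab

open MeasureTheory Set
open scoped ENNReal Pointwise

/-! ### One-dimensional Brunn–Minkowski -/

theorem volume_add_of_compact {K L : Set ℝ} (hK : IsCompact K) (hL : IsCompact L) (hK0 : K.Nonempty)
    (hL0 : L.Nonempty) : volume K + volume L ≤ volume (K + L) := by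
  set a := sSup K with ha
  set b := sInf L with hb
  have haK : a ∈ K := hK.sSup_mem hK0
  have hbL : b ∈ L := hL.sInf_mem hL0
  have hKL : IsCompact (K + L) := hK.add hL
  have hm : MeasurableSet (K + L) := hKL.measurableSet
  have h1 : volume K ≤ volume ((K + L) ∩ Iic (a + b)) := by
    have hsub : (fun x => x + b) '' K ⊆ (K + L) ∩ Iic (a + b) := by
      rintro _ ⟨x, hx, rfl⟩
      refine ⟨Set.add_mem_add hx hbL, ?_⟩
      have : x ≤ a := le_csSup hK.bddAbove hx
      simp only [mem_Iic]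
      linarith
    calc volume K = volume ((fun x => x + b) '' K) := by
          simp [image_add_right, measure_preimage_add_right]
      _ ≤ _ := measure_mono hsub
  have h2 : volume L ≤ volume ((K + L) \ Iic (a + b)) := by
    have hsub : ((fun x => a + x) '' L) \ {a + b} ⊆ (K + L) \ Iic (a + b) := by
      rintro _ ⟨⟨x, hx, rfl⟩, hne⟩
      refine ⟨Set.add_mem_add haK hx, ?_⟩
      have : b ≤ x := csInf_le hL.bddBelow hx
      simp only [mem_Iic, not_le]
      simp only [mem_singleton_iff] at hne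
      have : b ≠ x := fun h => hne (by rw [h])
      have : b < x := lt_of_le_of_ne ‹_› this
      linarith
    calc volume L = volume ((fun x => a + x) '' L) := by
          simp [image_add_left, measure_preimage_add]
      _ = volume (((fun x => a + x) '' L) \ {a + b}) := by
          rw [measure_sdiff_null]
          simp
      _ ≤ _ := measure_mono hsub
  calc volume K + volume L ≤ volume ((K + L) ∩ Iic (a + b)) + volume ((K + L) \ Iic (a + b)) :=
        add_le_add h1 h2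
    _ = volume (K + L) := measure_inter_add_sdiff _ measurableSet_Iic

/-- One-dimensional Brunn–Minkowski for measurable nonempty sets (with outer measure on the sumset). -/
theorem volume_add_le {A B : Set ℝ} (hA : MeasurableSet A) (hB : MeasurableSet B) (hA0 : A.Nonempty)
    (hB0 : B.Nonempty) : volume A + volume B ≤ volume (A + B) := by
  obtain ⟨a, ha⟩ := hA0
  obtain ⟨b, hb⟩ := hB0
  have key : ∀ {U : Set ℝ}, MeasurableSet U → ∀ (c X : ℝ≥0∞),
      (∀ L, L ⊆ U → IsCompact L → c + volume L ≤ X) → c + volume U ≤ X := by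
    intro U hU c X hc
    by_cases hX : X = ∞
    · simp [hX]
    have hcX : c ≤ X := by simpa using hc ∅ (empty_subset _) isCompact_empty
    have hcne : c ≠ ∞ := ne_top_of_le_ne_top hX hcX
    have hle : volume U ≤ X - c := by
      rw [hU.measure_eq_iSup_isCompact]
      refine iSup_le fun L => iSup_le fun hLU => iSup_le fun hL => ?_
      exact ENNReal.le_sub_of_add_le_left hcne (hc L hLU hL)
    calc c + volume U ≤ c + (X - c) := by gcongr
      _ = X := add_tsub_cancel_of_le hcX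
  rw [add_comm]
  refine key hA _ _ fun K hKA hK => ?_
  rw [add_comm]
  refine key hB _ _ fun L hLB hL => ?_
  -- add one point to make them nonempty
  have hK' : IsCompact (K ∪ {a}) := hK.union isCompact_singleton
  have hL' : IsCompact (L ∪ {b}) := hL.union isCompact_singleton
  have h := volume_add_of_compact hK' hL' ⟨a, by simp⟩ ⟨b, by simp⟩
  have hsub : (K ∪ {a}) + (L ∪ {b}) ⊆ A + B := by
    apply Set.add_subset_add
    · exact union_subset hKA (by simpa using ha)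
    · exact union_subset hLB (by simpa using hb)
  calc volume K + volume L ≤ volume (K ∪ {a}) + volume (L ∪ {b}) :=
        add_le_add (measure_mono subset_union_left) (measure_mono subset_union_left)
    _ ≤ _ := h
    _ ≤ _ := measure_mono hsub

/-- Midpoint set. -/
theorem half_volume_le {A B C : Set ℝ} (hA : MeasurableSet A) (hB : MeasurableSet B) (hA0 : A.Nonempty)
    (hB0 : B.Nonempty) (hC : ∀ x ∈ A, ∀ y ∈ B, (x + y) / 2 ∈ C) :
    volume A + volume B ≤ 2 * volume C := by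
  have h1 := volume_add_le hA hB hA0 hB0
  have hsub : A + B ⊆ (fun x : ℝ => x / 2) ⁻¹' C := by
    rintro _ ⟨x, hx, y, hy, rfl⟩
    exact hC x hx y hy
  have h2 : volume ((fun x : ℝ => x / 2) ⁻¹' C) = 2 * volume C := by
    have : (fun x : ℝ => x / 2) = fun x : ℝ => (1 / 2 : ℝ) * x := by
      funext x; ring
    rw [this, Real.volume_preimage_mul_left (by norm_num)]
    simp
  calc volume A + volume B ≤ volume (A + B) := h1
    _ ≤ _ := measure_mono hsub
    _ = _ := h2

/-- Normalised one-dimensional inequality. -/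
theorem pl1_normalized {f g h : ℝ → ℝ} (hfm : Measurable f) (hgm : Measurable g) (hhm : Measurable h)
    (hf0 : ∀ x, 0 ≤ f x) (hf1 : ∀ x, f x ≤ 1) (hfs : ∀ t < 1, ∃ x, t < f x)
    (hg0 : ∀ x, 0 ≤ g x) (hg1 : ∀ x, g x ≤ 1) (hgs : ∀ t < 1, ∃ x, t < g x)
    (hh0 : ∀ x, 0 ≤ h x) (hyp : ∀ x y, f x * g y ≤ h ((x + y) / 2) ^ 2) :
    (∫⁻ x, ENNReal.ofReal (f x)) + (∫⁻ x, ENNReal.ofReal (g x)) ≤ 2 * ∫⁻ x, ENNReal.ofReal (h x) := by
  have layer : ∀ {u : ℝ → ℝ}, Measurable u → (∀ x, 0 ≤ u x) →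
      ∫⁻ x, ENNReal.ofReal (u x) = ∫⁻ t in Ioi (0 : ℝ), volume {a | t < u a} := fun {u} hu hu0 =>
    lintegral_eq_lintegral_meas_lt volume (Filter.Eventually.of_forall hu0) hu.aemeasurable
  have cut : ∀ {u : ℝ → ℝ}, Measurable u → (∀ x, 0 ≤ u x) → (∀ x, u x ≤ 1) →
      ∫⁻ x, ENNReal.ofReal (u x) = ∫⁻ t in Ioo (0 : ℝ) 1, volume {a | t < u a} := by
    intro u hu hu0 hu1
    rw [layer hu hu0]
    have hsplit : Ioi (0 : ℝ) = Ioo 0 1 ∪ Ici 1 := (Ioo_union_Ici_eq_Ioi zero_lt_one).symm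
    rw [hsplit, lintegral_union measurableSet_Ici]
    · have hz : ∫⁻ t in Ici (1 : ℝ), volume {a | t < u a} = 0 := by
        apply setLIntegral_eq_zero measurableSet_Ici
        intro t ht
        have : {a | t < u a} = ∅ := by
          ext a
          simp only [mem_ofPred_eq, mem_empty_iff_false, iff_false, not_lt]
          exact (hu1 a).trans ht
        simp [this]
      rw [hz, add_zero]
    · rw [Set.disjoint_left]
      intro t ht ht'
      exact absurd ht.2 (not_lt.2 ht')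
  rw [cut hfm hf0 hf1, cut hgm hg0 hg1]
  have hhle : ∫⁻ t in Ioo (0 : ℝ) 1, volume {a | t < h a} ≤ ∫⁻ x, ENNReal.ofReal (h x) := by
    rw [layer hhm hh0]
    exact lintegral_mono_set Ioo_subset_Ioi_self
  have hm1 : ∀ {u : ℝ → ℝ}, Measurable u → Measurable fun t : ℝ => volume {a | t < u a} := by
    intro u hu
    exact Antitone.measurable fun s t hst => measure_mono fun a ha => lt_of_le_of_lt hst ha
  calc (∫⁻ t in Ioo (0 : ℝ) 1, volume {a | t < f a}) + (∫⁻ t in Ioo (0 : ℝ) 1, volume {a | t < g a})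
      = ∫⁻ t in Ioo (0 : ℝ) 1, (volume {a | t < f a} + volume {a | t < g a}) :=
        (lintegral_add_left (hm1 hfm) _).symm
    _ ≤ ∫⁻ t in Ioo (0 : ℝ) 1, 2 * volume {a | t < h a} := by
        apply setLIntegral_mono' measurableSet_Ioo
        intro t ht
        apply half_volume_le (measurableSet_lt measurable_const hfm) (measurableSet_lt measurable_const hgm)
          (hfs t ht.2) (hgs t ht.2)
        intro x hx y hy
        have hfx : t < f x := hx
        have hgy : t < g y := hy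
        have h1 : t ^ 2 < h ((x + y) / 2) ^ 2 := by
          have : t * t < f x * g y := by
            apply mul_lt_mul'' hfx hgy ht.1.le ht.1.le
          nlinarith [hyp x y]
        exact lt_of_pow_lt_pow_left₀ 2 (hh0 _) h1
    _ = 2 * ∫⁻ t in Ioo (0 : ℝ) 1, volume {a | t < h a} := lintegral_const_mul _ (hm1 hhm)
    _ ≤ _ := by gcongr

/-- AM–GM in `ℝ≥0∞`. -/
theorem mul_le_sq_of_add_le {u v w : ℝ≥0∞} (h : u + v ≤ 2 * w) : u * v ≤ w ^ 2 := by
  by_cases hw : w = ∞
  · simp [hw]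
  have h2 : 2 * w ≠ ∞ := ENNReal.mul_ne_top (by simp) hw
  have hu : u ≠ ∞ := ne_top_of_le_ne_top h2 (le_self_add.trans h)
  have hv : v ≠ ∞ := ne_top_of_le_ne_top h2 (le_add_self.trans h)
  lift u to NNReal using hu
  lift v to NNReal using hv
  lift w to NNReal using hw
  have h' : (u : ℝ) + v ≤ 2 * w := by exact_mod_cast h
  have hgoal : (u : ℝ) * v ≤ w ^ 2 := by
    nlinarith [sq_nonneg ((u : ℝ) - v), u.2, v.2, w.2, mul_nonneg u.2 v.2]
  exact_mod_cast hgoal

/-- Bounded case of one-dimensional Prékopa–Leindler. -/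
theorem pl1_bounded {f g h : ℝ → ℝ≥0∞} (hfm : Measurable f) (hgm : Measurable g) (hhm : Measurable h)
    (C : ℝ≥0∞) (hC : C ≠ ∞) (hfC : ∀ x, f x ≤ C) (hgC : ∀ x, g x ≤ C)
    (hyp : ∀ x y, f x * g y ≤ h ((x + y) / 2) ^ 2) :
    (∫⁻ x, f x) * (∫⁻ x, g x) ≤ (∫⁻ x, h x) ^ 2 := by
  by_cases hI : (∫⁻ x, f x) = 0 ∨ (∫⁻ x, g x) = 0
  · rcases hI with hI | hI <;> simp [hI]
  obtain ⟨hIf, hIg⟩ := not_or.1 hI
  -- suprema
  have hsup : ∀ {u : ℝ → ℝ≥0∞}, (∀ x, u x ≤ C) → (∫⁻ x, u x) ≠ 0 →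
      (⨆ x, u x) ≠ 0 ∧ (⨆ x, u x) ≠ ∞ := by
    intro u hu hI0
    constructor
    · intro h0
      apply hI0
      have : ∀ x, u x = 0 := fun x => le_antisymm (h0 ▸ le_iSup u x) bot_le
      simp [this]
    · exact ne_top_of_le_ne_top hC (iSup_le hu)
  obtain ⟨hMf0, hMfC⟩ := hsup hfC hIf
  obtain ⟨hMg0, hMgC⟩ := hsup hgC hIg
  set a : ℝ := (⨆ x, f x).toReal with ha
  set b : ℝ := (⨆ x, g x).toReal with hb
  have ha0 : 0 < a := ENNReal.toReal_pos hMf0 hMfC
  have hb0 : 0 < b := ENNReal.toReal_pos hMg0 hMgC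
  have hA : ENNReal.ofReal a = ⨆ x, f x := ENNReal.ofReal_toReal hMfC
  have hB : ENNReal.ofReal b = ⨆ x, g x := ENNReal.ofReal_toReal hMgC
  set s : ℝ := Real.sqrt (a * b) with hs
  have hs0 : 0 < s := Real.sqrt_pos.2 (mul_pos ha0 hb0)
  have hs2 : s ^ 2 = a * b := Real.sq_sqrt (mul_pos ha0 hb0).le
  have hfin : ∀ {u : ℝ → ℝ≥0∞}, (∀ x, u x ≤ C) → ∀ x, u x ≠ ∞ := fun hu x =>
    ne_top_of_le_ne_top hC (hu x)
  -- normalised functions
  let F : ℝ → ℝ := fun x => (f x).toReal / a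
  let G : ℝ → ℝ := fun x => (g x).toReal / b
  let h₁ : ℝ → ℝ≥0∞ := fun x => min (h x) (ENNReal.ofReal s)
  let H : ℝ → ℝ := fun x => (h₁ x).toReal / s
  have hh₁fin : ∀ x, h₁ x ≠ ∞ := fun x =>
    ne_top_of_le_ne_top ENNReal.ofReal_ne_top (min_le_right _ _)
  have hFm : Measurable F := (hfm.ennreal_toReal).div_const a
  have hGm : Measurable G := (hgm.ennreal_toReal).div_const b
  have hh₁m : Measurable h₁ := hhm.min measurable_const
  have hHm : Measurable H := (hh₁m.ennreal_toReal).div_const s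
  have hnorm : ∀ {u : ℝ → ℝ≥0∞} {c : ℝ}, (∀ x, u x ≠ ∞) → 0 < c → (∀ x, u x ≤ ENNReal.ofReal c) →
      (∀ x, 0 ≤ (u x).toReal / c) ∧ (∀ x, (u x).toReal / c ≤ 1) := by
    intro u c hu hc huc
    refine ⟨fun x => div_nonneg ENNReal.toReal_nonneg hc.le, fun x => ?_⟩
    rw [div_le_one hc]
    exact ENNReal.toReal_le_of_le_ofReal hc.le (huc x)
  obtain ⟨hF0, hF1⟩ := hnorm (c := a) (hfin hfC) ha0 (fun x => by rw [hA]; exact le_iSup f x)
  obtain ⟨hG0, hG1⟩ := hnorm (c := b) (hfin hgC) hb0 (fun x => by rw [hB]; exact le_iSup g x)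
  obtain ⟨hH0, hH1⟩ := hnorm (c := s) hh₁fin hs0 (fun x => min_le_right _ _)
  have hstr : ∀ {u : ℝ → ℝ≥0∞} {c : ℝ}, (∀ x, u x ≠ ∞) → 0 < c → ENNReal.ofReal c = (⨆ x, u x) →
      ∀ t < 1, ∃ x, t < (u x).toReal / c := by
    intro u c hu hc hcu t ht
    rcases lt_or_ge t 0 with ht0 | ht0
    · exact ⟨0, lt_of_lt_of_le ht0 (div_nonneg ENNReal.toReal_nonneg hc.le)⟩
    · have h1 : ENNReal.ofReal (t * c) < ⨆ x, u x := by
        rw [← hcu]
        apply (ENNReal.ofReal_lt_ofReal_iff hc).2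
        nlinarith
      obtain ⟨x, hx⟩ := lt_iSup_iff.1 h1
      refine ⟨x, ?_⟩
      rw [lt_div_iff₀ hc]
      exact (ENNReal.ofReal_lt_iff_lt_toReal (mul_nonneg ht0 hc.le) (hu x)).1 hx
  have hFs := hstr (c := a) (hfin hfC) ha0 hA
  have hGs := hstr (c := b) (hfin hgC) hb0 hB
  have hHyp : ∀ x y, F x * G y ≤ H ((x + y) / 2) ^ 2 := by
    intro x y
    have hfx : f x ≤ ENNReal.ofReal a := by rw [hA]; exact le_iSup f x
    have hgy : g y ≤ ENNReal.ofReal b := by rw [hB]; exact le_iSup g y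
    have h1 : f x * g y ≤ h₁ ((x + y) / 2) ^ 2 := by
      simp only [h₁]
      rcases le_total (h ((x + y) / 2)) (ENNReal.ofReal s) with hle | hle
      · rw [min_eq_left hle]
        exact hyp x y
      · rw [min_eq_right hle]
        calc f x * g y ≤ ENNReal.ofReal a * ENNReal.ofReal b := mul_le_mul' hfx hgy
          _ = ENNReal.ofReal (a * b) := (ENNReal.ofReal_mul ha0.le).symm
          _ = ENNReal.ofReal s ^ 2 := by rw [← hs2, ENNReal.ofReal_pow hs0.le]
    have h2 : (f x).toReal * (g y).toReal ≤ (h₁ ((x + y) / 2)).toReal ^ 2 := by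
      rw [← ENNReal.toReal_mul, ← ENNReal.toReal_pow]
      exact ENNReal.toReal_mono (ENNReal.pow_ne_top (hh₁fin _)) h1
    simp only [F, G, H]
    rw [div_mul_div_comm, div_pow, hs2]
    exact div_le_div_of_nonneg_right h2 (mul_pos ha0 hb0).le
  have hmain := pl1_normalized hFm hGm hHm hF0 hF1 hFs hG0 hG1 hGs hH0 hHyp
  -- translate back
  have hback : ∀ {u : ℝ → ℝ≥0∞} {c : ℝ}, Measurable u → (∀ x, u x ≠ ∞) → 0 < c →
      (∫⁻ x, ENNReal.ofReal ((u x).toReal / c)) = (ENNReal.ofReal c)⁻¹ * ∫⁻ x, u x := by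
    intro u c hum hu hc
    rw [← lintegral_const_mul _ hum]
    congr 1
    funext x
    rw [div_eq_inv_mul, ENNReal.ofReal_mul (inv_nonneg.2 hc.le), ENNReal.ofReal_inv_of_pos hc,
      ENNReal.ofReal_toReal (hu x)]
  rw [hback hfm (hfin hfC) ha0, hback hgm (hfin hgC) hb0, hback hh₁m hh₁fin hs0] at hmain
  have hAB := mul_le_sq_of_add_le hmain
  have hAne : ENNReal.ofReal a ≠ 0 := by simpa using ha0
  have hBne : ENNReal.ofReal b ≠ 0 := by simpa using hb0
  have hSne : ENNReal.ofReal s ≠ 0 := by simpa using hs0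
  have hinv : ∀ {c : ℝ≥0∞}, c ≠ 0 → c ≠ ∞ → ∀ I : ℝ≥0∞, c * (c⁻¹ * I) = I := by
    intro c h0 h1 I
    rw [← mul_assoc, ENNReal.mul_inv_cancel h0 h1, one_mul]
  have hSq : ENNReal.ofReal s ^ 2 = ENNReal.ofReal a * ENNReal.ofReal b := by
    rw [← ENNReal.ofReal_pow hs0.le, hs2, ENNReal.ofReal_mul ha0.le]
  calc (∫⁻ x, f x) * (∫⁻ x, g x)
      = (ENNReal.ofReal a * ENNReal.ofReal b) *
          (((ENNReal.ofReal a)⁻¹ * ∫⁻ x, f x) * ((ENNReal.ofReal b)⁻¹ * ∫⁻ x, g x)) := by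
        conv_lhs =>
          rw [← hinv hAne ENNReal.ofReal_ne_top (∫⁻ x, f x),
            ← hinv hBne ENNReal.ofReal_ne_top (∫⁻ x, g x)]
        ring
    _ ≤ (ENNReal.ofReal a * ENNReal.ofReal b) * ((ENNReal.ofReal s)⁻¹ * ∫⁻ x, h₁ x) ^ 2 := by
        gcongr
    _ = (ENNReal.ofReal s * ((ENNReal.ofReal s)⁻¹ * ∫⁻ x, h₁ x)) ^ 2 := by
        rw [mul_pow (ENNReal.ofReal s) _ 2, hSq]
    _ = (∫⁻ x, h₁ x) ^ 2 := by rw [hinv hSne ENNReal.ofReal_ne_top]
    _ ≤ (∫⁻ x, h x) ^ 2 := by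
        gcongr
        exact min_le_left _ _

/-- One-dimensional Prékopa–Leindler. -/
theorem pl1 {f g h : ℝ → ℝ≥0∞} (hfm : Measurable f) (hgm : Measurable g) (hhm : Measurable h)
    (hyp : ∀ x y, f x * g y ≤ h ((x + y) / 2) ^ 2) :
    (∫⁻ x, f x) * (∫⁻ x, g x) ≤ (∫⁻ x, h x) ^ 2 := by
  let f' : ℕ → ℝ → ℝ≥0∞ := fun n x => min (f x) n
  let g' : ℕ → ℝ → ℝ≥0∞ := fun n x => min (g x) n
  have hf'm : ∀ n, Measurable (f' n) := fun n => hfm.min measurable_const
  have hg'm : ∀ n, Measurable (g' n) := fun n => hgm.min measurable_const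
  have hf'mono : Monotone f' := fun m n hmn x => by
    simp only [f']
    gcongr
  have hg'mono : Monotone g' := fun m n hmn x => by
    simp only [g']
    gcongr
  have hsup : ∀ (u : ℝ → ℝ≥0∞) (x : ℝ), (⨆ n : ℕ, min (u x) n) = u x := by
    intro u x
    show (⨆ n : ℕ, u x ⊓ (n : ℝ≥0∞)) = u x
    rw [← inf_iSup_eq, ENNReal.iSup_natCast, inf_top_eq]
  have hIf : (∫⁻ x, f x) = ⨆ n, ∫⁻ x, f' n x := by
    rw [← lintegral_iSup hf'm hf'mono]
    simp only [f', hsup]
  have hIg : (∫⁻ x, g x) = ⨆ n, ∫⁻ x, g' n x := by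
    rw [← lintegral_iSup hg'm hg'mono]
    simp only [g', hsup]
  rw [hIf, hIg, ENNReal.iSup_mul]
  refine iSup_le fun m => ?_
  rw [ENNReal.mul_iSup]
  refine iSup_le fun n => ?_
  have hle := pl1_bounded (hf'm (max m n)) (hg'm (max m n)) hhm ((max m n : ℕ) : ℝ≥0∞)
    (ENNReal.natCast_ne_top _) (fun x => min_le_right _ _) (fun x => min_le_right _ _)
    (fun x y => (mul_le_mul' (min_le_left _ _) (min_le_left _ _)).trans (hyp x y))
  calc (∫⁻ x, f' m x) * (∫⁻ x, g' n x)
      ≤ (∫⁻ x, f' (max m n) x) * (∫⁻ x, g' (max m n) x) := by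
        gcongr
        · exact hf'mono (le_max_left _ _) _
        · exact hg'mono (le_max_right _ _) _
    _ ≤ _ := hle

/-! ### Induction on the dimension -/

/-- Prékopa–Leindler on `Fin n → ℝ`. -/
theorem pl_pi : ∀ (n : ℕ) {f g h : (Fin n → ℝ) → ℝ≥0∞}, Measurable f → Measurable g → Measurable h →
    (∀ x y, f x * g y ≤ h ((1 / 2 : ℝ) • (x + y)) ^ 2) →
    (∫⁻ x, f x) * (∫⁻ x, g x) ≤ (∫⁻ x, h x) ^ 2 := by
  intro n
  induction n with
  | zero =>
    intro f g h _ _ _ hyp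
    have hv : ∀ u : (Fin 0 → ℝ) → ℝ≥0∞, (∫⁻ x, u x) = u default := by
      intro u
      have hvol : (volume : Measure (Fin 0 → ℝ)) univ = 1 := by
        rw [volume_pi, Measure.pi_of_empty]
        simp
      rw [lintegral_unique, hvol, mul_one]
      exact congrArg u (Subsingleton.elim _ _)
    rw [hv, hv, hv]
    have := hyp default default
    rwa [Subsingleton.elim ((1 / 2 : ℝ) • ((default : Fin 0 → ℝ) + default)) default] at this
  | succ n ih =>
    intro f g h hfm hgm hhm hyp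
    let e := MeasurableEquiv.piFinSuccAbove (fun _ : Fin (n + 1) => ℝ) 0
    have hmp : MeasurePreserving e volume (volume.prod volume) :=
      volume_preserving_piFinSuccAbove (fun _ : Fin (n + 1) => ℝ) 0
    have hint : ∀ {u : (Fin (n + 1) → ℝ) → ℝ≥0∞}, Measurable u →
        (∫⁻ x, u x) = ∫⁻ s, ∫⁻ y, u (e.symm (s, y)) := by
      intro u hu
      rw [← hmp.symm.lintegral_comp hu, lintegral_prod]
      exact (hu.comp e.symm.measurable).aemeasurable
    have hcurry : ∀ {u : (Fin (n + 1) → ℝ) → ℝ≥0∞}, Measurable u → ∀ s,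
        Measurable fun y => u (e.symm (s, y)) := by
      intro u hu s
      exact hu.comp (e.symm.measurable.comp measurable_prodMk_left)
    have hmeas : ∀ {u : (Fin (n + 1) → ℝ) → ℝ≥0∞}, Measurable u →
        Measurable fun s => ∫⁻ y, u (e.symm (s, y)) := by
      intro u hu
      exact (hu.comp e.symm.measurable).lintegral_prod_right'
    rw [hint hfm, hint hgm, hint hhm]
    refine pl1 (hmeas hfm) (hmeas hgm) (hmeas hhm) fun s t => ?_
    refine ih (hcurry hfm s) (hcurry hgm t) (hcurry hhm _) fun y y' => ?_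
    have hmid : (1 / 2 : ℝ) • (e.symm (s, y) + e.symm (t, y')) =
        e.symm ((s + t) / 2, (1 / 2 : ℝ) • (y + y')) := by
      funext i
      refine Fin.cases ?_ (fun j => ?_) i
      · simp [e, MeasurableEquiv.piFinSuccAbove, Fin.insertNthEquiv]
        ring
      · simp [e, MeasurableEquiv.piFinSuccAbove, Fin.insertNthEquiv]
        ring
    rw [← hmid]
    exact hyp _ _

/-- Prékopa–Leindler on Euclidean space (midpoint form). -/
theorem pl_euclid {d : ℕ} (f g h : EuclideanSpace ℝ (Fin d) → ℝ≥0∞) (hf : Measurable f) (hg : Measurable g)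
    (hh : Measurable h) (H : ∀ x x', f x * g x' ≤ h ((1 / 2 : ℝ) • (x + x')) ^ 2) :
    (∫⁻ x, f x) * (∫⁻ x, g x) ≤ (∫⁻ x, h x) ^ 2 := by
  have hmp := PiLp.volume_preserving_toLp (Fin d)
  have hmm : Measurable (WithLp.toLp 2 : (Fin d → ℝ) → EuclideanSpace ℝ (Fin d)) := hmp.measurable
  have hint : ∀ {u : EuclideanSpace ℝ (Fin d) → ℝ≥0∞}, Measurable u →
      (∫⁻ x, u x) = ∫⁻ x : Fin d → ℝ, u (WithLp.toLp 2 x) := by
    intro u hu
    rw [← hmp.lintegral_comp hu]
  rw [hint hf, hint hg, hint hh]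
  refine pl_pi d (hf.comp hmm) (hg.comp hmm) (hh.comp hmm) fun x y => ?_
  have := H (WithLp.toLp 2 x) (WithLp.toLp 2 y)
  have hm : (1 / 2 : ℝ) • (WithLp.toLp 2 x + WithLp.toLp 2 y) = WithLp.toLp 2 ((1 / 2 : ℝ) • (x + y)) := by
    simp
  rw [hm] at this
  exact this

end Crest.Agent.Lib.OTStab
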