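import Crest.Agent.Lib.OTStab.Basic
import Crest.Agent.Lib.OTStab.PL

/-!
# The per-cell inequality, from Prékopa–Leindler.
-/

set_option autoImplicit false
set_option linter.unusedSectionVars false
set_option linter.unusedVariables false

open MeasureTheory Set Filter
open scoped ENNReal RealInnerProductSpace Topology

namespace Crest.Agent.Lib.OTStab

variable {d : ℕ}

/-- Integral versus lower integral of the positive part. -/
theorem ofReal_integral_le_lintegral_ofReal' {X : Type*} [MeasurableSpace X] {ν : Measure X} {F : X → ℝ}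
    (hF : Integrable F ν) : ENNReal.ofReal (∫ x, F x ∂ν) ≤ ∫⁻ x, ENNReal.ofReal (F x) ∂ν := by
  have h1 : ∫ x, F x ∂ν ≤ ∫ x, max (F x) 0 ∂ν :=
    integral_mono hF hF.pos_part (fun x => le_max_left _ _)
  have h2 : ENNReal.ofReal (∫ x, max (F x) 0 ∂ν) = ∫⁻ x, ENNReal.ofReal (max (F x) 0) ∂ν :=
    ofReal_integral_eq_lintegral_ofReal hF.pos_part (ae_of_all _ fun x => le_max_right _ _)
  refine (ENNReal.ofReal_le_ofReal h1).trans (h2.le.trans ?_)
  refine lintegral_mono fun x => ?_
  by_cases hx : 0 ≤ F x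
  · rw [max_eq_left hx]
  · rw [max_eq_right (le_of_not_ge hx)]; simp [ENNReal.ofReal_of_nonpos (le_of_not_ge hx)]

/-- Prékopa–Leindler in a real-valued form on measurable sets. -/
theorem pl_sets {A B C : Set (Eu d)} (hA : MeasurableSet A) (hB : MeasurableSet B)
    (hC : MeasurableSet C) {F G H : Eu d → ℝ} (hF : Measurable F) (hG : Measurable G)
    (hH : Measurable H) (hFi : IntegrableOn F A) (hGi : IntegrableOn G B) (hHi : IntegrableOn H C)
    (hH0 : ∀ x ∈ C, 0 ≤ H x)
    (hmid : ∀ x ∈ A, ∀ x' ∈ B, (1 / 2 : ℝ) • (x + x') ∈ C ∧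
      F x + G x' ≤ 2 * H ((1 / 2 : ℝ) • (x + x')))
    {α : ℝ} (hαA : α ≤ ∫ x in A, F x) (hαB : α ≤ ∫ x in B, G x) :
    α ≤ ∫ x in C, H x := by
  -- the trivial case
  have hHnn : 0 ≤ ∫ x in C, H x := setIntegral_nonneg hC hH0
  by_cases hα : α ≤ 0
  · linarith
  push Not at hα
  -- the ENNReal functions
  let f : Eu d → ℝ≥0∞ := A.indicator (fun x => ENNReal.ofReal (F x))
  let g : Eu d → ℝ≥0∞ := B.indicator (fun x => ENNReal.ofReal (G x))
  let h : Eu d → ℝ≥0∞ := C.indicator (fun x => ENNReal.ofReal (H x))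
  have hfm : Measurable f := (ENNReal.measurable_ofReal.comp hF).indicator hA
  have hgm : Measurable g := (ENNReal.measurable_ofReal.comp hG).indicator hB
  have hhm : Measurable h := (ENNReal.measurable_ofReal.comp hH).indicator hC
  have hkey : ∀ x x', f x * g x' ≤ h ((1 / 2 : ℝ) • (x + x')) ^ 2 := by
    intro x x'
    by_cases hx : x ∈ A
    · by_cases hx' : x' ∈ B
      · obtain ⟨h1, h2⟩ := hmid x hx x' hx'
        simp only [f, g, h, indicator_of_mem hx, indicator_of_mem hx', indicator_of_mem h1]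
        have h3 := hH0 _ h1
        set m := H ((1 / 2 : ℝ) • (x + x'))
        by_cases hFx : F x ≤ 0
        · rw [ENNReal.ofReal_of_nonpos hFx, zero_mul]; exact zero_le
        by_cases hGx : G x' ≤ 0
        · rw [ENNReal.ofReal_of_nonpos hGx, mul_zero]; exact zero_le
        push Not at hFx hGx
        rw [← ENNReal.ofReal_mul hFx.le, ← ENNReal.ofReal_pow h3]
        refine ENNReal.ofReal_le_ofReal ?_
        nlinarith [sq_nonneg (F x - G x')]
      · simp [g, hx']
    · simp [f, hx]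
  have hpl := pl_euclid f g h hfm hgm hhm hkey
  -- translate
  have hintf : ENNReal.ofReal α ≤ ∫⁻ x, f x := by
    rw [lintegral_indicator hA]
    refine le_trans (ENNReal.ofReal_le_ofReal hαA) ?_
    exact ofReal_integral_le_lintegral_ofReal' hFi
  have hintg : ENNReal.ofReal α ≤ ∫⁻ x, g x := by
    rw [lintegral_indicator hB]
    refine le_trans (ENNReal.ofReal_le_ofReal hαB) ?_
    exact ofReal_integral_le_lintegral_ofReal' hGi
  have hinth : ∫⁻ x, h x = ENNReal.ofReal (∫ x in C, H x) := by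
    rw [lintegral_indicator hC,
      ofReal_integral_eq_lintegral_ofReal hHi ((ae_restrict_iff' hC).2 (ae_of_all _ hH0))]
  have h1 : ENNReal.ofReal α * ENNReal.ofReal α ≤ ENNReal.ofReal (∫ x in C, H x) ^ 2 := by
    rw [← hinth]
    exact (mul_le_mul' hintf hintg).trans hpl
  rw [← ENNReal.ofReal_mul hα.le, ← ENNReal.ofReal_pow hHnn] at h1
  have h2 := (ENNReal.ofReal_le_ofReal_iff (by positivity)).1 h1
  nlinarith

/-- Integral identities on a bounded set. -/
theorem integrableOn_of_bdd {A : Set (Eu d)} (hA : MeasurableSet A) {R : ℝ}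
    (hAR : A ⊆ Metric.closedBall 0 R) {F : Type*} [NormedAddCommGroup F] {g : Eu d → F}
    (hg : Continuous g) : IntegrableOn g A := by
  exact (hg.continuousOn.integrableOn_compact (isCompact_closedBall (0 : Eu d) R)).mono_set hAR

/-- Constants are integrable on sets of finite volume. -/
theorem integrable_const_restrict {D : Set (Eu d)} (hD : volume D < ⊤) (c : ℝ) :
    Integrable (fun _ : Eu d => c) (volume.restrict D) := by
  have : IsFiniteMeasure (volume.restrict D) := ⟨by simpa using hD⟩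
  exact integrable_const c

/-- Expansion of the integral of `‖x + c‖²`. -/
theorem integral_norm_add_sq {D : Set (Eu d)} (hD : IntegrableOn (fun x : Eu d => ‖x‖ ^ 2) D)
    (hDid : IntegrableOn (fun x : Eu d => x) D) (hDfin : volume D < ⊤) (c : Eu d) :
    ∫ x in D, ‖x + c‖ ^ 2 = (∫ x in D, ‖x‖ ^ 2) + 2 * ⟪∫ x in D, x, c⟫ + volume.real D * ‖c‖ ^ 2 := by
  have h1 : ∀ x : Eu d, ‖x + c‖ ^ 2 = ‖x‖ ^ 2 + 2 * ⟪x, c⟫ + ‖c‖ ^ 2 := fun x => by
    rw [@norm_add_sq_real]
  simp_rw [h1]
  have hi2 : Integrable (fun x : Eu d => 2 * ⟪x, c⟫) (volume.restrict D) := by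
    refine Integrable.const_mul ?_ 2
    exact hDid.inner_const c
  have hi3 : Integrable (fun x : Eu d => ‖x‖ ^ 2 + 2 * ⟪x, c⟫) (volume.restrict D) := hD.add hi2
  rw [integral_add hi3 (integrable_const_restrict hDfin _), integral_add hD hi2,
    integral_const_mul, setIntegral_const, smul_eq_mul]
  congr 3
  have := integral_inner (𝕜 := ℝ) hDid c
  simp only [real_inner_comm] at this ⊢
  exact this

/-- The Cauchy–Schwarz inequality for the moment. -/
theorem norm_moment_sq_le {D : Set (Eu d)} (hD : IntegrableOn (fun x : Eu d => ‖x‖ ^ 2) D)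
    (hDid : IntegrableOn (fun x : Eu d => x) D) (hDfin : volume D < ⊤) :
    ‖∫ x in D, x‖ ^ 2 ≤ volume.real D * ∫ x in D, ‖x‖ ^ 2 := by
  set v := volume.real D with hv
  have hv0 : 0 ≤ v := measureReal_nonneg
  by_cases hv1 : v = 0
  · have h0 : volume D = 0 := by
      rw [hv, measureReal_def, ENNReal.toReal_eq_zero_iff] at hv1
      exact hv1.resolve_right hDfin.ne
    have : volume.restrict D = 0 := Measure.restrict_eq_zero.2 h0
    simp [this]
  have hvp : 0 < v := lt_of_le_of_ne hv0 (Ne.symm hv1)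
  set M := ∫ x in D, x with hM
  have h1 := integral_norm_add_sq hD hDid hDfin (-((1 / v) • M))
  have h2 : 0 ≤ ∫ x in D, ‖x + -((1 / v) • M)‖ ^ 2 := integral_nonneg fun x => by positivity
  rw [h1, inner_neg_right, inner_smul_right, real_inner_self_eq_norm_sq, norm_neg, norm_smul,
    Real.norm_eq_abs, abs_of_nonneg (by positivity)] at h2
  have h3 : 0 ≤ (∫ x in D, ‖x‖ ^ 2) - ‖M‖ ^ 2 / v := by
    have h4 : (∫ x in D, ‖x‖ ^ 2) + 2 * -((1 / v) * ‖M‖ ^ 2) + v * ((1 / v) * ‖M‖) ^ 2 =
        (∫ x in D, ‖x‖ ^ 2) - ‖M‖ ^ 2 / v := by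
      field_simp
      ring
    rw [h4] at h2
    exact h2
  have h5 : ‖M‖ ^ 2 / v ≤ ∫ x in D, ‖x‖ ^ 2 := by linarith
  rw [div_le_iff₀ hvp] at h5
  linarith

/-- **Per-cell inequality.** For `v = |A|`, `v' = |B|`, `(A + B)/2 ⊆ C`, `z ≥ ‖x‖²/2` on `C`:
`∫_C (z - ‖x‖²/2) ≥ ½ ∫_A (z - ‖x‖²/2) + ½ ∫_B (z - ‖x‖²/2)
   + ‖M - M'‖²/(4(v+v')) - z (v-v')²/(2(v+v'))`, `M = ∫_A x`, `M' = ∫_B x`. -/
theorem per_cell {A B C : Set (Eu d)} (hA : MeasurableSet A) (hB : MeasurableSet B)
    (hC : MeasurableSet C) {R : ℝ} (hAR : A ⊆ Metric.closedBall 0 R)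
    (hBR : B ⊆ Metric.closedBall 0 R) (hCR : C ⊆ Metric.closedBall 0 R)
    (hmid : ∀ x ∈ A, ∀ x' ∈ B, (1 / 2 : ℝ) • (x + x') ∈ C) {z : ℝ}
    (hz : ∀ x ∈ C, ‖x‖ ^ 2 / 2 ≤ z) :
    (1 / 2) * (∫ x in A, (z - ‖x‖ ^ 2 / 2)) + (1 / 2) * (∫ x in B, (z - ‖x‖ ^ 2 / 2))
      + ‖(∫ x in A, x) - (∫ x in B, x)‖ ^ 2 / (4 * (volume.real A + volume.real B))
      - z * (volume.real A - volume.real B) ^ 2 / (2 * (volume.real A + volume.real B))
    ≤ ∫ x in C, (z - ‖x‖ ^ 2 / 2) := by
  -- notation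
  have hAfin : volume A < ⊤ :=
    lt_of_le_of_lt (measure_mono hAR) (isCompact_closedBall _ _).measure_lt_top
  have hBfin : volume B < ⊤ :=
    lt_of_le_of_lt (measure_mono hBR) (isCompact_closedBall _ _).measure_lt_top
  set v := volume.real A with hv
  set v' := volume.real B with hv'
  have hv0 : 0 ≤ v := measureReal_nonneg
  have hv'0 : 0 ≤ v' := measureReal_nonneg
  set M := ∫ x in A, x with hM
  set M' := ∫ x in B, x with hM'
  set S := ∫ x in A, ‖x‖ ^ 2 with hS
  set S' := ∫ x in B, ‖x‖ ^ 2 with hS'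
  have hcont : Continuous (fun x : Eu d => ‖x‖ ^ 2) := by fun_prop
  have hiA : IntegrableOn (fun x : Eu d => ‖x‖ ^ 2) A := integrableOn_of_bdd hA hAR hcont
  have hiB : IntegrableOn (fun x : Eu d => ‖x‖ ^ 2) B := integrableOn_of_bdd hB hBR hcont
  have hiCt : IntegrableOn (fun x : Eu d => z - ‖x‖ ^ 2 / 2) C :=
    integrableOn_of_bdd hC hCR (by fun_prop)
  have hiAid : IntegrableOn (fun x : Eu d => x) A := integrableOn_of_bdd hA hAR continuous_id
  have hiBid : IntegrableOn (fun x : Eu d => x) B := integrableOn_of_bdd hB hBR continuous_id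
  -- the value of the integrals of `z - ‖x‖²/2`
  have hcA : ∫ x in A, (z - ‖x‖ ^ 2 / 2) = z * v - S / 2 := by
    rw [integral_sub (integrable_const_restrict hAfin z) (hiA.div_const 2), setIntegral_const,
      integral_div, smul_eq_mul]
    ring
  have hcB : ∫ x in B, (z - ‖x‖ ^ 2 / 2) = z * v' - S' / 2 := by
    rw [integral_sub (integrable_const_restrict hBfin z) (hiB.div_const 2), setIntegral_const,
      integral_div, smul_eq_mul]
    ring
  have hCnn : 0 ≤ ∫ x in C, (z - ‖x‖ ^ 2 / 2) :=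
    setIntegral_nonneg hC fun x hx => by have := hz x hx; linarith
  rw [hcA, hcB]
  have hcsA : ‖M‖ ^ 2 ≤ v * S := norm_moment_sq_le hiA hiAid hAfin
  have hcsB : ‖M'‖ ^ 2 ≤ v' * S' := norm_moment_sq_le hiB hiBid hBfin
  have hnull : ∀ (D : Set (Eu d)), volume D < ⊤ → volume.real D = 0 → volume.restrict D = 0 := by
    intro D hDfin h
    rw [measureReal_def, ENNReal.toReal_eq_zero_iff] at h
    exact Measure.restrict_eq_zero.2 (h.resolve_right hDfin.ne)
  -- degenerate cases
  by_cases hv_pos : v = 0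
  · have h0 := hnull A hAfin hv_pos
    have hM0 : M = 0 := by rw [hM, h0]; simp
    have hS0 : S = 0 := by rw [hS, h0]; simp
    rw [hM0, hS0, hv_pos]
    by_cases hv'_pos : v' = 0
    · have h0' := hnull B hBfin hv'_pos
      have hM0' : M' = 0 := by rw [hM', h0']; simp
      have hS0' : S' = 0 := by rw [hS', h0']; simp
      rw [hv'_pos, hM0', hS0']
      simpa using hCnn
    · have hvp' : 0 < v' := lt_of_le_of_ne hv'0 (Ne.symm hv'_pos)
      refine le_trans (le_of_eq_of_le ?_ (?_ : -S' / 4 + ‖M'‖ ^ 2 / (4 * v') ≤ 0)) hCnn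
      · rw [zero_sub, norm_neg]
        field_simp
        ring
      · have : ‖M'‖ ^ 2 / (4 * v') ≤ S' / 4 := by
          rw [div_le_div_iff₀ (by positivity) (by positivity)]
          nlinarith
        linarith
  by_cases hv'_pos : v' = 0
  · have h0 := hnull B hBfin hv'_pos
    have hM0 : M' = 0 := by rw [hM', h0]; simp
    have hS0 : S' = 0 := by rw [hS', h0]; simp
    rw [hM0, hS0, hv'_pos]
    have hvp : 0 < v := lt_of_le_of_ne hv0 (Ne.symm hv_pos)
    refine le_trans (le_of_eq_of_le ?_ (?_ : -S / 4 + ‖M‖ ^ 2 / (4 * v) ≤ 0)) hCnn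
    · rw [sub_zero]
      field_simp
      ring
    · have : ‖M‖ ^ 2 / (4 * v) ≤ S / 4 := by
        rw [div_le_div_iff₀ (by positivity) (by positivity)]
        nlinarith
      linarith
  have hvp : 0 < v := lt_of_le_of_ne hv0 (Ne.symm hv_pos)
  have hvp' : 0 < v' := lt_of_le_of_ne hv'0 (Ne.symm hv'_pos)
  set s := v + v' with hs
  have hsp : 0 < s := by positivity
  set c : Eu d := -((1 / s) • (M - M')) with hc
  -- the functions
  let em : Eu d → ℝ := fun x => s / (4 * v') * ‖x + c‖ ^ 2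
  let ep : Eu d → ℝ := fun x => s / (4 * v) * ‖x + -c‖ ^ 2
  have hem : Continuous em := by fun_prop
  have hep : Continuous ep := by fun_prop
  have hiem : IntegrableOn em A := integrableOn_of_bdd hA hAR hem
  have hiep : IntegrableOn ep B := integrableOn_of_bdd hB hBR hep
  set EA := ∫ x in A, em x with hEA
  set EB := ∫ x in B, ep x with hEB
  have hEAv : EA = s / (4 * v') * (S + 2 * ⟪M, c⟫ + v * ‖c‖ ^ 2) := by
    rw [hEA]
    simp only [em]
    rw [integral_const_mul, integral_norm_add_sq hiA hiAid hAfin]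
  have hEBv : EB = s / (4 * v) * (S' + 2 * ⟪M', -c⟫ + v' * ‖c‖ ^ 2) := by
    rw [hEB]
    simp only [ep]
    rw [integral_const_mul, integral_norm_add_sq hiB hiBid hBfin, norm_neg]
  set δ := (z * (v - v') - EA + EB) / s with hδ
  -- the values
  have hFv : ∫ x in A, (z - δ - em x) = (z - δ) * v - EA := by
    rw [integral_sub (integrable_const_restrict hAfin _) hiem, setIntegral_const, smul_eq_mul]
    ring
  have hGv : ∫ x in B, (z + δ - ep x) = (z + δ) * v' - EB := by
    rw [integral_sub (integrable_const_restrict hBfin _) hiep, setIntegral_const, smul_eq_mul]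
    ring
  have hαeq : (z - δ) * v - EA = (z + δ) * v' - EB := by
    have : δ * s = z * (v - v') - EA + EB := by
      rw [hδ]; field_simp
    nlinarith
  -- apply PL
  have hPL := pl_sets (F := fun x => z - δ - em x) (G := fun x => z + δ - ep x)
    (H := fun x => z - ‖x‖ ^ 2 / 2) hA hB hC
    (by fun_prop) (by fun_prop) (by fun_prop)
    ((integrable_const_restrict hAfin _).sub hiem) ((integrable_const_restrict hBfin _).sub hiep) hiCt
    (fun x hx => by have := hz x hx; linarith) ?_ (α := (z - δ) * v - EA) hFv.ge (by rw [hGv, hαeq])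
  · refine le_trans (le_of_eq ?_) hPL
    -- the algebra
    set D := ‖M - M'‖ ^ 2 with hD
    have hc2 : ‖c‖ ^ 2 = D / s ^ 2 := by
      rw [hc, norm_neg, norm_smul, Real.norm_eq_abs, abs_of_nonneg (by positivity), mul_pow, hD]
      field_simp
    have hXX : ⟪M, c⟫ + ⟪M', -c⟫ = - D / s := by
      have h1 : ⟪M, c⟫ + ⟪M', -c⟫ = ⟪M - M', c⟫ := by
        have h2 : ⟪M', -c⟫ = -⟪M', c⟫ := inner_neg_right _ _
        rw [h2, inner_sub_left]; ring
      rw [h1, hc, inner_neg_right, inner_smul_right, real_inner_self_eq_norm_sq, hD]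
      field_simp
    set X := ⟪M, c⟫
    set X' := ⟪M', -c⟫
    have hX' : X' = - D / s - X := by linarith
    rw [hδ, hEAv, hEBv, hX', hc2]
    field_simp
    ring
  · intro x hx x' hx'
    refine ⟨hmid x hx x' hx', ?_⟩
    set a := x + c with ha
    set b := x' + -c with hb
    have hab : (1 / 2 : ℝ) • (x + x') = (1 / 2 : ℝ) • (a + b) := by
      congr 1
      rw [ha, hb]
      abel
    rw [hab, norm_smul, mul_pow, @norm_add_sq_real]
    simp only [em, ep]
    rw [← ha, ← hb]
    have hkey : 0 ≤ ‖v • a - v' • b‖ ^ 2 := by positivity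
    rw [@norm_sub_sq_real, norm_smul, norm_smul, inner_smul_left, inner_smul_right, mul_pow, mul_pow,
      Real.norm_eq_abs, Real.norm_eq_abs, abs_of_pos hvp, abs_of_pos hvp'] at hkey
    simp only [conj_trivial] at hkey
    set na := ‖a‖ ^ 2
    set nb := ‖b‖ ^ 2
    set ip := ⟪a, b⟫
    have h3 : s / (4 * v') * na + s / (4 * v) * nb - (na + 2 * ip + nb) / 4 =
        (v ^ 2 * na - 2 * (v * (v' * ip)) + v' ^ 2 * nb) / (4 * v * v') := by
      rw [hs]
      field_simp
      ring
    have h4 : 0 ≤ (v ^ 2 * na - 2 * (v * (v' * ip)) + v' ^ 2 * nb) / (4 * v * v') := by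
      apply div_nonneg _ (by positivity)
      linarith
    have h5 : ‖(1 / 2 : ℝ)‖ ^ 2 = 1 / 4 := by
      rw [Real.norm_eq_abs, abs_of_pos (by norm_num)]
      norm_num
    rw [h5]
    linarith

end Crest.Agent.Lib.OTStab
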