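import Crest.Agent.Lib.OTStab.Src

/-!
# Existence for the semi-discrete transport problem: minimise the dual functional.
-/

set_option autoImplicit false
set_option linter.unusedSectionVars false
set_option linter.unusedVariables false

open MeasureTheory Set Filter
open scoped ENNReal RealInnerProductSpace Topology

namespace Crest.Agent.Lib.OTStab

variable {d : ℕ} {ι : Type} [Fintype ι] [Nonempty ι]
variable {lam : Measure (Eu d)} {R : ℝ}

/-- Shifting all weights by a constant subtracts the constant from the potential. -/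
theorem pot_add_const (y : ι → Eu d) (w : ι → ℝ) (c : ℝ) (x : Eu d) :
    pot y (fun i => w i + c) x = pot y w x - c := by
  obtain ⟨i, hi⟩ := exists_sc_eq_pot y (fun i => w i + c) x
  obtain ⟨j, hj⟩ := exists_sc_eq_pot y w x
  have h1 := sc_le_pot y (fun i => w i + c) j x
  have h2 := sc_le_pot y w i x
  rw [← hi] at h1 ⊢
  rw [← hj] at h2 ⊢
  unfold sc at *
  linarith

theorem Src.dualE_add_const (h : Src lam R) (y : ι → Eu d) {m : ι → ℝ} (hm : ∑ i, m i = 1)
    (w : ι → ℝ) (c : ℝ) : dualE lam y m (fun i => w i + c) = dualE lam y m w := by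
  have := h.prob
  unfold dualE
  simp_rw [pot_add_const]
  rw [integral_sub (h.integrable_pot y w) (integrable_const _)]
  simp only [integral_const, probReal_univ, smul_eq_mul, one_mul, mul_add,
    Finset.sum_add_distrib, ← Finset.sum_mul, hm]
  ring

/-- The potential depends on the weights in a 1-Lipschitz way. -/
theorem pot_sub_pot_le (y : ι → Eu d) (w w' : ι → ℝ) (x : Eu d) :
    pot y w x - pot y w' x ≤ ‖w - w'‖ := by
  obtain ⟨i, hi⟩ := exists_sc_eq_pot y w x
  have h1 := sc_le_pot y w' i x
  rw [← hi]
  unfold sc at *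
  have h2 : |(w - w') i| ≤ ‖w - w'‖ := by
    have := norm_le_pi_norm (w - w') i
    simpa [Real.norm_eq_abs] using this
  have h3 := neg_abs_le ((w - w') i)
  simp only [Pi.sub_apply] at h2 h3
  linarith

theorem Src.dualE_sub_le (h : Src lam R) (y : ι → Eu d) {m : ι → ℝ} (hm0 : ∀ i, 0 ≤ m i)
    (hm : ∑ i, m i = 1) (w w' : ι → ℝ) :
    dualE lam y m w - dualE lam y m w' ≤ 2 * ‖w - w'‖ := by
  have := h.prob
  unfold dualE
  have h1 : ∫ x, pot y w x ∂lam - ∫ x, pot y w' x ∂lam ≤ ‖w - w'‖ := by
    rw [← integral_sub (h.integrable_pot y w) (h.integrable_pot y w')]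
    calc ∫ x, (pot y w x - pot y w' x) ∂lam ≤ ∫ _, ‖w - w'‖ ∂lam := by
          refine integral_mono ((h.integrable_pot y w).sub (h.integrable_pot y w'))
            (integrable_const _) fun x => pot_sub_pot_le y w w' x
      _ = ‖w - w'‖ := by simp
  have h2 : ∑ i, m i * w i - ∑ i, m i * w' i ≤ ‖w - w'‖ := by
    rw [← Finset.sum_sub_distrib]
    calc ∑ i, (m i * w i - m i * w' i) ≤ ∑ i, m i * ‖w - w'‖ := by
          refine Finset.sum_le_sum fun i _ => ?_
          rw [← mul_sub]
          refine mul_le_mul_of_nonneg_left ?_ (hm0 i)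
          have := norm_le_pi_norm (w - w') i
          simp only [Pi.sub_apply, Real.norm_eq_abs] at this
          exact (le_abs_self _).trans this
      _ = ‖w - w'‖ := by rw [← Finset.sum_mul, hm, one_mul]
  linarith

theorem Src.continuous_dualE (h : Src lam R) (y : ι → Eu d) {m : ι → ℝ} (hm0 : ∀ i, 0 ≤ m i)
    (hm : ∑ i, m i = 1) : Continuous (dualE lam y m) := by
  refine (LipschitzWith.of_dist_le_mul (K := 2) fun w w' => ?_).continuous
  rw [Real.dist_eq, dist_eq_norm, abs_le]
  have h1 := h.dualE_sub_le y hm0 hm w w'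
  have h2 := h.dualE_sub_le y hm0 hm w' w
  rw [norm_sub_rev] at h2
  simp only [NNReal.coe_ofNat]
  constructor <;> linarith

/-- Coercivity. -/
theorem Src.coercive (h : Src lam R) (hR : 0 ≤ R) (y : ι → Eu d) {m : ι → ℝ} {L ε : ℝ} (hε : 0 ≤ ε)
    (hL : ∀ i, ‖y i‖ ≤ L) (hmε : ∀ i, ε ≤ m i) (hm : ∑ i, m i = 1) (w : ι → ℝ) (l k : ι) :
    -(R * L) + ε * (w l - w k) ≤ dualE lam y m w := by
  classical
  have := h.prob
  have hL0 : 0 ≤ L := (norm_nonneg _).trans (hL l)
  -- the competing convex combination
  let θ : ι → ℝ := fun i => m i - (if i = l then ε else 0) + (if i = k then ε else 0)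
  have hθ0 : ∀ i, 0 ≤ θ i := by
    intro i
    simp only [θ]
    have := hmε i
    split_ifs <;> linarith
  have hθ1 : ∑ i, θ i = 1 := by
    simp only [θ, Finset.sum_add_distrib, Finset.sum_sub_distrib, hm, Finset.sum_ite_eq',
      Finset.mem_univ, if_true]
    ring
  -- the pointwise bound
  have hpt : ∀ x, ∑ i, θ i * sc y w i x ≤ pot y w x := by
    intro x
    calc ∑ i, θ i * sc y w i x ≤ ∑ i, θ i * pot y w x :=
          Finset.sum_le_sum fun i _ => mul_le_mul_of_nonneg_left (sc_le_pot y w i x) (hθ0 i)
      _ = pot y w x := by rw [← Finset.sum_mul, hθ1, one_mul]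
  have hint : ∀ i, Integrable (fun x => θ i * sc y w i x) lam := by
    intro i
    refine Integrable.const_mul ?_ _
    exact (h.integrable_inner (y i)).sub (integrable_const _)
  have h1 : ∫ x, ∑ i, θ i * sc y w i x ∂lam ≤ ∫ x, pot y w x ∂lam :=
    integral_mono (integrable_finsetSum _ fun i _ => hint i) (h.integrable_pot y w) hpt
  rw [integral_finsetSum _ fun i _ => hint i] at h1
  -- each term
  have h2 : ∀ i, -(R * L) * θ i - θ i * w i ≤ ∫ x, θ i * sc y w i x ∂lam := by
    intro i
    rw [integral_const_mul]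
    unfold sc
    rw [integral_sub (h.integrable_inner (y i)) (integrable_const _)]
    simp only [integral_const, probReal_univ, smul_eq_mul, one_mul]
    have h3 : -(R * L) ≤ ∫ x, ⟪x, y i⟫ ∂lam := by
      have h4 : |∫ x, ⟪x, y i⟫ ∂lam| ≤ R * L := by
        have h5 := norm_integral_le_of_norm_le_const (μ := lam) (f := fun x => ⟪x, y i⟫) (C := R * L) ?_
        · simpa [Real.norm_eq_abs] using h5
        · filter_upwards [h.bdd] with x hx
          rw [Real.norm_eq_abs]
          refine (abs_real_inner_le_norm _ _).trans ?_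
          exact mul_le_mul hx (hL i) (norm_nonneg _) hR
      exact (abs_le.mp h4).1
    nlinarith [hθ0 i]
  have h3 : ∑ i, (-(R * L) * θ i - θ i * w i) ≤ ∫ x, pot y w x ∂lam :=
    (Finset.sum_le_sum fun i _ => h2 i).trans h1
  rw [Finset.sum_sub_distrib, ← Finset.mul_sum, hθ1] at h3
  have h4 : ∑ i, θ i * w i = ∑ i, m i * w i - ε * w l + ε * w k := by
    simp only [θ, add_mul, sub_mul, ite_mul, zero_mul, Finset.sum_add_distrib,
      Finset.sum_sub_distrib, Finset.sum_ite_eq', Finset.mem_univ, if_true]
  rw [h4] at h3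
  unfold dualE
  linarith

/-- The dual functional has a global minimiser. -/
theorem Src.exists_minimizer (h : Src lam R) (hR : 0 ≤ R) (y : ι → Eu d) {m : ι → ℝ}
    (hmpos : ∀ i, 0 < m i) (hm : ∑ i, m i = 1) :
    ∃ w : ι → ℝ, ∀ w', dualE lam y m w ≤ dualE lam y m w' := by
  classical
  have := h.prob
  obtain ⟨L, hL0, hL⟩ := exists_norm_bound y
  obtain ⟨i0⟩ := (inferInstance : Nonempty ι)
  -- the minimal mass
  obtain ⟨i1, -, hi1⟩ := Finset.exists_min_image Finset.univ m ⟨i0, Finset.mem_univ _⟩
  set ε := m i1 with hε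
  have hεpos : 0 < ε := hmpos i1
  have hmε : ∀ i, ε ≤ m i := fun i => hi1 i (Finset.mem_univ _)
  have hcont := h.continuous_dualE y (fun i => (hmpos i).le) hm
  -- the constant
  set B : ℝ := max 0 ((dualE lam y m 0 + R * L) / ε) with hB
  have hB0 : 0 ≤ B := le_max_left _ _
  let S : Set (ι → ℝ) := Set.pi univ (fun i => Icc (-B) B)
  have hScomp : IsCompact S := isCompact_univ_pi fun i => isCompact_Icc
  have hSne : S.Nonempty := ⟨0, fun i _ => by simp [hB0]⟩
  obtain ⟨w0, hw0, hmin⟩ := hScomp.exists_isMinOn hSne hcont.continuousOn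
  refine ⟨w0, fun w' => ?_⟩
  -- normalise `w'` by a shift
  set c := - w' i0 with hc
  set w'' : ι → ℝ := fun i => w' i + c with hw''
  have hshift : dualE lam y m w'' = dualE lam y m w' := h.dualE_add_const y hm w' c
  rw [← hshift]
  by_cases hmem : w'' ∈ S
  · exact hmin hmem
  · -- `w''` is far, hence its value is large
    have h0S : (0 : ι → ℝ) ∈ S := fun i _ => by simp [hB0]
    have hle0 : dualE lam y m w0 ≤ dualE lam y m 0 := hmin h0S
    refine hle0.trans ?_
    -- there is a coordinate of `w''` beyond `B`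
    have : ∃ i, B < |w'' i| := by
      by_contra hcon
      push Not at hcon
      exact hmem fun i _ => abs_le.mp (hcon i)
    obtain ⟨i, hi⟩ := this
    have hi0 : w'' i0 = 0 := by simp [hw'', hc]
    have hbig : ((dualE lam y m 0 + R * L) / ε) ≤ B := le_max_right _ _
    have hbig' : dualE lam y m 0 + R * L ≤ ε * B := by
      rw [div_le_iff₀ hεpos] at hbig
      linarith
    rcases lt_abs.mp hi with hi' | hi'
    · have := h.coercive hR y hεpos.le hL hmε hm w'' i i0
      rw [hi0, sub_zero] at this
      nlinarith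
    · have := h.coercive hR y hεpos.le hL hmε hm w'' i0 i
      rw [hi0, zero_sub] at this
      nlinarith

/-- Adding `t` to the weight of site `i`. -/
theorem pot_update_le (y : ι → Eu d) (w : ι → ℝ) (i : ι) {t : ℝ} (ht : 0 ≤ t) (x : Eu d) [DecidableEq ι] :
    pot y (Function.update w i (w i + t)) x ≤ pot y w x := by
  obtain ⟨j, hj⟩ := exists_sc_eq_pot y (Function.update w i (w i + t)) x
  rw [← hj]
  refine le_trans ?_ (sc_le_pot y w j x)
  unfold sc
  by_cases hji : j = i
  · subst hji; simp; linarith
  · simp [Function.update_of_ne hji]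

/-- The set of points where `i` wins with margin at least `t`. -/
def marginSet (y : ι → Eu d) (w : ι → ℝ) (i : ι) (t : ℝ) : Set (Eu d) :=
  {x | ∀ k, k ≠ i → sc y w k x + t ≤ sc y w i x}

theorem measurableSet_marginSet (y : ι → Eu d) (w : ι → ℝ) (i : ι) (t : ℝ) :
    MeasurableSet (marginSet y w i t) := by
  have : marginSet y w i t = ⋂ k, ⋂ _ : k ≠ i, {x | sc y w k x + t ≤ sc y w i x} := by
    ext x; simp [marginSet]
  rw [this]
  refine MeasurableSet.iInter fun k => MeasurableSet.iInter fun _ => ?_
  exact measurableSet_le ((continuous_sc y w k).measurable.add_const t) (continuous_sc y w i).measurable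

theorem pot_update_eq_of_mem (y : ι → Eu d) (w : ι → ℝ) (i : ι) {t : ℝ} (ht : 0 ≤ t) {x : Eu d}
    (hx : x ∈ marginSet y w i t) [DecidableEq ι] :
    pot y (Function.update w i (w i + t)) x = pot y w x - t := by
  have hle : ∀ k, sc y w k x ≤ sc y w i x := by
    intro k
    by_cases hk : k = i
    · rw [hk]
    · have := hx k hk; linarith
  have hpot : pot y w x = sc y w i x := by
    obtain ⟨j, hj⟩ := exists_sc_eq_pot y w x
    refine le_antisymm ?_ (sc_le_pot y w i x)
    rw [← hj]; exact hle j
  rw [hpot]
  refine le_antisymm ?_ ?_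
  · obtain ⟨j, hj⟩ := exists_sc_eq_pot y (Function.update w i (w i + t)) x
    rw [← hj]
    by_cases hji : j = i
    · subst hji
      simp [sc]
    · have := hx j hji
      unfold sc at *
      simp only [Function.update_of_ne hji]
      linarith
  · have := sc_le_pot y (Function.update w i (w i + t)) i x
    refine le_trans ?_ this
    simp [sc]
    linarith

/-- First-order condition: the margin sets have mass at most `m i`. -/
theorem Src.measure_marginSet_le (h : Src lam R) (y : ι → Eu d) {m w : ι → ℝ}
    (hmin : ∀ w', dualE lam y m w ≤ dualE lam y m w') (i : ι) {t : ℝ} (ht : 0 < t) :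
    lam.real (marginSet y w i t) ≤ m i := by
  classical
  have := h.prob
  have h1 := hmin (Function.update w i (w i + t))
  unfold dualE at h1
  -- pointwise bound on the difference of the potentials
  have hpt : ∀ x, pot y (Function.update w i (w i + t)) x ≤
      pot y w x - t * (marginSet y w i t).indicator 1 x := by
    intro x
    by_cases hx : x ∈ marginSet y w i t
    · rw [pot_update_eq_of_mem y w i ht.le hx]
      simp [hx]
    · simp only [hx, not_false_eq_true, indicator_of_notMem, mul_zero, sub_zero]
      exact pot_update_le y w i ht.le x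
  have hind : Integrable ((marginSet y w i t).indicator (1 : Eu d → ℝ)) lam :=
    (integrable_const (1 : ℝ)).indicator (measurableSet_marginSet y w i t)
  have h2 : ∫ x, pot y (Function.update w i (w i + t)) x ∂lam ≤
      ∫ x, pot y w x ∂lam - t * lam.real (marginSet y w i t) := by
    have h3 : ∫ x, pot y (Function.update w i (w i + t)) x ∂lam ≤
        ∫ x, (pot y w x - t * (marginSet y w i t).indicator 1 x) ∂lam :=
      integral_mono (h.integrable_pot y _)
        ((h.integrable_pot y w).sub (hind.const_mul t)) hpt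
    rw [integral_sub (h.integrable_pot y w) (hind.const_mul t), integral_const_mul,
      integral_indicator_one (measurableSet_marginSet y w i t)] at h3
    exact h3
  have h4 : ∑ k, m k * Function.update w i (w i + t) k = ∑ k, m k * w k + m i * t := by
    have : ∀ k, m k * Function.update w i (w i + t) k = m k * w k + (if k = i then m i * t else 0) := by
      intro k
      by_cases hk : k = i
      · subst hk; simp; ring
      · simp [hk]
    simp only [this, Finset.sum_add_distrib, Finset.sum_ite_eq', Finset.mem_univ, if_true]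
  rw [h4] at h1
  have h5 : t * lam.real (marginSet y w i t) ≤ t * m i := by linarith
  exact le_of_mul_le_mul_left h5 ht

/-- First-order condition at `t = 0`, in terms of the pieces. -/
theorem Src.measure_piece_le (h : Src lam R) {y : ι → Eu d} (hy : Function.Injective y)
    {m w : ι → ℝ} (hmin : ∀ w', dualE lam y m w ≤ dualE lam y m w') (i : ι) :
    lam.real (piece y w i) ≤ m i := by
  classical
  have := h.prob
  -- the strict cell is the increasing union of margin sets
  let D : ℕ → Set (Eu d) := fun n => marginSet y w i (1 / ((n : ℝ) + 1))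
  have hDmono : Monotone D := by
    intro a b hab x hx k hk
    have := hx k hk
    have h1 : (1 : ℝ) / ((b : ℝ) + 1) ≤ 1 / ((a : ℝ) + 1) := by
      apply one_div_le_one_div_of_le (by positivity)
      have : (a : ℝ) ≤ b := by exact_mod_cast hab
      linarith
    linarith
  have hDle : ∀ n, lam (D n) ≤ ENNReal.ofReal (m i) := by
    intro n
    have h1 := h.measure_marginSet_le y hmin i (t := 1 / ((n : ℝ) + 1)) (by positivity)
    rw [← ofReal_measureReal (measure_ne_top lam _)]
    exact ENNReal.ofReal_le_ofReal h1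
  have hU : lam (⋃ n, D n) ≤ ENNReal.ofReal (m i) := by
    rw [hDmono.measure_iUnion]
    exact iSup_le hDle
  -- ties form a null set
  let Z : Set (Eu d) := ⋃ k, ⋃ _ : k ≠ i, {x | ⟪x, y i - y k⟫ = w i - w k}
  have hZ : lam Z = 0 := by
    refine (measure_iUnion_null_iff).2 fun k => (measure_iUnion_null_iff).2 fun hk => ?_
    exact h.null _ (sub_ne_zero.mpr fun e => hk (hy e).symm) _
  have hsub : piece y w i ⊆ (⋃ n, D n) ∪ Z := by
    intro x hx
    by_cases hxZ : x ∈ Z
    · exact Or.inr hxZ
    left
    have hstrict : ∀ k, k ≠ i → sc y w k x < sc y w i x := by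
      intro k hk
      refine lt_of_le_of_ne (sc_le_of_mem_piece hx k) fun he => hxZ ?_
      refine mem_iUnion.2 ⟨k, mem_iUnion.2 ⟨hk, ?_⟩⟩
      simp only [mem_ofPred_eq, inner_sub_right]
      unfold sc at he
      linarith
    -- a uniform margin
    by_cases hne : ∃ k, k ≠ i
    · obtain ⟨k0, hk0⟩ := hne
      obtain ⟨k1, hk1, hk1min⟩ := Finset.exists_min_image (Finset.univ.filter fun k => k ≠ i)
        (fun k => sc y w i x - sc y w k x) ⟨k0, by simp [hk0]⟩
      have hk1' : k1 ≠ i := by simpa using hk1
      have hpos : 0 < sc y w i x - sc y w k1 x := sub_pos.mpr (hstrict k1 hk1')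
      obtain ⟨n, hn⟩ := exists_nat_one_div_lt hpos
      refine mem_iUnion.2 ⟨n, fun k hk => ?_⟩
      have := hk1min k (by simp [hk])
      linarith
    · push Not at hne
      refine mem_iUnion.2 ⟨0, fun k hk => absurd (hne k) hk⟩
  have hle : lam (piece y w i) ≤ ENNReal.ofReal (m i) :=
    calc lam (piece y w i) ≤ lam ((⋃ n, D n) ∪ Z) := measure_mono hsub
      _ ≤ lam (⋃ n, D n) + lam Z := measure_union_le _ _
      _ ≤ ENNReal.ofReal (m i) := by rw [hZ, add_zero]; exact hU
  have hm0 : 0 ≤ m i := by
    by_contra hneg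
    push Not at hneg
    have h1 := h.measure_marginSet_le y hmin i (t := 1) one_pos
    have h2 : (0:ℝ) ≤ lam.real (marginSet y w i 1) := measureReal_nonneg
    linarith
  exact ENNReal.toReal_le_of_le_ofReal hm0 hle

/-- **Existence for the semi-discrete problem.** -/
theorem Src.exists_isOpt (h : Src lam R) (hR : 0 ≤ R) {y : ι → Eu d} (hy : Function.Injective y)
    {m : ι → ℝ} (hmpos : ∀ i, 0 < m i) (hm : ∑ i, m i = 1) :
    ∃ w : ι → ℝ, IsOpt lam y m w := by
  have := h.prob
  obtain ⟨w, hw⟩ := h.exists_minimizer hR y hmpos hm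
  refine ⟨w, ?_⟩
  have hle := fun i => h.measure_piece_le hy hw i
  have hsum : ∑ i, lam.real (piece y w i) = 1 := by
    have h1 := measureReal_iUnion_fintype (μ := lam) (f := piece y w)
      (pairwise_disjoint_piece y w) (measurableSet_piece y w)
    rw [iUnion_piece, probReal_univ] at h1
    exact h1.symm
  intro i
  by_contra hne
  have hlt : lam.real (piece y w i) < m i := lt_of_le_of_ne (hle i) hne
  have : ∑ k, lam.real (piece y w k) < ∑ k, m k :=
    Finset.sum_lt_sum (fun k _ => hle k) ⟨i, Finset.mem_univ _, hlt⟩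
  rw [hsum, hm] at this
  exact lt_irrefl _ this

end Crest.Agent.Lib.OTStab
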