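import Crest.Agent.Lib.OTStab.Basic

/-!
# Sources, optimal weights, moments and the dual functional.
-/

set_option autoImplicit false
set_option linter.unusedSectionVars false
set_option linter.unusedVariables false

open MeasureTheory Set Filter
open scoped ENNReal RealInnerProductSpace

namespace Crest.Agent.Lib.OTStab

variable {d : ℕ} {ι : Type} [Fintype ι] [Nonempty ι]

/-- A source: a probability measure with bounded support giving no mass to hyperplanes. -/
structure Src (lam : Measure (Eu d)) (R : ℝ) : Prop where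
  prob : IsProbabilityMeasure lam
  bdd : ∀ᵐ x ∂lam, ‖x‖ ≤ R
  null : ∀ a : Eu d, a ≠ 0 → ∀ c : ℝ, lam {x | ⟪x, a⟫ = c} = 0

/-- `w` solves the semi-discrete transport problem from `lam` to the atoms `(y, m)`. -/
def IsOpt (lam : Measure (Eu d)) (y : ι → Eu d) (m : ι → ℝ) (w : ι → ℝ) : Prop :=
  ∀ i, lam.real (piece y w i) = m i

/-- The moment of the Laguerre piece. -/
noncomputable def momt (lam : Measure (Eu d)) (y : ι → Eu d) (w : ι → ℝ) (i : ι) : Eu d :=
  ∫ x in piece y w i, x ∂lam

/-- The correlation of the Laguerre map. -/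
noncomputable def corr (lam : Measure (Eu d)) (y : ι → Eu d) (w : ι → ℝ) : ℝ :=
  ∑ i, ⟪momt lam y w i, y i⟫

/-- The dual functional. -/
noncomputable def dualE (lam : Measure (Eu d)) (y : ι → Eu d) (m : ι → ℝ) (w : ι → ℝ) : ℝ :=
  ∫ x, pot y w x ∂lam + ∑ i, m i * w i

section Src

variable {lam : Measure (Eu d)} {R : ℝ}

theorem Src.isProb (h : Src lam R) : IsProbabilityMeasure lam := h.prob

/-- Bounded a.e. and measurable implies integrable. -/
theorem Src.integrable_of_bound (h : Src lam R) {F : Type*} [NormedAddCommGroup F]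
    [MeasurableSpace F] [BorelSpace F] [SecondCountableTopology F] {g : Eu d → F} (hg : Measurable g) (C : ℝ)
    (hC : ∀ᵐ x ∂lam, ‖g x‖ ≤ C) : Integrable g lam := by
  have := h.prob
  exact Integrable.of_bound hg.aestronglyMeasurable C hC

theorem Src.integrable_id (h : Src lam R) : Integrable (fun x : Eu d => x) lam :=
  h.integrable_of_bound measurable_id R h.bdd

/-- Bound for the potential on the support. -/
theorem abs_pot_le (y : ι → Eu d) (w : ι → ℝ) {L : ℝ} (hL : ∀ i, ‖y i‖ ≤ L) (x : Eu d) :
    |pot y w x| ≤ |pot y w 0| + L * ‖x‖ := by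
  have h1 := pot_sub_le y w hL x 0
  have h2 := pot_sub_le y w hL 0 x
  simp only [sub_zero, zero_sub, norm_neg] at h1 h2
  rw [abs_le]
  have h3 := le_abs_self (pot y w 0)
  have h4 := neg_abs_le (pot y w 0)
  constructor <;> linarith

theorem exists_norm_bound (y : ι → Eu d) : ∃ L : ℝ, 0 ≤ L ∧ ∀ i, ‖y i‖ ≤ L :=
  ⟨∑ i, ‖y i‖, Finset.sum_nonneg (fun _ _ => norm_nonneg _),
    fun i => Finset.single_le_sum (f := fun i => ‖y i‖)
      (fun _ _ => norm_nonneg _) (Finset.mem_univ i)⟩

theorem Src.integrable_pot (h : Src lam R) (y : ι → Eu d) (w : ι → ℝ) :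
    Integrable (pot y w) lam := by
  obtain ⟨L, hL0, hL⟩ := exists_norm_bound y
  refine h.integrable_of_bound (measurable_pot y w) (|pot y w 0| + L * R) ?_
  filter_upwards [h.bdd] with x hx
  rw [Real.norm_eq_abs]
  have := abs_pot_le y w hL x
  have h2 : L * ‖x‖ ≤ L * R := mul_le_mul_of_nonneg_left hx hL0
  linarith

theorem Src.integrable_inner (h : Src lam R) (a : Eu d) :
    Integrable (fun x : Eu d => ⟪x, a⟫) lam := by
  refine h.integrable_of_bound (by fun_prop) (R * ‖a‖) ?_
  filter_upwards [h.bdd] with x hx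
  rw [Real.norm_eq_abs]
  refine (abs_real_inner_le_norm x a).trans ?_
  exact mul_le_mul_of_nonneg_right hx (norm_nonneg a)

/-- Integrals split over the pieces. -/
theorem integral_eq_sum_piece (y : ι → Eu d) (w : ι → ℝ) {F : Type*} [NormedAddCommGroup F]
    [NormedSpace ℝ F] {g : Eu d → F} (hg : Integrable g lam) :
    ∫ x, g x ∂lam = ∑ i, ∫ x in piece y w i, g x ∂lam := by
  rw [← integral_iUnion_fintype (measurableSet_piece y w) (pairwise_disjoint_piece y w)
    (fun i => hg.integrableOn), iUnion_piece, setIntegral_univ]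

theorem Src.setIntegral_inner (h : Src lam R) (y : ι → Eu d) (w : ι → ℝ) (i : ι) (a : Eu d) :
    ∫ x in piece y w i, ⟪x, a⟫ ∂lam = ⟪momt lam y w i, a⟫ := by
  unfold momt
  have := integral_inner (𝕜 := ℝ) (μ := lam.restrict (piece y w i)) (h.integrable_id.restrict) a
  simp only [real_inner_comm] at this ⊢
  rw [← this]

/-- Moments are bounded by the mass. -/
theorem Src.norm_momt_le (h : Src lam R) (y : ι → Eu d) (w : ι → ℝ) (i : ι) :
    ‖momt lam y w i‖ ≤ R * lam.real (piece y w i) := by
  have := h.prob
  unfold momt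
  have h1 : ∀ᵐ x ∂(lam.restrict (piece y w i)), ‖x‖ ≤ R := ae_restrict_of_ae h.bdd
  exact norm_setIntegral_le_of_norm_le_const_ae (measure_lt_top _ _) h1

/-- The fundamental inequality of duality: any competitor for the target sites `y'` and the
same masses dominates the correlation of the pieces of `w`. -/
theorem Src.sum_inner_le_dualE (h : Src lam R) {y y' : ι → Eu d} {m w : ι → ℝ} (w' : ι → ℝ)
    (hw : IsOpt lam y m w) :
    ∑ i, ⟪momt lam y w i, y' i⟫ ≤ dualE lam y' m w' := by
  have := h.prob
  unfold dualE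
  rw [integral_eq_sum_piece y w (h.integrable_pot y' w'), ← Finset.sum_add_distrib]
  refine Finset.sum_le_sum fun i _ => ?_
  have h1 : ∫ x in piece y w i, (⟪x, y' i⟫ - w' i) ∂lam ≤ ∫ x in piece y w i, pot y' w' x ∂lam := by
    refine setIntegral_mono ?_ (h.integrable_pot y' w').integrableOn ?_
    · exact ((h.integrable_inner (y' i)).sub (integrable_const _)).integrableOn
    · exact fun x => sc_le_pot y' w' i x
  rw [integral_sub (h.integrable_inner (y' i)).integrableOn (integrable_const _),
    h.setIntegral_inner, setIntegral_const, smul_eq_mul, hw i] at h1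
  linarith

/-- At a solution, the dual functional equals the correlation. -/
theorem Src.dualE_eq_corr (h : Src lam R) {y : ι → Eu d} {m w : ι → ℝ} (hw : IsOpt lam y m w) :
    dualE lam y m w = corr lam y w := by
  have := h.prob
  unfold dualE corr
  rw [integral_eq_sum_piece y w (h.integrable_pot y w), ← Finset.sum_add_distrib]
  refine Finset.sum_congr rfl fun i _ => ?_
  have h1 : ∫ x in piece y w i, pot y w x ∂lam = ∫ x in piece y w i, (⟪x, y i⟫ - w i) ∂lam := by
    refine setIntegral_congr_fun (measurableSet_piece y w i) fun x hx => ?_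
    exact (sc_eq_pot_of_mem_piece hx).symm
  rw [h1, integral_sub (h.integrable_inner (y i)).integrableOn (integrable_const _),
    h.setIntegral_inner, setIntegral_const, smul_eq_mul, hw i]
  ring

/-- A solution minimises the dual functional. -/
theorem Src.dualE_le (h : Src lam R) {y : ι → Eu d} {m w : ι → ℝ} (hw : IsOpt lam y m w)
    (w' : ι → ℝ) : dualE lam y m w ≤ dualE lam y m w' := by
  rw [h.dualE_eq_corr hw]
  exact h.sum_inner_le_dualE w' hw

/-- Correlation formula: integral of the inner product with the Laguerre map. -/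
theorem Src.corr_eq_integral (h : Src lam R) (y : ι → Eu d) (w : ι → ℝ) :
    corr lam y w = ∫ x, ⟪x, lagMap y w x⟫ ∂lam := by
  have hint : Integrable (fun x => ⟪x, lagMap y w x⟫) lam := by
    obtain ⟨L, hL0, hL⟩ := exists_norm_bound y
    refine h.integrable_of_bound ?_ (R * L) ?_
    · exact measurable_id.inner (measurable_lagMap y w)
    · filter_upwards [h.bdd] with x hx
      rw [Real.norm_eq_abs]
      refine (abs_real_inner_le_norm _ _).trans ?_
      exact mul_le_mul hx (hL _) (norm_nonneg _) ((norm_nonneg _).trans hx)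
  rw [integral_eq_sum_piece y w hint]
  unfold corr
  refine Finset.sum_congr rfl fun i _ => ?_
  rw [← h.setIntegral_inner]
  refine setIntegral_congr_fun (measurableSet_piece y w i) fun x hx => ?_
  simp only [lagMap_of_mem_piece hx]

end Src

end Crest.Agent.Lib.OTStab
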