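import Crest.Agent.Lib.OTStab.CD

/-!
# Telescoping along the linear interpolation of the sites, and the potential inequality (star).
-/

set_option autoImplicit false
set_option linter.unusedSectionVars false
set_option linter.unusedVariables false

open MeasureTheory Set Filter
open scoped ENNReal RealInnerProductSpace Topology
open Crest.AnalysisR.OT

namespace Crest.Agent.Lib.OTStab

variable {d : ℕ} {ι : Type} [Fintype ι] [Nonempty ι]
variable {K : Set (Eu d)} {R r : ℝ} {x0 : Eu d}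

/-- A real number is a proper fraction with a prime denominator for at most one prime. -/
theorem subsingleton_prime_denom (t : ℝ) :
    ({p : ℕ | p.Prime ∧ ∃ k : ℕ, 0 < k ∧ k < p ∧ t = (k : ℝ) / p}).Subsingleton := by
  rintro p ⟨hp, k, hk0, hkp, ht⟩ q ⟨hq, l, hl0, hlq, ht'⟩
  have hp0 : (p : ℝ) ≠ 0 := by exact_mod_cast hp.ne_zero
  have hq0 : (q : ℝ) ≠ 0 := by exact_mod_cast hq.ne_zero
  have h1 : (k : ℝ) * q = l * p := by
    rw [ht] at ht'
    field_simp at ht'
    linarith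
  have h2 : k * q = l * p := by exact_mod_cast h1
  have h3 : p ∣ k * q := ⟨l, by rw [h2]; ring⟩
  rcases (Nat.Prime.dvd_mul hp).mp h3 with h4 | h4
  · exact absurd (Nat.le_of_dvd hk0 h4) (not_le.mpr hkp)
  · exact (Nat.prime_dvd_prime_iff_eq hp hq).mp h4

/-- The good partition: for injective `y`, `z`, there are arbitrarily large `n` (primes) such that
all the interpolated site families `(1 - k/n) y + (k/n) z` are injective. -/
theorem exists_good_n {y z : ι → Eu d} (hy : Function.Injective y) (hz : Function.Injective z)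
    (N : ℕ) : ∃ n : ℕ, N < n ∧ 0 < n ∧ ∀ k : ℕ, k ≤ n →
      Function.Injective (fun i => (1 - (k : ℝ) / n) • y i + ((k : ℝ) / n) • z i) := by
  classical
  let bad : ι × ι → Set ℝ := fun p =>
    {t | (1 - t) • y p.1 + t • z p.1 = (1 - t) • y p.2 + t • z p.2}
  have hbad1 : ∀ p : ι × ι, p.1 ≠ p.2 → (bad p).Subsingleton := by
    rintro ⟨i, j⟩ hij t ht t' ht'
    simp only [bad, mem_ofPred_eq] at ht ht'
    by_contra hne
    have h1 : (1 - t) • (y i - y j) + t • (z i - z j) = 0 := by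
      have : (1 - t) • (y i - y j) + t • (z i - z j)
          = ((1 - t) • y i + t • z i) - ((1 - t) • y j + t • z j) := by module
      rw [this, ht, sub_self]
    have h2 : (1 - t') • (y i - y j) + t' • (z i - z j) = 0 := by
      have : (1 - t') • (y i - y j) + t' • (z i - z j)
          = ((1 - t') • y i + t' • z i) - ((1 - t') • y j + t' • z j) := by module
      rw [this, ht', sub_self]
    have h3 : (t' - t) • ((y i - y j) - (z i - z j)) = 0 := by
      have : (t' - t) • ((y i - y j) - (z i - z j))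
          = ((1 - t) • (y i - y j) + t • (z i - z j))
            - ((1 - t') • (y i - y j) + t' • (z i - z j)) := by module
      rw [this, h1, h2, sub_self]
    have h4 : (y i - y j) - (z i - z j) = 0 := by
      rcases smul_eq_zero.mp h3 with h | h
      · exact absurd (sub_eq_zero.mp h).symm hne
      · exact h
    have h5 : y i - y j = 0 := by
      have h6 : z i - z j = y i - y j := (sub_eq_zero.mp h4).symm
      rw [h6] at h1
      have : (1 - t) • (y i - y j) + t • (y i - y j) = y i - y j := by module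
      rwa [this] at h1
    exact hij (hy (sub_eq_zero.mp h5))
  have hBad : ({t | ∃ p : ι × ι, p.1 ≠ p.2 ∧ t ∈ bad p} : Set ℝ).Finite := by
    have : ({t | ∃ p : ι × ι, p.1 ≠ p.2 ∧ t ∈ bad p} : Set ℝ)
        = ⋃ p ∈ {p : ι × ι | p.1 ≠ p.2}, bad p := by
      ext t; simp
    rw [this]
    exact (Set.toFinite _).biUnion fun p hp => (hbad1 p hp).finite
  have hP : (⋃ t ∈ {t | ∃ p : ι × ι, p.1 ≠ p.2 ∧ t ∈ bad p},
      {p : ℕ | p.Prime ∧ ∃ k : ℕ, 0 < k ∧ k < p ∧ t = (k : ℝ) / p}).Finite :=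
    hBad.biUnion fun t _ => (subsingleton_prime_denom t).finite
  obtain ⟨M, hM⟩ := hP.bddAbove
  obtain ⟨n, hn, hnp⟩ := Nat.exists_infinite_primes (max N M + 1)
  have hnN : N < n := by have := le_max_left N M; omega
  have hnM : M < n := by have := le_max_right N M; omega
  have hn0 : 0 < n := hnp.pos
  refine ⟨n, hnN, hn0, fun k hk i j hij => ?_⟩
  by_contra hne
  have hn0' : (n : ℝ) ≠ 0 := by exact_mod_cast hn0.ne'
  simp only at hij
  rcases Nat.eq_zero_or_pos k with rfl | hk0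
  · simp only [Nat.cast_zero, zero_div, sub_zero, one_smul, zero_smul, add_zero] at hij
    exact hne (hy hij)
  rcases Nat.lt_or_ge k n with hkn | hkn
  · have hmem : n ∈ ⋃ t ∈ {t | ∃ p : ι × ι, p.1 ≠ p.2 ∧ t ∈ bad p},
        {p : ℕ | p.Prime ∧ ∃ k : ℕ, 0 < k ∧ k < p ∧ t = (k : ℝ) / p} := by
      simp only [mem_iUnion]
      exact ⟨(k : ℝ) / n, ⟨(i, j), hne, hij⟩, hnp, k, hk0, hkn, rfl⟩
    exact absurd (hM hmem) (not_le.mpr hnM)
  · have hkn' : k = n := le_antisymm hk hkn
    subst hkn'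
    have h1 : (k : ℝ) / k = 1 := div_self hn0'
    simp only [h1, sub_self, zero_smul, zero_add, one_smul] at hij
    exact hne (hz hij)

section core

variable {lam : Measure (Eu d)}

theorem Src.corr_unique (h : Src lam R) {Y : ι → Eu d} {m w w' : ι → ℝ} (hw : IsOpt lam Y m w)
    (hw' : IsOpt lam Y m w') : corr lam Y w = corr lam Y w' := by
  rw [← h.dualE_eq_corr hw, ← h.dualE_eq_corr hw']
  exact le_antisymm (h.dualE_le hw w') (h.dualE_le hw' w)

theorem Src.corr_sub_le (h : Src lam R) {Y Y' : ι → Eu d} {m w w' : ι → ℝ} (hw : IsOpt lam Y m w)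
    (hw' : IsOpt lam Y' m w') :
    corr lam Y w - corr lam Y' w' ≤ ∑ i, ⟪momt lam Y w i, Y i - Y' i⟫ := by
  have h1 := h.sum_inner_le_dualE (y' := Y') w' hw
  rw [h.dualE_eq_corr hw'] at h1
  simp only [inner_sub_right, Finset.sum_sub_distrib]
  unfold corr at *
  linarith

/-- Weighted Cauchy-Schwarz. -/
theorem sum_inner_le_weighted {A η : ι → Eu d} {m : ι → ℝ} (hm : ∀ i, 0 < m i) :
    ∑ i, ⟪A i, η i⟫ ≤ Real.sqrt (∑ i, ‖A i‖ ^ 2 / m i) * Real.sqrt (∑ i, m i * ‖η i‖ ^ 2) := by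
  have h1 : ∀ i, ⟪A i, η i⟫ ≤ (‖A i‖ / Real.sqrt (m i)) * (Real.sqrt (m i) * ‖η i‖) := by
    intro i
    have hs : Real.sqrt (m i) ≠ 0 := (Real.sqrt_pos.mpr (hm i)).ne'
    have : (‖A i‖ / Real.sqrt (m i)) * (Real.sqrt (m i) * ‖η i‖) = ‖A i‖ * ‖η i‖ := by
      field_simp
    rw [this]
    exact real_inner_le_norm _ _
  refine (Finset.sum_le_sum fun i _ => h1 i).trans ?_
  refine (Real.sum_mul_le_sqrt_mul_sqrt _ _ _).trans (le_of_eq ?_)
  congr 2
  · refine Finset.sum_congr rfl fun i _ => ?_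
    rw [div_pow, Real.sq_sqrt (hm i).le]
  · refine Finset.sum_congr rfl fun i _ => ?_
    rw [mul_pow, Real.sq_sqrt (hm i).le]

/-- The moments of an optimal solution have bounded weighted `L²`-norm. -/
theorem Src.sum_inner_momt_le (h : Src lam R) (hR : 0 ≤ R) {Y : ι → Eu d} {m w : ι → ℝ}
    (hm0 : ∀ i, 0 < m i) (hm : ∑ i, m i = 1) (hw : IsOpt lam Y m w) (η : ι → Eu d) :
    |∑ i, ⟪momt lam Y w i, η i⟫| ≤ R * Real.sqrt (∑ i, m i * ‖η i‖ ^ 2) := by
  have hsum : ∑ i, ‖momt lam Y w i‖ ^ 2 / m i ≤ R ^ 2 := by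
    have h1 : ∀ i, ‖momt lam Y w i‖ ^ 2 / m i ≤ R ^ 2 * m i := by
      intro i
      rw [div_le_iff₀ (hm0 i)]
      have h2 := h.norm_momt_le Y w i
      rw [hw i] at h2
      have h3 : ‖momt lam Y w i‖ ^ 2 ≤ (R * m i) ^ 2 :=
        pow_le_pow_left₀ (norm_nonneg _) h2 2
      nlinarith
    refine (Finset.sum_le_sum fun i _ => h1 i).trans (le_of_eq ?_)
    rw [← Finset.mul_sum, hm, mul_one]
  have hsq : Real.sqrt (∑ i, ‖momt lam Y w i‖ ^ 2 / m i) ≤ R := by
    rw [show R = Real.sqrt (R ^ 2) by rw [Real.sqrt_sq hR]]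
    exact Real.sqrt_le_sqrt hsum
  have hT : 0 ≤ Real.sqrt (∑ i, m i * ‖η i‖ ^ 2) := Real.sqrt_nonneg _
  rw [abs_le]
  constructor
  · have h1 := sum_inner_le_weighted (A := fun i => - momt lam Y w i) (η := η) hm0
    simp only [inner_neg_left, norm_neg, Finset.sum_neg_distrib] at h1
    have h2 := mul_le_mul_of_nonneg_right hsq hT
    linarith
  · have h1 := sum_inner_le_weighted (A := fun i => momt lam Y w i) (η := η) hm0
    have h2 := mul_le_mul_of_nonneg_right hsq hT
    linarith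

end core

section tele

variable {y z : ι → Eu d} {m : ι → ℝ} {s B : ℝ} {f : Eu d → ℝ}

/-- The telescoping inequality for a fixed good `n`. -/
theorem tele_n (hK : Body K R r x0) {y z : ι → Eu d} {m : ι → ℝ} (hmpos : ∀ i, 0 < m i)
    (hm : ∑ i, m i = 1) {s B : ℝ} {f : Eu d → ℝ} (hf : Measurable f) (hB : ∀ x, |f x| ≤ B)
    (hf0 : ∫ x, f x ∂(uniformProbOn K) = 0) (hs0 : 0 ≤ s) (hs : s * B ≤ 1 / 2)
    {w0 w1 w0' w1' : ι → ℝ}
    (hw0 : IsOpt (uniformProbOn K) y m w0) (hw1 : IsOpt (uniformProbOn K) z m w1)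
    (hw0' : IsOpt (pert (uniformProbOn K) s f) y m w0')
    (hw1' : IsOpt (pert (uniformProbOn K) s f) z m w1')
    {n : ℕ} (hn : 0 < n)
    (hgood : ∀ k : ℕ, k ≤ n →
      Function.Injective (fun i => (1 - (k : ℝ) / n) • y i + ((k : ℝ) / n) • z i)) :
    (corr (uniformProbOn K) y w0 - corr (uniformProbOn K) z w1)
        - (corr (pert (uniformProbOn K) s f) y w0' - corr (pert (uniformProbOn K) s f) z w1')
      ≤ 4 * R * s * Real.sqrt (∫ x, f x ^ 2 ∂(uniformProbOn K))
          * Real.sqrt (∑ i, m i * ‖y i - z i‖ ^ 2)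
        + 2 * R * Real.sqrt (∑ i, m i * ‖y i - z i‖ ^ 2) / n := by
  have hρ := hK.src
  have hR0 := hK.R_nonneg
  have hσ : Src (pert (uniformProbOn K) s f) R := hρ.src_pert hf hB hf0 hs0 hs
  set ρ := uniformProbOn K with hρdef
  set σ := pert ρ s f with hσdef
  set η : ι → Eu d := fun i => y i - z i with hη
  set τ : ℝ := Real.sqrt (∑ i, m i * ‖η i‖ ^ 2) with hτ
  set F : ℝ := Real.sqrt (∫ x, f x ^ 2 ∂ρ) with hF
  have hτ0 : 0 ≤ τ := Real.sqrt_nonneg _
  have hF0 : 0 ≤ F := Real.sqrt_nonneg _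
  have hn0 : (n : ℝ) ≠ 0 := by exact_mod_cast hn.ne'
  have hnpos : (0 : ℝ) < n := by exact_mod_cast hn
  set Y : ℕ → ι → Eu d := fun k i => (1 - (k : ℝ) / n) • y i + ((k : ℝ) / n) • z i with hY
  have hY0 : Y 0 = y := by
    funext i; simp [hY]
  have hYn : Y n = z := by
    funext i
    simp only [hY, div_self hn0, sub_self, zero_smul, zero_add, one_smul]
  have hYstep : ∀ k i, Y k i - Y (k + 1) i = (1 / (n : ℝ)) • η i := by
    intro k i
    simp only [hY, hη]
    push_cast
    have h1 : ((k : ℝ) + 1) / n = (k : ℝ) / n + 1 / n := by ring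
    rw [h1]
    module
  have hex : ∀ k, ∃ w : ι → ℝ, k ≤ n → IsOpt ρ (Y k) m w := by
    intro k
    by_cases hk : k ≤ n
    · obtain ⟨w, hw⟩ := hρ.exists_isOpt hR0 (hgood k hk) hmpos hm
      exact ⟨w, fun _ => hw⟩
    · exact ⟨0, fun h => absurd h hk⟩
  have hex' : ∀ k, ∃ w : ι → ℝ, k ≤ n → IsOpt σ (Y k) m w := by
    intro k
    by_cases hk : k ≤ n
    · obtain ⟨w, hw⟩ := hσ.exists_isOpt hR0 (hgood k hk) hmpos hm
      exact ⟨w, fun _ => hw⟩
    · exact ⟨0, fun h => absurd h hk⟩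
  choose W hW using hex
  choose W' hW' using hex'
  set a : ℕ → ℝ := fun k => corr ρ (Y k) (W k) with ha
  set b : ℕ → ℝ := fun k => corr σ (Y k) (W' k) with hb
  set c : ℕ → ℝ := fun k => ∑ i, ⟪momt σ (Y k) (W' k) i, η i⟫ with hc
  set e : ℕ → ℝ := fun k => ∑ i, ⟪momt ρ (Y k) (W k) i, η i⟫ with he
  have ha0 : corr ρ y w0 = a 0 := by
    have h1 := hW 0 (Nat.zero_le _)
    simp only [ha]
    rw [hY0] at h1 ⊢
    exact hρ.corr_unique hw0 h1
  have han : corr ρ z w1 = a n := by
    have h1 := hW n le_rfl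
    simp only [ha]
    rw [hYn] at h1 ⊢
    exact hρ.corr_unique hw1 h1
  have hb0 : corr σ y w0' = b 0 := by
    have h1 := hW' 0 (Nat.zero_le _)
    simp only [hb]
    rw [hY0] at h1 ⊢
    exact hσ.corr_unique hw0' h1
  have hbn : corr σ z w1' = b n := by
    have h1 := hW' n le_rfl
    simp only [hb]
    rw [hYn] at h1 ⊢
    exact hσ.corr_unique hw1' h1
  -- one step
  have hstep_a : ∀ k, k < n → a k - a (k + 1) ≤ (1 / (n : ℝ)) * e k := by
    intro k hk
    have h1 := hρ.corr_sub_le (hW k hk.le) (hW (k + 1) hk)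
    refine h1.trans (le_of_eq ?_)
    simp only [he, hYstep, inner_smul_right, Finset.mul_sum]
  have hstep_b : ∀ k, k < n → (1 / (n : ℝ)) * c (k + 1) ≤ b k - b (k + 1) := by
    intro k hk
    have h1 := hσ.corr_sub_le (hW' (k + 1) hk) (hW' k hk.le)
    have h2 : ∑ i, ⟪momt σ (Y (k + 1)) (W' (k + 1)) i, Y (k + 1) i - Y k i⟫
        = - ((1 / (n : ℝ)) * c (k + 1)) := by
      simp only [hc, Finset.mul_sum, ← Finset.sum_neg_distrib]
      refine Finset.sum_congr rfl fun i _ => ?_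
      rw [← neg_sub (Y k i) (Y (k + 1) i), hYstep, inner_neg_right, inner_smul_right]
    rw [h2] at h1
    simp only [hb]
    linarith
  -- the comparison of moments
  have hsqrt : Real.sqrt (16 * R ^ 2 * s ^ 2 * ∫ x, f x ^ 2 ∂ρ) = 4 * R * s * F := by
    have : 16 * R ^ 2 * s ^ 2 * ∫ x, f x ^ 2 ∂ρ = (4 * R * s) ^ 2 * ∫ x, f x ^ 2 ∂ρ := by ring
    rw [this, Real.sqrt_mul (by positivity), Real.sqrt_sq (by positivity)]
  have hdiff : ∀ k, k ≤ n → e k - c k ≤ 4 * R * s * F * τ := by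
    intro k hk
    have h1 := claimD hK (hgood k hk) hmpos hf hB hf0 hs0 hs (hW k hk) (hW' k hk)
    have h2 := sum_inner_le_weighted (A := fun i => momt ρ (Y k) (W k) i - momt σ (Y k) (W' k) i)
      (η := η) hmpos
    have h3 : Real.sqrt (∑ i, ‖momt ρ (Y k) (W k) i - momt σ (Y k) (W' k) i‖ ^ 2 / m i)
        ≤ 4 * R * s * F := by
      rw [← hsqrt]
      exact Real.sqrt_le_sqrt h1
    have h4 := mul_le_mul_of_nonneg_right h3 hτ0
    have h5 : e k - c k = ∑ i, ⟪momt ρ (Y k) (W k) i - momt σ (Y k) (W' k) i, η i⟫ := by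
      simp only [he, hc, inner_sub_left, Finset.sum_sub_distrib]
    rw [h5]
    exact h2.trans h4
  have hcbd : ∀ k, k ≤ n → |c k| ≤ R * τ := fun k hk =>
    hσ.sum_inner_momt_le hR0 hmpos hm (hW' k hk) η
  -- sum up
  have hsum : (a 0 - a n) - (b 0 - b n)
      ≤ ∑ k ∈ Finset.range n, (1 / (n : ℝ)) * ((e k - c k) + (c k - c (k + 1))) := by
    rw [← Finset.sum_range_sub' a n, ← Finset.sum_range_sub' b n, ← Finset.sum_sub_distrib]
    refine Finset.sum_le_sum fun k hk => ?_
    have hk' := Finset.mem_range.mp hk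
    have h1 := hstep_a k hk'
    have h2 := hstep_b k hk'
    have h3 : (1 / (n : ℝ)) * ((e k - c k) + (c k - c (k + 1)))
        = (1 / (n : ℝ)) * e k - (1 / (n : ℝ)) * c (k + 1) := by ring
    rw [h3]
    linarith
  have hsum2 : ∑ k ∈ Finset.range n, (1 / (n : ℝ)) * ((e k - c k) + (c k - c (k + 1)))
      = (1 / (n : ℝ)) * (∑ k ∈ Finset.range n, (e k - c k) + (c 0 - c n)) := by
    rw [← Finset.mul_sum, Finset.sum_add_distrib, Finset.sum_range_sub']
  have hsum3 : ∑ k ∈ Finset.range n, (e k - c k) ≤ n * (4 * R * s * F * τ) := by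
    have h1 : ∑ k ∈ Finset.range n, (e k - c k)
        ≤ ∑ k ∈ Finset.range n, (4 * R * s * F * τ) :=
      Finset.sum_le_sum fun k hk => hdiff k (Finset.mem_range.mp hk).le
    simpa using h1
  have hc2 : c 0 - c n ≤ 2 * R * τ := by
    have h1 := abs_le.mp (hcbd 0 (Nat.zero_le _))
    have h2 := abs_le.mp (hcbd n le_rfl)
    linarith [h1.2, h2.1]
  rw [ha0, han, hb0, hbn]
  refine hsum.trans ?_
  rw [hsum2]
  have h5 : (1 / (n : ℝ)) * (∑ k ∈ Finset.range n, (e k - c k) + (c 0 - c n))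
      ≤ (1 / (n : ℝ)) * (n * (4 * R * s * F * τ) + 2 * R * τ) :=
    mul_le_mul_of_nonneg_left (add_le_add hsum3 hc2) (by positivity)
  refine h5.trans (le_of_eq ?_)
  field_simp

/-- **Telescoping**: the difference of the correlation gaps between `ρ` and its perturbation. -/
theorem tele (hK : Body K R r x0) {y z : ι → Eu d} (hy : Function.Injective y)
    (hz : Function.Injective z) {m : ι → ℝ} (hmpos : ∀ i, 0 < m i) (hm : ∑ i, m i = 1)
    {s B : ℝ} {f : Eu d → ℝ} (hf : Measurable f) (hB : ∀ x, |f x| ≤ B)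
    (hf0 : ∫ x, f x ∂(uniformProbOn K) = 0) (hs0 : 0 ≤ s) (hs : s * B ≤ 1 / 2)
    {w0 w1 w0' w1' : ι → ℝ}
    (hw0 : IsOpt (uniformProbOn K) y m w0) (hw1 : IsOpt (uniformProbOn K) z m w1)
    (hw0' : IsOpt (pert (uniformProbOn K) s f) y m w0')
    (hw1' : IsOpt (pert (uniformProbOn K) s f) z m w1') :
    (corr (uniformProbOn K) y w0 - corr (uniformProbOn K) z w1)
        - (corr (pert (uniformProbOn K) s f) y w0' - corr (pert (uniformProbOn K) s f) z w1')
      ≤ 4 * R * s * Real.sqrt (∫ x, f x ^ 2 ∂(uniformProbOn K))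
          * Real.sqrt (∑ i, m i * ‖y i - z i‖ ^ 2) := by
  have hR0 := hK.R_nonneg
  refine le_of_forall_pos_le_add fun ε hε => ?_
  set τ : ℝ := Real.sqrt (∑ i, m i * ‖y i - z i‖ ^ 2) with hτ
  have hτ0 : 0 ≤ τ := Real.sqrt_nonneg _
  obtain ⟨N, hN⟩ := exists_nat_gt (2 * R * τ / ε)
  obtain ⟨n, hnN, hn0, hgood⟩ := exists_good_n hy hz N
  have h1 := tele_n hK hmpos hm hf hB hf0 hs0 hs hw0 hw1 hw0' hw1' hn0 hgood
  refine h1.trans (add_le_add le_rfl ?_)
  have hnpos : (0 : ℝ) < n := by exact_mod_cast hn0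
  rw [div_le_iff₀ hnpos]
  have h2 : (N : ℝ) < n := by exact_mod_cast hnN
  rw [div_lt_iff₀ hε] at hN
  nlinarith

/-- The dual functional of the perturbed source. -/
theorem dualE_pert (hK : Body K R r x0) {s B : ℝ} {f : Eu d → ℝ} (hf : Measurable f)
    (hB : ∀ x, |f x| ≤ B) (hs0 : 0 ≤ s) (hs : s * B ≤ 1 / 2) (Y : ι → Eu d) (m w : ι → ℝ) :
    dualE (pert (uniformProbOn K) s f) Y m w
      = dualE (uniformProbOn K) Y m w + s * ∫ x, pot Y w x * f x ∂(uniformProbOn K) := by
  have hρ := hK.src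
  have := hK.isProb
  have hpos : ∀ x, 0 ≤ 1 + s * f x := by
    intro x
    have h1 : |s * f x| ≤ s * B := by
      rw [abs_mul, abs_of_nonneg hs0]
      exact mul_le_mul_of_nonneg_left (hB x) hs0
    have h2 := (abs_le.mp h1).1
    linarith
  have h1 := integral_pert (ρ := uniformProbOn K) hf hpos (pot Y w) univ MeasurableSet.univ
  simp only [Measure.restrict_univ, smul_eq_mul] at h1
  have hint : Integrable (fun x => pot Y w x * f x) (uniformProbOn K) := by
    refine (hρ.integrable_pot Y w).mul_bdd (c := B) hf.aestronglyMeasurable ?_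
    exact ae_of_all _ fun x => by simpa [Real.norm_eq_abs] using hB x
  have h2 : ∀ x, (1 + s * f x) * pot Y w x = pot Y w x + s * (pot Y w x * f x) := by
    intro x; ring
  simp only [h2] at h1
  rw [integral_add (hρ.integrable_pot Y w) (hint.const_mul s), integral_const_mul] at h1
  unfold dualE
  rw [h1]
  ring

/-- **Star**: the potential inequality, with the near-optimality of the perturbed weights. -/
theorem star (hK : Body K R r x0) {y z : ι → Eu d} (hy : Function.Injective y)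
    (hz : Function.Injective z) {m : ι → ℝ} (hmpos : ∀ i, 0 < m i) (hm : ∑ i, m i = 1)
    {L : ℝ} (hzL : ∀ i, ‖z i‖ ≤ L)
    {s B : ℝ} {f : Eu d → ℝ} (hf : Measurable f) (hB : ∀ x, |f x| ≤ B)
    (hf0 : ∫ x, f x ∂(uniformProbOn K) = 0) (hs0 : 0 < s) (hs : s * B ≤ 1 / 2)
    {w0 w1 : ι → ℝ}
    (hw0 : IsOpt (uniformProbOn K) y m w0) (hw1 : IsOpt (uniformProbOn K) z m w1) :
    ∃ w' : ι → ℝ,
      (∫ x, (pot z w' x - pot y w0 x) * f x ∂(uniformProbOn K)
        ≤ 4 * R * Real.sqrt (∫ x, f x ^ 2 ∂(uniformProbOn K))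
            * Real.sqrt (∑ i, m i * ‖y i - z i‖ ^ 2)) ∧
      dualE (uniformProbOn K) z m w' - dualE (uniformProbOn K) z m w1 ≤ s * (4 * L * R * B) := by
  have hρ := hK.src
  have := hK.isProb
  have hR0 := hK.R_nonneg
  have hL0 : 0 ≤ L := (norm_nonneg _).trans (hzL (Classical.arbitrary ι))
  have hB0 : 0 ≤ B := (abs_nonneg _).trans (hB 0)
  have hσ : Src (pert (uniformProbOn K) s f) R := hρ.src_pert hf hB hf0 hs0.le hs
  obtain ⟨w', hw'⟩ := hσ.exists_isOpt hR0 hz hmpos hm
  obtain ⟨w0', hw0'⟩ := hσ.exists_isOpt hR0 hy hmpos hm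
  refine ⟨w', ?_, ?_⟩
  · have htele := tele hK hy hz hmpos hm hf hB hf0 hs0.le hs hw0 hw1 hw0' hw'
    have h1 : corr (pert (uniformProbOn K) s f) y w0'
        ≤ corr (uniformProbOn K) y w0 + s * ∫ x, pot y w0 x * f x ∂(uniformProbOn K) := by
      rw [← hσ.dualE_eq_corr hw0', ← hρ.dualE_eq_corr hw0,
        ← dualE_pert hK hf hB hs0.le hs y m w0]
      exact hσ.dualE_le hw0' w0
    have h2 : corr (uniformProbOn K) z w1 + s * ∫ x, pot z w' x * f x ∂(uniformProbOn K)
        ≤ corr (pert (uniformProbOn K) s f) z w' := by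
      rw [← hσ.dualE_eq_corr hw', ← hρ.dualE_eq_corr hw1, dualE_pert hK hf hB hs0.le hs z m w']
      have := hρ.dualE_le hw1 w'
      linarith
    have hint : ∀ (Y : ι → Eu d) (w : ι → ℝ),
        Integrable (fun x => pot Y w x * f x) (uniformProbOn K) := by
      intro Y w
      refine (hρ.integrable_pot Y w).mul_bdd (c := B) hf.aestronglyMeasurable ?_
      exact ae_of_all _ fun x => by simpa [Real.norm_eq_abs] using hB x
    have h3 : ∫ x, (pot z w' x - pot y w0 x) * f x ∂(uniformProbOn K)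
        = ∫ x, pot z w' x * f x ∂(uniformProbOn K) - ∫ x, pot y w0 x * f x ∂(uniformProbOn K) := by
      rw [← integral_sub (hint z w') (hint y w0)]
      refine integral_congr_ae (ae_of_all _ fun x => ?_)
      simp only [sub_mul]
    rw [h3]
    have h4 : s * (∫ x, pot z w' x * f x ∂(uniformProbOn K)
        - ∫ x, pot y w0 x * f x ∂(uniformProbOn K))
        ≤ s * (4 * R * Real.sqrt (∫ x, f x ^ 2 ∂(uniformProbOn K))
            * Real.sqrt (∑ i, m i * ‖y i - z i‖ ^ 2)) := by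
      have : s * (4 * R * Real.sqrt (∫ x, f x ^ 2 ∂(uniformProbOn K))
            * Real.sqrt (∑ i, m i * ‖y i - z i‖ ^ 2))
          = 4 * R * s * Real.sqrt (∫ x, f x ^ 2 ∂(uniformProbOn K))
            * Real.sqrt (∑ i, m i * ‖y i - z i‖ ^ 2) := by ring
      rw [this]
      linarith
    exact le_of_mul_le_mul_left h4 hs0
  · have h1 : dualE (pert (uniformProbOn K) s f) z m w' ≤ dualE (pert (uniformProbOn K) s f) z m w1 :=
      hσ.dualE_le hw' w1
    rw [dualE_pert hK hf hB hs0.le hs z m w', dualE_pert hK hf hB hs0.le hs z m w1] at h1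
    have hint : ∀ (w : ι → ℝ),
        Integrable (fun x => pot z w x * f x) (uniformProbOn K) := by
      intro w
      refine (hρ.integrable_pot z w).mul_bdd (c := B) hf.aestronglyMeasurable ?_
      exact ae_of_all _ fun x => by simpa [Real.norm_eq_abs] using hB x
    have hfint : Integrable f (uniformProbOn K) :=
      hρ.integrable_of_bound hf B (ae_of_all _ fun x => by simpa [Real.norm_eq_abs] using hB x)
    set G : Eu d → ℝ := fun x => ((pot z w1 x - pot z w1 0) - (pot z w' x - pot z w' 0)) * f x with hG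
    have hGeq : ∫ x, G x ∂(uniformProbOn K)
        = ∫ x, pot z w1 x * f x ∂(uniformProbOn K) - ∫ x, pot z w' x * f x ∂(uniformProbOn K) := by
      have h2 : ∀ x, G x = pot z w1 x * f x - pot z w' x * f x
          + (pot z w' 0 - pot z w1 0) * f x := by
        intro x; simp only [hG]; ring
      simp only [h2]
      have h3 : Integrable (fun x => pot z w1 x * f x - pot z w' x * f x) (uniformProbOn K) :=
        (hint w1).sub (hint w')
      rw [integral_add h3 (hfint.const_mul _),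
        integral_sub (hint w1) (hint w'), integral_const_mul, hf0, mul_zero, add_zero]
    have hpotbd : ∀ w : ι → ℝ, ∀ᵐ x ∂(uniformProbOn K), |pot z w x - pot z w 0| ≤ L * R := by
      intro w
      filter_upwards [hρ.bdd] with x hx
      have h2 := pot_sub_le z w hzL x 0
      have h3 := pot_sub_le z w hzL 0 x
      simp only [sub_zero, zero_sub, norm_neg] at h2 h3
      have h4 : L * ‖x‖ ≤ L * R := mul_le_mul_of_nonneg_left hx hL0
      rw [abs_le]
      constructor <;> linarith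
    have hGbd : ∀ᵐ x ∂(uniformProbOn K), ‖G x‖ ≤ 2 * (L * R) * B := by
      filter_upwards [hpotbd w1, hpotbd w'] with x h1x h2x
      simp only [hG, Real.norm_eq_abs, abs_mul]
      refine mul_le_mul ?_ (hB x) (abs_nonneg _) (by positivity)
      have := abs_sub (pot z w1 x - pot z w1 0) (pot z w' x - pot z w' 0)
      linarith
    have hGle : ∫ x, G x ∂(uniformProbOn K) ≤ 2 * (L * R) * B := by
      have h2 := norm_integral_le_of_norm_le_const hGbd
      simp only [probReal_univ, mul_one] at h2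
      exact (le_abs_self _).trans h2
    rw [hGeq] at hGle
    have h5 : s * (∫ x, pot z w1 x * f x ∂(uniformProbOn K)
        - ∫ x, pot z w' x * f x ∂(uniformProbOn K)) ≤ s * (2 * (L * R) * B) :=
      mul_le_mul_of_nonneg_left hGle hs0.le
    have h6 : s * (2 * (L * R) * B) ≤ s * (4 * L * R * B) := by
      apply mul_le_mul_of_nonneg_left _ hs0.le
      have : 0 ≤ L * R * B := by positivity
      nlinarith
    linarith

end tele

end Crest.Agent.Lib.OTStab
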