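import Crest.Prelude.Def_QuadraticTransport
import Mathlib

/-!
# Explicit wedge example for the sharpness of the exponent 1/3 (S0110)

Abstract part: a map `T` choosing, among finitely many sites `F`, a maximiser of `⟪x, s⟫`
is a quadratic optimal map, and every optimal map for the same target is a.e. also a maximiser.
-/

namespace Crest.Agent.Lib.OTStab.Wedge

open MeasureTheory Set
open scoped ENNReal NNReal RealInnerProductSpace
open Crest.AnalysisR.OT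

section Abstract

set_option linter.unusedSectionVars false

variable {E : Type*} [NormedAddCommGroup E] [InnerProductSpace ℝ E] [MeasurableSpace E]
  [BorelSpace E] [SecondCountableTopology E]

/-- a bound for points of a finite set -/
lemma norm_le_of_mem (F : Finset E) {s : E} (hs : s ∈ F) : ‖s‖ ≤ ∑ t ∈ F, ‖t‖ :=
  Finset.single_le_sum (f := fun t => ‖t‖) (fun _ _ => norm_nonneg _) hs

/-- The cost as real number formula. -/
lemma cost_eq (ρ : Measure E) [IsProbabilityMeasure ρ] {r : ℝ} (hr : ∀ᵐ x ∂ρ, ‖x‖ ≤ r)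
    (F : Finset E) (S : E → E) (hS : Measurable S) (hSF : ∀ᵐ x ∂ρ, S x ∈ F) :
    Integrable (fun x => ‖x‖ ^ 2) ρ ∧ Integrable (fun x => ⟪x, S x⟫) ρ ∧
    Integrable (fun x => ‖S x‖ ^ 2) ρ ∧
    0 ≤ ∫ x, ‖x‖ ^ 2 ∂ρ - 2 * ∫ x, ⟪x, S x⟫ ∂ρ + ∫ x, ‖S x‖ ^ 2 ∂ρ ∧
    ∫⁻ x, ‖x - S x‖ₑ ^ 2 ∂ρ =
      ENNReal.ofReal (∫ x, ‖x‖ ^ 2 ∂ρ - 2 * ∫ x, ⟪x, S x⟫ ∂ρ + ∫ x, ‖S x‖ ^ 2 ∂ρ) := by
  set R := ∑ t ∈ F, ‖t‖ with hR
  have hSb : ∀ᵐ x ∂ρ, ‖S x‖ ≤ R := hSF.mono fun x hx => norm_le_of_mem F hx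
  have h1 : Integrable (fun x => ‖x‖ ^ 2) ρ := by
    refine Integrable.of_bound (by fun_prop) (r ^ 2) ?_
    filter_upwards [hr] with x hx
    rw [Real.norm_of_nonneg (by positivity)]
    gcongr
  have h2 : Integrable (fun x => ⟪x, S x⟫) ρ := by
    refine Integrable.of_bound (by fun_prop) (r * R) ?_
    filter_upwards [hr, hSb] with x hx hx'
    rw [Real.norm_eq_abs]
    refine (abs_real_inner_le_norm _ _).trans ?_
    gcongr
    exact (norm_nonneg x).trans hx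
  have h3 : Integrable (fun x => ‖S x‖ ^ 2) ρ := by
    refine Integrable.of_bound (by fun_prop) (R ^ 2) ?_
    filter_upwards [hSb] with x hx
    rw [Real.norm_of_nonneg (by positivity)]
    gcongr
  have h4 : ∀ x, ‖x - S x‖ ^ 2 = ‖x‖ ^ 2 - 2 * ⟪x, S x⟫ + ‖S x‖ ^ 2 := fun x =>
    norm_sub_sq_real x (S x)
  have h5 : Integrable (fun x => ‖x - S x‖ ^ 2) ρ := by
    simp_rw [h4]
    exact (h1.sub (h2.const_mul 2)).add h3
  have h6 : ∫ x, ‖x - S x‖ ^ 2 ∂ρ = ∫ x, ‖x‖ ^ 2 ∂ρ - 2 * ∫ x, ⟪x, S x⟫ ∂ρ + ∫ x, ‖S x‖ ^ 2 ∂ρ := by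
    simp_rw [h4]
    have h12 : Integrable (fun x => ‖x‖ ^ 2 - 2 * ⟪x, S x⟫) ρ := h1.sub (h2.const_mul 2)
    rw [integral_add h12 h3, integral_sub h1 (h2.const_mul 2), integral_const_mul]
  refine ⟨h1, h2, h3, h6 ▸ integral_nonneg fun x => by positivity, ?_⟩
  rw [← h6, ofReal_integral_eq_lintegral_ofReal h5 (Filter.Eventually.of_forall fun x => by positivity)]
  refine lintegral_congr fun x => ?_
  rw [← ofReal_norm, ENNReal.ofReal_pow (norm_nonneg _)]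

/-- The argmax map is optimal, and any optimal map is a.e. an argmax map. -/
theorem opt_of_argmax (ρ : Measure E) [IsProbabilityMeasure ρ] {r : ℝ} (hr : ∀ᵐ x ∂ρ, ‖x‖ ≤ r)
    (F : Finset E) (T : E → E) (hT : Measurable T) (hTF : ∀ x, T x ∈ F)
    (hmax : ∀ x, ∀ s ∈ F, ⟪x, s⟫ ≤ ⟪x, T x⟫) :
    IsOptimalMap ρ (ρ.map T) T ∧
      ∀ T', IsOptimalMap ρ (ρ.map T) T' → ∀ᵐ x ∂ρ, T' x ∈ F ∧ ⟪x, T' x⟫ = ⟪x, T x⟫ := by
  have hFm : MeasurableSet ((F : Set E)ᶜ) := (F.finite_toSet.measurableSet).compl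
  have key : ∀ S : E → E, Measurable S → ρ.map S = ρ.map T →
      (∀ᵐ x ∂ρ, S x ∈ F) ∧ ∫ x, ‖S x‖ ^ 2 ∂ρ = ∫ x, ‖T x‖ ^ 2 ∂ρ := by
    intro S hS hST
    constructor
    · have : ρ (S ⁻¹' (F : Set E)ᶜ) = 0 := by
        rw [← Measure.map_apply hS hFm, hST, Measure.map_apply hT hFm]
        have : T ⁻¹' (F : Set E)ᶜ = ∅ := by
          ext x; simp [hTF x]
        rw [this, measure_empty]
      rw [ae_iff]
      exact this
    · have h1 : ∫ x, ‖S x‖ ^ 2 ∂ρ = ∫ y, ‖y‖ ^ 2 ∂(ρ.map S) :=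
        (integral_map (f := fun y => ‖y‖ ^ 2) hS.aemeasurable (continuous_norm.pow 2).aestronglyMeasurable).symm
      have h2 : ∫ x, ‖T x‖ ^ 2 ∂ρ = ∫ y, ‖y‖ ^ 2 ∂(ρ.map T) :=
        (integral_map (f := fun y => ‖y‖ ^ 2) hT.aemeasurable (continuous_norm.pow 2).aestronglyMeasurable).symm
      rw [h1, h2, hST]
  have hTae : ∀ᵐ x ∂ρ, T x ∈ F := Filter.Eventually.of_forall hTF
  obtain ⟨hT1, hT2, hT3, hT0, hTc⟩ := cost_eq ρ hr F T hT hTae
  constructor
  · refine ⟨hT, rfl, fun S hS hST => ?_⟩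
    obtain ⟨hSF, hSn⟩ := key S hS hST
    obtain ⟨hS1, hS2, hS3, hS0, hSc⟩ := cost_eq ρ hr F S hS hSF
    rw [hTc, hSc, hSn]
    apply ENNReal.ofReal_le_ofReal
    have : ∫ x, ⟪x, S x⟫ ∂ρ ≤ ∫ x, ⟪x, T x⟫ ∂ρ := by
      refine integral_mono_ae hS2 hT2 ?_
      filter_upwards [hSF] with x hx using hmax x _ hx
    linarith
  · rintro T' ⟨hT'm, hT'p, hT'o⟩
    obtain ⟨hSF, hSn⟩ := key T' hT'm hT'p
    obtain ⟨hS1, hS2, hS3, hS0, hSc⟩ := cost_eq ρ hr F T' hT'm hSF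
    have h0 := hT'o T hT rfl
    rw [hTc, hSc, hSn] at h0
    have hle : ∀ᵐ x ∂ρ, 0 ≤ ⟪x, T x⟫ - ⟪x, T' x⟫ := by
      filter_upwards [hSF] with x hx
      linarith [hmax x _ hx]
    have hI : ∫ x, ⟪x, T' x⟫ ∂ρ ≤ ∫ x, ⟪x, T x⟫ ∂ρ := by
      refine integral_mono_ae hS2 hT2 ?_
      filter_upwards [hSF] with x hx using hmax x _ hx
    have hge : ∫ x, ⟪x, T x⟫ ∂ρ ≤ ∫ x, ⟪x, T' x⟫ ∂ρ := by
      have := (ENNReal.ofReal_le_ofReal_iff hT0).mp h0
      linarith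
    have hz : ∫ x, (⟪x, T x⟫ - ⟪x, T' x⟫) ∂ρ = 0 := by
      rw [integral_sub hT2 hS2]
      linarith
    have hz' := (integral_eq_zero_iff_of_nonneg_ae hle (hT2.sub hS2)).mp hz
    filter_upwards [hSF, hz'] with x hx hx'
    refine ⟨hx, ?_⟩
    have : ⟪x, T x⟫ - ⟪x, T' x⟫ = 0 := hx'
    linarith

/-- A map with three values and positive masses has a three-atomic image. -/
theorem threeAtomic_map (ρ : Measure E) [IsProbabilityMeasure ρ] (τ : E → Fin 3)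
    (hτ : Measurable τ) (y : Fin 3 → E) (hy : Function.Injective y)
    (hpos : ∀ i, ρ (τ ⁻¹' {i}) ≠ 0) : IsThreeAtomic (ρ.map (y ∘ τ)) := by
  have hym : Measurable y := measurable_of_finite y
  refine ⟨y, hy, fun i => (ρ (τ ⁻¹' {i})).toReal, fun i => ?_, ?_⟩
  · exact ENNReal.toReal_pos (hpos i) (measure_ne_top _ _)
  · rw [← Measure.map_map hym hτ, Measure.map_eq_sum ρ τ hτ, Measure.sum_fintype,
      Measure.map_finset_sum' hym.aemeasurable]
    refine Finset.sum_congr rfl fun i _ => ?_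
    rw [Measure.map_smul, Measure.map_dirac' hym, ENNReal.ofReal_toReal (measure_ne_top _ _)]

end Abstract

section Concrete

variable {d : ℕ}

local notation "E" => EuclideanSpace ℝ (Fin d)

/-- The cube. -/
def Q (d : ℕ) : Set (EuclideanSpace ℝ (Fin d)) := {x | ∀ i, |x i| ≤ 1}

lemma measurableSet_Q : MeasurableSet (Q d) := by
  have : Q d = ⋂ i, {x : E | |x i| ≤ 1} := by ext x; simp [Q]
  rw [this]
  refine MeasurableSet.iInter fun i => ?_
  exact measurableSet_le (by fun_prop) measurable_const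

lemma volume_box (s : Fin d → Set ℝ) (hs : ∀ i, MeasurableSet (s i)) :
    volume {x : E | ∀ i, x i ∈ s i} = ∏ i, volume (s i) := by
  have h1 : {x : E | ∀ i, x i ∈ s i} = (@WithLp.ofLp 2 (Fin d → ℝ)) ⁻¹' (Set.pi univ s) := by
    ext x; simp
  rw [h1, (PiLp.volume_preserving_ofLp (Fin d)).measure_preimage
    (MeasurableSet.univ_pi hs).nullMeasurableSet, volume_pi_pi]

lemma Icc_eq : Icc (-1 : ℝ) 1 = {t : ℝ | |t| ≤ 1} := by
  ext t; simp [abs_le]

lemma Q_eq_box : Q d = {x : E | ∀ i, x i ∈ Icc (-1 : ℝ) 1} := by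
  ext x; simp [Q, abs_le]

lemma volume_Q : volume (Q d) = 2 ^ d := by
  rw [Q_eq_box, volume_box _ (fun _ => measurableSet_Icc)]
  simp only [Real.volume_Icc, Finset.prod_const, Finset.card_univ, Fintype.card_fin]
  norm_num

/-- The uniform probability measure on the cube. -/
noncomputable def ρ (d : ℕ) : Measure (EuclideanSpace ℝ (Fin d)) := uniformProbOn (Q d)

lemma ρ_apply {S : Set E} (hS : MeasurableSet S) :
    ρ d S = (2 ^ d)⁻¹ * volume (S ∩ Q d) := by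
  simp only [ρ, uniformProbOn, Measure.smul_apply, smul_eq_mul, Measure.restrict_apply hS,
    volume_Q]

instance : IsProbabilityMeasure (ρ d) := by
  constructor
  rw [ρ_apply MeasurableSet.univ, univ_inter, volume_Q]
  exact ENNReal.inv_mul_cancel (by positivity) (by finiteness)

lemma ρ_compl_Q : ρ d (Q d)ᶜ = 0 := by
  rw [ρ_apply measurableSet_Q.compl]
  simp

/-- Mass of a box given by conditions on two coordinates. -/
lemma ρ_pair {i₀ i₁ : Fin d} (hne : i₀ ≠ i₁) {A B : Set ℝ} (hA : MeasurableSet A)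
    (hB : MeasurableSet B) :
    ρ d {x : E | x i₀ ∈ A ∧ x i₁ ∈ B} =
      (volume (A ∩ Icc (-1) 1) / 2) * (volume (B ∩ Icc (-1) 1) / 2) := by
  have hm : MeasurableSet {x : E | x i₀ ∈ A ∧ x i₁ ∈ B} := by
    refine MeasurableSet.inter ?_ ?_
    · exact (by fun_prop : Measurable fun x : E => x i₀) hA
    · exact (by fun_prop : Measurable fun x : E => x i₁) hB
  rw [ρ_apply hm]
  set s : Fin d → Set ℝ := fun i => if i = i₀ then A ∩ Icc (-1) 1 else
    if i = i₁ then B ∩ Icc (-1) 1 else Icc (-1) 1 with hs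
  have hsm : ∀ i, MeasurableSet (s i) := by
    intro i
    simp only [hs]
    split_ifs
    · exact hA.inter measurableSet_Icc
    · exact hB.inter measurableSet_Icc
    · exact measurableSet_Icc
  have h1 : {x : E | x i₀ ∈ A ∧ x i₁ ∈ B} ∩ Q d = {x : E | ∀ i, x i ∈ s i} := by
    ext x
    simp only [mem_inter_iff, mem_ofPred_eq, Q_eq_box, hs]
    constructor
    · rintro ⟨⟨ha, hb⟩, hq⟩ i
      split_ifs with h1 h2
      · subst h1; exact ⟨ha, hq _⟩
      · subst h2; exact ⟨hb, hq _⟩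
      · exact hq _
    · intro h
      refine ⟨⟨?_, ?_⟩, fun i => ?_⟩
      · have := h i₀; simp only [if_true] at this; exact this.1
      · have := h i₁; rw [if_neg hne.symm, if_pos rfl] at this; exact this.1
      · have := h i
        split_ifs at this
        · exact this.2
        · exact this.2
        · exact this
  rw [h1, volume_box s hsm]
  have h2 : ((2 : ℝ≥0∞) ^ d)⁻¹ = ∏ _i : Fin d, (2 : ℝ≥0∞)⁻¹ := by simp [ENNReal.inv_pow]
  rw [h2, ← Finset.prod_mul_distrib, Finset.prod_eq_mul i₀ i₁ hne]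
  · simp only [hs, if_true, if_neg hne.symm]
    simp only [div_eq_mul_inv]
    ring
  · intro c _ hc
    simp only [hs, if_neg hc.1, if_neg hc.2, Real.volume_Icc]
    norm_num
    exact ENNReal.inv_mul_cancel (by norm_num) (by norm_num)
  · intro h; exact absurd (Finset.mem_univ _) h
  · intro h; exact absurd (Finset.mem_univ _) h

lemma ae_Q : ∀ᵐ x ∂(ρ d), x ∈ Q d := by
  rw [ae_iff]; exact ρ_compl_Q

lemma norm_le_of_Q : ∀ᵐ x ∂(ρ d), ‖x‖ ≤ Real.sqrt d := by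
  filter_upwards [ae_Q] with x hx
  rw [EuclideanSpace.norm_eq]
  apply Real.sqrt_le_sqrt
  have : ∀ i ∈ Finset.univ, ‖x i‖ ^ 2 ≤ 1 := by
    intro i _
    have := hx i
    rw [Real.norm_eq_abs]
    nlinarith [abs_nonneg (x i)]
  calc ∑ i, ‖x i‖ ^ 2 ≤ ∑ _i : Fin d, (1 : ℝ) := Finset.sum_le_sum this
    _ = d := by simp

/-- The reflection `x_{i₁} ↦ -x_{i₁}`. -/
noncomputable def R (i₁ : Fin d) : E ≃ₗᵢ[ℝ] E :=
  LinearIsometryEquiv.piLpCongrRight 2 (fun i =>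
    if i = i₁ then LinearIsometryEquiv.neg ℝ else LinearIsometryEquiv.refl ℝ ℝ)

lemma R_apply (i₁ : Fin d) (x : E) (i : Fin d) : (R i₁ x) i = if i = i₁ then - x i else x i := by
  simp only [R, LinearIsometryEquiv.piLpCongrRight_apply]
  split_ifs <;> simp

lemma R_R (i₁ : Fin d) (x : E) : R i₁ (R i₁ x) = x := by
  ext i
  simp only [R_apply]
  split_ifs <;> simp

lemma measurable_R (i₁ : Fin d) : Measurable (R i₁) := (R i₁).continuous.measurable

lemma R_preimage_Q (i₁ : Fin d) : (R i₁) ⁻¹' (Q d) = Q d := by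
  ext x
  simp only [Q, mem_preimage, mem_ofPred_eq, R_apply]
  refine forall_congr' fun i => ?_
  split_ifs <;> simp

lemma map_R_ρ (i₁ : Fin d) : (ρ d).map (R i₁) = ρ d := by
  have h1 : MeasurePreserving (R i₁) (volume.restrict ((R i₁) ⁻¹' (Q d))) (volume.restrict (Q d)) :=
    ((R i₁).measurePreserving).restrict_preimage measurableSet_Q
  rw [R_preimage_Q] at h1
  simp only [ρ, uniformProbOn]
  rw [Measure.map_smul, h1.map_eq]

section Maps

variable (i₀ i₁ : Fin d) (h : ℝ)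

open Classical in
/-- Label of the chosen site. -/
noncomputable def τ (x : E) : Fin 3 :=
  if |x i₀| ≤ h * x i₁ then 2 else if 0 ≤ x i₀ then 0 else 1

lemma measurable_τ : Measurable (τ (d := d) i₀ i₁ h) := by
  unfold τ
  refine Measurable.ite ?_ measurable_const (Measurable.ite ?_ measurable_const measurable_const)
  · exact measurableSet_le (by fun_prop) (by fun_prop)
  · exact measurableSet_le measurable_const (by fun_prop)

/-- The three sites. -/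
noncomputable def y : Fin 3 → E :=
  ![EuclideanSpace.single i₀ 1, EuclideanSpace.single i₀ (-1), EuclideanSpace.single i₁ h]

/-- The argmax map. -/
noncomputable def T (x : E) : E := y i₀ i₁ h (τ i₀ i₁ h x)

lemma measurable_T : Measurable (T (d := d) i₀ i₁ h) :=
  (measurable_of_finite (y i₀ i₁ h)).comp (measurable_τ i₀ i₁ h)

open Classical in
/-- The site set. -/
noncomputable def F : Finset E := Finset.univ.image (y i₀ i₁ h)

lemma T_mem_F (x : E) : T i₀ i₁ h x ∈ F i₀ i₁ h := by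
  simp [F, T]

lemma inner_y0 (x : E) : ⟪x, y i₀ i₁ h 0⟫ = x i₀ := by
  simp [y, EuclideanSpace.inner_single_right]

lemma inner_y1 (x : E) : ⟪x, y i₀ i₁ h 1⟫ = - x i₀ := by
  simp [y, EuclideanSpace.inner_single_right]

lemma inner_y2 (x : E) : ⟪x, y i₀ i₁ h 2⟫ = h * x i₁ := by
  simp [y, EuclideanSpace.inner_single_right]

lemma forall_fin3 {P : Fin 3 → Prop} (h0 : P 0) (h1 : P 1) (h2 : P 2) : ∀ j, P j := by
  intro j; fin_cases j <;> assumption

lemma inner_T (x : E) : max |x i₀| (h * x i₁) = ⟪x, T i₀ i₁ h x⟫ := by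
  unfold T τ
  split_ifs with h1 h2
  · rw [inner_y2, max_eq_right h1]
  · rw [inner_y0, max_eq_left (not_le.mp h1).le, abs_of_nonneg h2]
  · rw [inner_y1, max_eq_left (not_le.mp h1).le, abs_of_neg (not_le.mp h2)]

lemma argmax (x : E) : ∀ s ∈ F i₀ i₁ h, ⟪x, s⟫ ≤ ⟪x, T i₀ i₁ h x⟫ := by
  intro s hs
  simp only [F, Finset.mem_image, Finset.mem_univ, true_and] at hs
  obtain ⟨j, rfl⟩ := hs
  rw [← inner_T]
  revert j
  refine forall_fin3 ?_ ?_ ?_
  · rw [inner_y0]; exact (le_abs_self _).trans (le_max_left _ _)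
  · rw [inner_y1]; exact (neg_le_abs _).trans (le_max_left _ _)
  · rw [inner_y2]; exact le_max_right _ _

lemma y_coord (hne : i₀ ≠ i₁) (j : Fin 3) :
    (y (d := d) i₀ i₁ h j) i₀ = (![1, -1, 0] : Fin 3 → ℝ) j := by
  revert j
  refine forall_fin3 ?_ ?_ ?_ <;> simp [y, PiLp.single_apply, hne]

lemma y_injective (hne : i₀ ≠ i₁) : Function.Injective (y (d := d) i₀ i₁ h) := by
  intro j j' hjj
  have := congrArg (fun z : E => z i₀) hjj
  simp only [y_coord i₀ i₁ h hne] at this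
  fin_cases j <;> fin_cases j' <;> first | rfl | (exfalso; norm_num at this)

lemma R_y (hne : i₀ ≠ i₁) (j : Fin 3) : R i₁ (y i₀ i₁ h j) = y i₀ i₁ (-h) j := by
  ext i
  rw [R_apply]
  revert j
  refine forall_fin3 ?_ ?_ ?_
  · by_cases h1 : i = i₁
    · subst h1; simp [y, PiLp.single_apply, hne.symm]
    · simp [y, PiLp.single_apply, h1]
  · by_cases h1 : i = i₁
    · subst h1; simp [y, PiLp.single_apply, hne.symm]
    · simp [y, PiLp.single_apply, h1]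
  · by_cases h1 : i = i₁
    · subst h1; simp [y, PiLp.single_apply]
    · simp [y, PiLp.single_apply, h1]

lemma τ_R (hne : i₀ ≠ i₁) (x : E) : τ i₀ i₁ h (R i₁ x) = τ i₀ i₁ (-h) x := by
  unfold τ
  simp only [R_apply, if_neg hne, if_true]
  have : h * - x i₁ = (-h) * x i₁ := by ring
  rw [this]

lemma T_neg (hne : i₀ ≠ i₁) : T (d := d) i₀ i₁ (-h) = R i₁ ∘ T i₀ i₁ h ∘ R i₁ := by
  funext x
  simp only [T, Function.comp, τ_R i₀ i₁ h hne, R_y i₀ i₁ h hne]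

lemma map_T_neg (hne : i₀ ≠ i₁) :
    (ρ d).map (T i₀ i₁ (-h)) = ((ρ d).map (T i₀ i₁ h)).map (R i₁) := by
  rw [T_neg i₀ i₁ h hne]
  have hm := measurable_T (d := d) i₀ i₁ h
  have hR := measurable_R (d := d) i₁
  conv_lhs => rw [← map_R_ρ i₁]
  rw [Measure.map_map (hR.comp (hm.comp hR)) hR, Measure.map_map hR hm]
  congr 1
  funext x
  simp [R_R]

lemma y_mem_Q (hle : |h| ≤ 1) (j : Fin 3) : y (d := d) i₀ i₁ h j ∈ Q d := by
  intro i
  revert j
  refine forall_fin3 ?_ ?_ ?_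
  · simp only [y, PiLp.single_apply]; simp; split_ifs <;> simp
  · simp only [y, PiLp.single_apply]; simp; split_ifs <;> simp
  · simp only [y, PiLp.single_apply]; simp; split_ifs <;> simp [hle]

end Maps

lemma half_ofReal (a : ℝ) : ENNReal.ofReal a / 2 = ENNReal.ofReal (a / 2) := by
  rw [ENNReal.ofReal_div_of_pos (by norm_num)]; norm_num

lemma ρ_pair' {i₀ i₁ : Fin d} (hne : i₀ ≠ i₁) {A B : Set ℝ} (hA : MeasurableSet A)
    (hB : MeasurableSet B) (hAI : A ⊆ Icc (-1) 1) (hBI : B ⊆ Icc (-1) 1) {a b : ℝ}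
    (ha : volume A = ENNReal.ofReal a) (hb : volume B = ENNReal.ofReal b) (ha0 : 0 ≤ a) :
    ρ d {x : E | x i₀ ∈ A ∧ x i₁ ∈ B} = ENNReal.ofReal (a / 2 * (b / 2)) := by
  rw [ρ_pair hne hA hB, inter_eq_left.mpr hAI, inter_eq_left.mpr hBI, ha, hb, half_ofReal,
    half_ofReal, ENNReal.ofReal_mul (by positivity)]

section Masses

variable {i₀ i₁ : Fin d} {h : ℝ}

/-- the thin central box. -/
def W (i₀ i₁ : Fin d) (h : ℝ) : Set E :=
  {x : E | x i₀ ∈ Ioo (-(h / 2)) (h / 2) ∧ x i₁ ∈ Icc (1 / 2 : ℝ) 1}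

lemma measurableSet_W (i₀ i₁ : Fin d) (h : ℝ) : MeasurableSet (W i₀ i₁ h) := by
  refine MeasurableSet.inter ?_ ?_
  · exact (by fun_prop : Measurable fun x : E => x i₀) measurableSet_Ioo
  · exact (by fun_prop : Measurable fun x : E => x i₁) measurableSet_Icc

lemma ρ_W (hne : i₀ ≠ i₁) (h0 : 0 < h) (h1 : h < 1) :
    ρ d (W i₀ i₁ h) = ENNReal.ofReal (h / 8) := by
  have hA : Ioo (-(h / 2)) (h / 2) ⊆ Icc (-1 : ℝ) 1 := by
    intro t ht; constructor <;> linarith [ht.1, ht.2]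
  have hB : Icc (1 / 2 : ℝ) 1 ⊆ Icc (-1 : ℝ) 1 := by
    intro t ht; constructor <;> linarith [ht.1, ht.2]
  unfold W
  rw [ρ_pair' hne measurableSet_Ioo measurableSet_Icc hA hB (a := h) (b := 1 / 2) ?_ ?_ h0.le]
  · congr 1; ring
  · rw [Real.volume_Ioo]; congr 1; ring
  · rw [Real.volume_Icc]; congr 1; ring

lemma W_imp {x : E} (h0 : 0 < h) (hx : x ∈ W i₀ i₁ h) : |x i₀| < h * x i₁ := by
  obtain ⟨hx1, hx2⟩ := hx
  rw [abs_lt]
  have : h * (1 / 2) ≤ h * x i₁ := by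
    apply mul_le_mul_of_nonneg_left hx2.1 h0.le
  constructor <;> linarith [hx1.1, hx1.2]

lemma τ_two_pos (hne : i₀ ≠ i₁) (h0 : 0 < h) (h1 : h < 1) :
    ρ d (τ i₀ i₁ h ⁻¹' {2}) ≠ 0 := by
  have hsub : W i₀ i₁ h ⊆ τ i₀ i₁ h ⁻¹' {2} := by
    intro x hx
    simp [τ, (W_imp h0 hx).le]
  intro h2
  have := measure_mono_null hsub h2
  rw [ρ_W hne h0 h1] at this
  simp only [ENNReal.ofReal_eq_zero] at this
  linarith

lemma τ_zero_pos (hne : i₀ ≠ i₁) (h0 : 0 < h) (h1 : h < 1) :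
    ρ d (τ i₀ i₁ h ⁻¹' {0}) ≠ 0 := by
  have hsub : {x : E | x i₀ ∈ Ioc h 1 ∧ x i₁ ∈ Icc (-1 : ℝ) 1} ⊆ τ i₀ i₁ h ⁻¹' {0} := by
    rintro x ⟨hx1, hx2⟩
    have h3 : h * x i₁ < |x i₀| := by
      have : h * x i₁ ≤ h * 1 := mul_le_mul_of_nonneg_left hx2.2 h0.le
      have h4 : x i₀ ≤ |x i₀| := le_abs_self _
      linarith [hx1.1]
    have h5 : 0 ≤ x i₀ := by linarith [hx1.1]
    simp [τ, not_le.mpr h3, h5]
  intro h2
  have := measure_mono_null hsub h2
  rw [ρ_pair' hne measurableSet_Ioc measurableSet_Icc (a := 1 - h) (b := 2)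
    (fun t ht => ⟨by linarith [ht.1], ht.2⟩) subset_rfl (by rw [Real.volume_Ioc])
    (by rw [Real.volume_Icc]; norm_num) (by linarith)] at this
  simp only [ENNReal.ofReal_eq_zero] at this
  nlinarith

lemma τ_one_pos (hne : i₀ ≠ i₁) (h0 : 0 < h) (h1 : h < 1) :
    ρ d (τ i₀ i₁ h ⁻¹' {1}) ≠ 0 := by
  have hsub : {x : E | x i₀ ∈ Ico (-1) (-h) ∧ x i₁ ∈ Icc (-1 : ℝ) 1} ⊆ τ i₀ i₁ h ⁻¹' {1} := by
    rintro x ⟨hx1, hx2⟩
    have h3 : h * x i₁ < |x i₀| := by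
      have : h * x i₁ ≤ h * 1 := mul_le_mul_of_nonneg_left hx2.2 h0.le
      have h4 : - x i₀ ≤ |x i₀| := neg_le_abs _
      linarith [hx1.2]
    have h5 : ¬ 0 ≤ x i₀ := by linarith [hx1.2]
    simp [τ, not_le.mpr h3, h5]
  intro h2
  have := measure_mono_null hsub h2
  rw [ρ_pair' hne measurableSet_Ico measurableSet_Icc (a := 1 - h) (b := 2)
    (fun t ht => ⟨ht.1, by linarith [ht.2]⟩) subset_rfl
    (by rw [Real.volume_Ico]; congr 1; ring)
    (by rw [Real.volume_Icc]; norm_num) (by linarith)] at this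
  simp only [ENNReal.ofReal_eq_zero] at this
  nlinarith

lemma τ_pos (hne : i₀ ≠ i₁) (h0 : 0 < h) (h1 : h < 1) (j : Fin 3) :
    ρ d (τ i₀ i₁ h ⁻¹' {j}) ≠ 0 := by
  revert j
  refine forall_fin3 ?_ ?_ ?_
  · exact τ_zero_pos hne h0 h1
  · exact τ_one_pos hne h0 h1
  · exact τ_two_pos hne h0 h1

lemma τ_two_le (hne : i₀ ≠ i₁) (h0 : 0 < h) (h1 : h < 1) :
    ρ d (τ i₀ i₁ h ⁻¹' {2}) ≤ ENNReal.ofReal h := by
  have hle : ρ d (τ i₀ i₁ h ⁻¹' {2}) ≤ ρ d {x : E | x i₀ ∈ Icc (-h) h ∧ x i₁ ∈ Icc (-1 : ℝ) 1} := by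
    refine measure_mono_ae ?_
    filter_upwards [ae_Q] with x hx hs
    have hx1 : |x i₁| ≤ 1 := hx i₁
    have hs2 : |x i₀| ≤ h * x i₁ := by
      by_contra hcon
      have : τ i₀ i₁ h x = 2 := hs
      simp only [τ, if_neg hcon] at this
      split_ifs at this <;> simp at this
    have h3 : x i₁ ≤ 1 := (abs_le.mp hx1).2
    have h4 : h * x i₁ ≤ h * 1 := mul_le_mul_of_nonneg_left h3 h0.le
    refine ⟨?_, abs_le.mp hx1⟩
    have h5 : |x i₀| ≤ h := by linarith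
    exact abs_le.mp h5
  refine hle.trans (le_of_eq ?_)
  rw [ρ_pair' hne measurableSet_Icc measurableSet_Icc (a := 2 * h) (b := 2)
    (fun t ht => ⟨by linarith [ht.1], by linarith [ht.2]⟩) subset_rfl
    (by rw [Real.volume_Icc]; congr 1; ring)
    (by rw [Real.volume_Icc]; norm_num) (by linarith)]
  congr 1; ring

/-- The transport cost of the reflection coupling. -/
lemma cost_le (hne : i₀ ≠ i₁) (h0 : 0 < h) (h1 : h < 1) :
    quadCost (((ρ d).map (T i₀ i₁ h)).map fun z => (z, R i₁ z)) ≤ ENNReal.ofReal (4 * h ^ 3) := by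
  have hTm := measurable_T (d := d) i₀ i₁ h
  have hg : Measurable fun z : E => (z, R i₁ z) := measurable_id.prodMk (measurable_R i₁)
  have hc : Measurable fun p : E × E => ‖p.1 - p.2‖ₑ ^ 2 := by fun_prop
  unfold quadCost
  rw [lintegral_map hc hg, lintegral_map (by fun_prop) hTm]
  have hpt : ∀ x : E, ‖T i₀ i₁ h x - R i₁ (T i₀ i₁ h x)‖ₑ ^ 2 ≤
      (τ i₀ i₁ h ⁻¹' {2}).indicator (fun _ => ENNReal.ofReal (4 * h ^ 2)) x := by
    intro x
    simp only [T]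
    rw [R_y i₀ i₁ h hne]
    by_cases hx : τ i₀ i₁ h x = 2
    · rw [indicator_of_mem (by exact hx), hx]
      have : y (d := d) i₀ i₁ h 2 - y i₀ i₁ (-h) 2 = EuclideanSpace.single i₁ (2 * h) := by
        ext i
        by_cases hi : i = i₁
        · subst hi; simp [y]; ring
        · simp [y, hi]
      rw [this, ← ofReal_norm, PiLp.norm_single, ← ENNReal.ofReal_pow (norm_nonneg _),
        Real.norm_eq_abs, sq_abs]
      apply ENNReal.ofReal_le_ofReal
      nlinarith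
    · rw [indicator_of_notMem (by exact hx)]
      have hj : y (d := d) i₀ i₁ h (τ i₀ i₁ h x) = y i₀ i₁ (-h) (τ i₀ i₁ h x) := by
        generalize τ i₀ i₁ h x = j at hx
        fin_cases j
        · simp [y]
        · simp [y]
        · exact absurd rfl hx
      rw [hj]; simp
  calc ∫⁻ x, ‖T i₀ i₁ h x - R i₁ (T i₀ i₁ h x)‖ₑ ^ 2 ∂(ρ d)
      ≤ ∫⁻ x, (τ i₀ i₁ h ⁻¹' {2}).indicator (fun _ => ENNReal.ofReal (4 * h ^ 2)) x ∂(ρ d) :=
        lintegral_mono hpt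
    _ = ENNReal.ofReal (4 * h ^ 2) * ρ d (τ i₀ i₁ h ⁻¹' {2}) := by
        rw [lintegral_indicator ((measurable_τ i₀ i₁ h) (measurableSet_singleton _)),
          lintegral_const, Measure.restrict_apply_univ]
    _ ≤ ENNReal.ofReal (4 * h ^ 2) * ENNReal.ofReal h := by
        gcongr; exact τ_two_le hne h0 h1
    _ = ENNReal.ofReal (4 * h ^ 3) := by
        rw [← ENNReal.ofReal_mul (by positivity)]; congr 1; ring

/-- Lower bound of the map difference. -/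
lemma gap_ge (hne : i₀ ≠ i₁) (h0 : 0 < h) (h1 : h < 1) (Tμ Tν : E → E)
    (hμ : ∀ᵐ x ∂(ρ d), Tμ x ∈ F i₀ i₁ h ∧ ⟪x, Tμ x⟫ = ⟪x, T i₀ i₁ h x⟫)
    (hν : ∀ᵐ x ∂(ρ d), Tν x ∈ F i₀ i₁ (-h) ∧ ⟪x, Tν x⟫ = ⟪x, T i₀ i₁ (-h) x⟫) :
    ENNReal.ofReal (h / 8) ≤ ∫⁻ x, ‖Tμ x - Tν x‖ₑ ^ 2 ∂(ρ d) := by
  have hind : ∀ᵐ x ∂(ρ d), (W i₀ i₁ h).indicator (fun _ => (1 : ℝ≥0∞)) x ≤ ‖Tμ x - Tν x‖ₑ ^ 2 := by
    filter_upwards [hμ, hν] with x hxμ hxν
    by_cases hx : x ∈ W i₀ i₁ h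
    · rw [indicator_of_mem hx]
      have hlt := W_imp h0 hx
      have habs := abs_nonneg (x i₀)
      -- identify `Tμ x`
      obtain ⟨hF, hI⟩ := hxμ
      simp only [F, Finset.mem_image, Finset.mem_univ, true_and] at hF
      obtain ⟨j, hj⟩ := hF
      rw [← inner_T, max_eq_right hlt.le, ← hj] at hI
      have hj2 : j = 2 := by
        revert hI hj
        revert j
        refine forall_fin3 ?_ ?_ ?_
        · intro hI _; rw [inner_y0] at hI
          exact absurd hI (ne_of_lt ((le_abs_self _).trans_lt hlt))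
        · intro hI _; rw [inner_y1] at hI
          exact absurd hI (ne_of_lt ((neg_le_abs _).trans_lt hlt))
        · intro _ _; rfl
      subst hj2
      obtain ⟨hF', hI'⟩ := hxν
      simp only [F, Finset.mem_image, Finset.mem_univ, true_and] at hF'
      obtain ⟨j', hj'⟩ := hF'
      rw [← inner_T, ← hj'] at hI'
      have hcoord : |(Tμ x - Tν x) i₀| = 1 := by
        rw [PiLp.sub_apply, ← hj, ← hj', y_coord i₀ i₁ h hne, y_coord i₀ i₁ (-h) hne]
        revert hI' hj'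
        revert j'
        refine forall_fin3 ?_ ?_ ?_
        · intro _ _; simp
        · intro _ _; simp
        · intro hI' _
          rw [inner_y2] at hI'
          have := le_max_left |x i₀| (-h * x i₁)
          rw [← hI'] at this
          linarith
      have hn : (1 : ℝ) ≤ ‖Tμ x - Tν x‖ := by
        rw [← hcoord, ← Real.norm_eq_abs]
        exact PiLp.norm_apply_le _ _
      have hn' : (1 : ℝ≥0∞) ≤ ‖Tμ x - Tν x‖ₑ := by
        rw [← ofReal_norm, ← ENNReal.ofReal_one]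
        exact ENNReal.ofReal_le_ofReal hn
      calc (1 : ℝ≥0∞) = 1 ^ 2 := by simp
        _ ≤ _ := by gcongr
    · rw [indicator_of_notMem hx]; exact bot_le
  calc ENNReal.ofReal (h / 8) = ρ d (W i₀ i₁ h) := (ρ_W hne h0 h1).symm
    _ = ∫⁻ x, (W i₀ i₁ h).indicator (fun _ => (1 : ℝ≥0∞)) x ∂(ρ d) := by
        rw [lintegral_indicator (measurableSet_W i₀ i₁ h), lintegral_const,
          Measure.restrict_apply_univ, one_mul]
    _ ≤ _ := lintegral_mono_ae hind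

end Masses

/-- Numerics: a suitable `h`. -/
lemma exists_h (α : ℝ) (hα : 1 / 3 < α) (C : ℝ≥0) :
    ∃ h : ℝ, 0 < h ∧ h < 1 ∧ (C : ℝ) * (4 * h ^ 3) ^ α < h / 8 := by
  have hβ : 0 < 3 * α - 1 := by linarith
  have hα0 : 0 < α := by linarith
  set K : ℝ := 8 * C * 4 ^ α + 1 with hK
  have hKpos : 0 < K := by positivity
  have hlim : Filter.Tendsto (fun h : ℝ => h ^ (3 * α - 1)) (nhdsWithin 0 (Ioi 0)) (nhds 0) := by
    have := (Real.continuousAt_rpow_const 0 (3 * α - 1) (Or.inr hβ.le)).tendsto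
    rw [Real.zero_rpow hβ.ne'] at this
    exact this.mono_left nhdsWithin_le_nhds
  have h1 : ∀ᶠ h : ℝ in nhdsWithin 0 (Ioi 0), h ^ (3 * α - 1) < 1 / (2 * K) :=
    hlim.eventually (gt_mem_nhds (by positivity))
  have h2 : ∀ᶠ h : ℝ in nhdsWithin 0 (Ioi 0), h ∈ Ioo (0 : ℝ) 1 :=
    Ioo_mem_nhdsGT (by norm_num)
  obtain ⟨h, hh1, hh2⟩ := (h1.and h2).exists
  refine ⟨h, hh2.1, hh2.2, ?_⟩
  have h0 := hh2.1
  have e1 : (4 * h ^ 3) ^ α = 4 ^ α * (h ^ (3 * α - 1) * h) := by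
    rw [Real.mul_rpow (by norm_num) (by positivity)]
    congr 1
    rw [← Real.rpow_natCast h 3, ← Real.rpow_mul h0.le, ← Real.rpow_add_one h0.ne']
    norm_num
  rw [e1]
  have hKb : 8 * (C : ℝ) * 4 ^ α * h ^ (3 * α - 1) ≤ K * h ^ (3 * α - 1) := by
    gcongr
    rw [hK]; linarith
  have hKc : K * h ^ (3 * α - 1) < 1 := by
    have : K * h ^ (3 * α - 1) < K * (1 / (2 * K)) := by gcongr
    have e2 : K * (1 / (2 * K)) = 1 / 2 := by field_simp
    linarith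
  have : 8 * (C : ℝ) * 4 ^ α * h ^ (3 * α - 1) < 1 := by linarith
  have h3 : 8 * (C : ℝ) * 4 ^ α * h ^ (3 * α - 1) * h < 1 * h := by gcongr
  linarith

/-- The statement of S0110. -/
theorem main (hd : 2 ≤ d) (α : ℝ) (hα : 1 / 3 < α) (C : ℝ≥0) :
    ∃ μ ν : Measure E,
      IsProbabilityOn (Q d) μ ∧ IsProbabilityOn (Q d) ν ∧
      IsThreeAtomic μ ∧ IsThreeAtomic ν ∧
      (∃ T, IsOptimalMap (ρ d) μ T) ∧ (∃ T, IsOptimalMap (ρ d) ν T) ∧
      ∀ Tμ Tν : E → E, IsOptimalMap (ρ d) μ Tμ → IsOptimalMap (ρ d) ν Tν →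
        ∃ π : Measure (E × E), IsPairCoupling μ ν π ∧
          (C : ℝ≥0∞) * quadCost π ^ α < ∫⁻ x, ‖Tμ x - Tν x‖ₑ ^ 2 ∂(ρ d) := by
  obtain ⟨h, h0, h1, hlt⟩ := exists_h α hα C
  have hα0 : 0 < α := by linarith
  let i₀ : Fin d := ⟨0, by omega⟩
  let i₁ : Fin d := ⟨1, by omega⟩
  have hne : i₀ ≠ i₁ := by simp [i₀, i₁, Fin.ext_iff]
  have hTm := measurable_T (d := d) i₀ i₁ h
  have hTm' := measurable_T (d := d) i₀ i₁ (-h)
  have hO := opt_of_argmax (ρ d) norm_le_of_Q (F i₀ i₁ h) (T i₀ i₁ h) hTm (T_mem_F i₀ i₁ h)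
    (argmax i₀ i₁ h)
  have hO' := opt_of_argmax (ρ d) norm_le_of_Q (F i₀ i₁ (-h)) (T i₀ i₁ (-h)) hTm' (T_mem_F i₀ i₁ (-h))
    (argmax i₀ i₁ (-h))
  have hprob : ∀ k : ℝ, |k| ≤ 1 → IsProbabilityOn (Q d) ((ρ d).map (T i₀ i₁ k)) := by
    intro k hk
    refine ⟨Measure.isProbabilityMeasure_map (measurable_T i₀ i₁ k).aemeasurable, ?_⟩
    rw [Measure.map_apply (measurable_T i₀ i₁ k) measurableSet_Q.compl]
    have : T i₀ i₁ k ⁻¹' (Q d)ᶜ = ∅ := by
      ext x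
      simp only [mem_preimage, mem_compl_iff, mem_empty_iff_false, iff_false, not_not]
      exact y_mem_Q i₀ i₁ k hk _
    rw [this, measure_empty]
  have habs : |h| ≤ 1 := by rw [abs_of_pos h0]; exact h1.le
  have habs' : |-h| ≤ 1 := by rw [abs_neg]; exact habs
  refine ⟨(ρ d).map (T i₀ i₁ h), (ρ d).map (T i₀ i₁ (-h)), hprob h habs, hprob (-h) habs', ?_, ?_,
    ⟨_, hO.1⟩, ⟨_, hO'.1⟩, ?_⟩
  · exact threeAtomic_map (ρ d) (τ i₀ i₁ h) (measurable_τ i₀ i₁ h) (y i₀ i₁ h)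
      (y_injective i₀ i₁ h hne) (τ_pos hne h0 h1)
  · refine threeAtomic_map (ρ d) (τ i₀ i₁ (-h)) (measurable_τ i₀ i₁ (-h)) (y i₀ i₁ (-h))
      (y_injective i₀ i₁ (-h) hne) fun j => ?_
    have e : τ i₀ i₁ (-h) ⁻¹' {j} = (R i₁) ⁻¹' (τ i₀ i₁ h ⁻¹' {j}) := by
      ext x; simp [τ_R i₀ i₁ h hne]
    rw [e, ← Measure.map_apply (measurable_R i₁) ((measurable_τ i₀ i₁ h) (measurableSet_singleton _)),
      map_R_ρ]
    exact τ_pos hne h0 h1 j
  · intro Tμ Tν hμ hν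
    have hg : Measurable fun z : E => (z, R i₁ z) := measurable_id.prodMk (measurable_R i₁)
    refine ⟨((ρ d).map (T i₀ i₁ h)).map fun z => (z, R i₁ z), ⟨?_, ?_⟩, ?_⟩
    · rw [Measure.map_map measurable_fst hg]
      exact Measure.map_id
    · rw [Measure.map_map measurable_snd hg, map_T_neg i₀ i₁ h hne]
      rfl
    · have hcost := cost_le (d := d) hne h0 h1
      have hgap := gap_ge hne h0 h1 Tμ Tν (hO.2 Tμ hμ) (hO'.2 Tν hν)
      refine lt_of_lt_of_le ?_ hgap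
      calc (C : ℝ≥0∞) * quadCost (((ρ d).map (T i₀ i₁ h)).map fun z => (z, R i₁ z)) ^ α
          ≤ (C : ℝ≥0∞) * (ENNReal.ofReal (4 * h ^ 3)) ^ α := by
            gcongr
        _ = ENNReal.ofReal ((C : ℝ) * (4 * h ^ 3) ^ α) := by
            rw [ENNReal.ofReal_rpow_of_pos (by positivity), ENNReal.ofReal_mul (by positivity),
              ENNReal.ofReal_coe_nnreal]
        _ < ENNReal.ofReal (h / 8) := by
            exact (ENNReal.ofReal_lt_ofReal_iff (by positivity)).mpr hlt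

end Concrete

end Crest.Agent.Lib.OTStab.Wedge
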